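import Vale.Agent.P161.Lip

/-!
# Coin expectations: flip-invariant measures and orthogonality
-/

open MeasureTheory Set

namespace P161

variable {ι : Type*}

open Classical in
/-- flip the coin number `e` -/
noncomputable def flipAt (e : ι) (c : ι → Bool) : ι → Bool := Function.update c e (!c e)

theorem flipAt_self (e : ι) (c : ι → Bool) : flipAt e c e = !c e := by
  simp [flipAt]

theorem flipAt_ne {e i : ι} (h : i ≠ e) (c : ι → Bool) : flipAt e c i = c i := by
  simp [flipAt, h]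

theorem measurable_flipAt (e : ι) : Measurable (flipAt e : (ι → Bool) → (ι → Bool)) := by
  classical
  refine measurable_pi_lambda _ fun i => ?_
  by_cases h : i = e
  · subst h
    simp only [flipAt_self]
    exact (measurable_of_finite (fun b : Bool => !b)).comp (measurable_pi_apply i)
  · simp only [flipAt_ne h]
    exact measurable_pi_apply i

/-- A measure on coin configurations invariant under each single flip. -/
def FlipInv (Q : Measure (ι → Bool)) : Prop := ∀ e, Q.map (flipAt e) = Q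

theorem FlipInv.integral_eq {Q : Measure (ι → Bool)} (hQ : FlipInv Q) (e : ι)
    {f : (ι → Bool) → ℝ} (hf : Loc f) : ∫ c, f (flipAt e c) ∂Q = ∫ c, f c ∂Q := by
  conv_rhs => rw [← hQ e]
  rw [integral_map (measurable_flipAt e).aemeasurable hf.measurable.aestronglyMeasurable]

/-- `f` does not depend on coin `e` -/
def Ind (e : ι) (f : (ι → Bool) → ℝ) : Prop := ∀ c, f (flipAt e c) = f c

theorem FlipInv.orth {Q : Measure (ι → Bool)} (hQ : FlipInv Q) {e : ι}
    {f : (ι → Bool) → ℝ} (hf : Loc f) (hi : Ind e f) : ∫ c, spin (c e) * f c ∂Q = 0 := by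
  have h := hQ.integral_eq e ((Loc.coord e).mul hf)
  simp only [flipAt_self, spin_not, hi _, neg_mul] at h
  rw [integral_neg] at h
  linarith

theorem FlipInv.sq_add {Q : Measure (ι → Bool)} [IsFiniteMeasure Q] (hQ : FlipInv Q) {e : ι}
    {f g : (ι → Bool) → ℝ} (hf : Loc f) (hg : Loc g) (hfi : Ind e f) (hgi : Ind e g) (γ : ℝ) :
    ∫ c, (f c + γ * spin (c e) * g c) ^ 2 ∂Q = ∫ c, f c ^ 2 ∂Q + γ ^ 2 * ∫ c, g c ^ 2 ∂Q := by
  have h1 : ∀ c, (f c + γ * spin (c e) * g c) ^ 2
      = f c ^ 2 + (2 * γ) * (spin (c e) * (f c * g c)) + γ ^ 2 * g c ^ 2 := fun c => by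
    have := spin_sq (c e)
    linear_combination (γ ^ 2 * g c ^ 2) * this
  simp_rw [h1]
  have l2 : Loc (fun c : ι → Bool => (2 * γ) * (spin (c e) * (f c * g c))) :=
    ((Loc.coord e).mul (hf.mul hg)).const_mul (2 * γ)
  have i3 := ((hg.pow 2).const_mul (γ ^ 2)).integrable Q
  have i1 := (hf.pow 2).integrable Q
  have e1 : ∫ c, (f c ^ 2 + (2 * γ) * (spin (c e) * (f c * g c)) + γ ^ 2 * g c ^ 2) ∂Q
      = ∫ c, (f c ^ 2 + (2 * γ) * (spin (c e) * (f c * g c))) ∂Q + ∫ c, γ ^ 2 * g c ^ 2 ∂Q :=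
    integral_add (((hf.pow 2).add l2).integrable Q) i3
  have e2 : ∫ c, (f c ^ 2 + (2 * γ) * (spin (c e) * (f c * g c))) ∂Q
      = ∫ c, f c ^ 2 ∂Q + ∫ c, (2 * γ) * (spin (c e) * (f c * g c)) ∂Q :=
    integral_add i1 (l2.integrable Q)
  rw [e1, e2, integral_const_mul, integral_const_mul,
    hQ.orth (hf.mul hg) (fun c => by simp only [hfi c, hgi c])]
  ring

theorem FlipInv.lin_add {Q : Measure (ι → Bool)} [IsFiniteMeasure Q] (hQ : FlipInv Q) {e : ι}
    {f g : (ι → Bool) → ℝ} (hf : Loc f) (hg : Loc g) (hgi : Ind e g) (γ : ℝ) :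
    ∫ c, (f c + γ * spin (c e) * g c) ∂Q = ∫ c, f c ∂Q := by
  have h1 : ∀ c, (f c + γ * spin (c e) * g c) = f c + γ * (spin (c e) * g c) := fun c => by ring
  simp_rw [h1]
  have l2 : Loc (fun c : ι → Bool => γ * (spin (c e) * g c)) :=
    ((Loc.coord e).mul hg).const_mul γ
  have e1 : ∫ c, (f c + γ * (spin (c e) * g c)) ∂Q
      = ∫ c, f c ∂Q + ∫ c, γ * (spin (c e) * g c) ∂Q :=
    integral_add (hf.integrable Q) (l2.integrable Q)
  rw [e1, integral_const_mul, hQ.orth hg hgi]
  ring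

end P161
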