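import Vale.Agent.P161.Process

/-!
# Comparison of the process in a ball with the process in a larger set
-/

open MeasureTheory Set

namespace P161

universe u

variable {V : Type u} {G : SimpleGraph V} {θ γ : ℝ} {μ : Measure (V → Bool)}
variable [IsProbabilityMeasure μ] {Q : Measure (V × ℕ → Bool)} [IsFiniteMeasure Q]

/-- The numerical hypotheses used in the comparison estimate. -/
structure Hyp (G : SimpleGraph V) (μ : Measure (V → Bool)) (θ γ t s r K S : ℝ) : Prop where
  tree : G.IsTree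
  ising : IsFreeIsing G θ μ
  θ0 : 0 ≤ θ
  θ1 : θ ^ 2 < 1 / 2
  hγ : |γ| ≤ 1 / 4
  ht : 1 < t
  hr : 0 < r
  hs : t * t * θ ^ 2 ≤ s * r
  hs1 : s < 1
  hK4 : 4 ≤ K
  hK : Cst θ t * (1 + t) ≤ (1 - s) * K
  hS : ∀ (v : V) (F : Finset V), ∑ w ∈ F, r ^ (G.dist v w) ≤ S
  hγK : γ ^ 2 * (S * K) ≤ 1 / 2
  hγS : γ ^ 2 * S ≤ 1 / 2

theorem Dd_round_aux [Countable V] {t s r K S : ℝ} (H : Hyp G μ θ γ t s r K S)
    (hQ : FlipInv Q) (p : V → Bool) {Ψ : V → ℝ} (hΨ : ∀ v, 0 < Ψ v)
    (hΨt : ∀ v w, G.Adj v w → Ψ w ≤ t * Ψ v)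
    (hp : ∀ v w, p w = false → (θ ^ 2) ^ (G.dist v w) ≤ r ^ (G.dist v w) * Ψ v)
    {X : ℝ} (hX : 0 ≤ X) (l : List (V × ℕ)) :
    ∀ l' : List (V × ℕ), (l' ++ l).Nodup → (∀ w, Dd μ γ Q p (l' ++ l) w ≤ X * Ψ w) →
      ∀ v, Dd μ γ Q p (l' ++ l) v ≤ Dd μ γ Q p l v
        + γ ^ 2 * ((K * X + Q.real univ) * Ψ v) * (l'.map fun e => r ^ (G.dist v e.1)).sum := by
  intro l'
  induction l' with
  | nil => intro _ _ v; simp
  | cons e l' ih =>
      intro hnd hD v
      rw [List.cons_append] at hnd hD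
      have hnd' := List.nodup_cons.1 hnd
      have hD' : ∀ w, Dd μ γ Q p (l' ++ l) w ≤ X * Ψ w := fun w =>
        (Dd_mono hQ p w [e] (by simpa using hnd)).trans (hD w)
      have h1 := ih hnd'.2 hD' v
      rw [List.cons_append, Dd_cons hQ p hnd'.1, List.map_cons, List.sum_cons]
      have hq0 : 0 ≤ Q.real univ := measureReal_nonneg
      have hΨv := (hΨ v).le
      have hr0 := H.hr.le
      have hK0 : 0 ≤ K := by linarith [H.hK4]
      have key : ∫ c, ((if p e.1 then cv μ γ ((l' ++ l).filter fun e => p e.1) v e.1 c else 0)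
          - cv μ γ (l' ++ l) v e.1 c) ^ 2 ∂Q
          ≤ (K * X + Q.real univ) * Ψ v * r ^ (G.dist v e.1) := by
        by_cases hpe : p e.1
        · simp only [hpe, if_true]
          have := cv_diff_int H.tree H.ising H.θ0 H.θ1 H.hγ H.ht H.hr H.hs H.hs1 H.hK4 H.hK
            hΨ hΨt ((l' ++ l).filter fun e => p e.1) (l' ++ l) hX hD' _ v e.1 rfl
          refine this.trans ?_
          have : 0 ≤ Q.real univ * Ψ v * r ^ (G.dist v e.1) := by positivity
          linarith
        · have hpe' : p e.1 = false := by simpa using hpe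
          simp only [hpe', Bool.false_eq_true, if_false]
          have hθ1 : θ < 1 := by nlinarith [H.θ1, H.θ0]
          have hb : ∀ c, (0 - cv μ γ (l' ++ l) v e.1 c) ^ 2 ≤ (θ ^ 2) ^ (G.dist v e.1) := by
            intro c
            have := (dens_post (μ := μ) H.tree H.hγ (l' ++ l) c).cov_bounds H.tree H.ising H.θ0
              hθ1 _ v e.1 rfl
            have h2 : |cv μ γ (l' ++ l) v e.1 c| ≤ θ ^ (G.dist v e.1) := this
            calc (0 - cv μ γ (l' ++ l) v e.1 c) ^ 2 = |cv μ γ (l' ++ l) v e.1 c| ^ 2 := by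
                  rw [sq_abs]; ring
              _ ≤ (θ ^ (G.dist v e.1)) ^ 2 := by gcongr
              _ = _ := by rw [← pow_mul, ← pow_mul, mul_comm]
          calc ∫ c, (0 - cv μ γ (l' ++ l) v e.1 c) ^ 2 ∂Q
              ≤ ∫ _, (θ ^ 2) ^ (G.dist v e.1) ∂Q := by
                refine integral_mono ((((Loc.const 0).sub (loc_cv _ v e.1)).pow 2).integrable Q)
                  (integrable_const _) hb
            _ = Q.real univ * (θ ^ 2) ^ (G.dist v e.1) := by
                rw [integral_const, smul_eq_mul]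
            _ ≤ Q.real univ * (r ^ (G.dist v e.1) * Ψ v) := by
                gcongr; exact hp v e.1 hpe'
            _ ≤ _ := by
                have : 0 ≤ K * X * Ψ v * r ^ (G.dist v e.1) := by positivity
                linarith
      have h2 := mul_le_mul_of_nonneg_left key (sq_nonneg γ)
      nlinarith [h1, h2]

/-- one round of updates -/
theorem Dd_round [Countable V] {t s r K S : ℝ} (H : Hyp G μ θ γ t s r K S)
    (hQ : FlipInv Q) (p : V → Bool) {Ψ : V → ℝ} {b : ℝ} (hb : 0 < b) (hbΨ : ∀ v, b ≤ Ψ v)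
    (hΨt : ∀ v w, G.Adj v w → Ψ w ≤ t * Ψ v)
    (hp : ∀ v w, p w = false → (θ ^ 2) ^ (G.dist v w) ≤ r ^ (G.dist v w) * Ψ v)
    {Y : ℝ} (hY : 0 ≤ Y) (l l' : List (V × ℕ)) (hnd : (l' ++ l).Nodup)
    (hfst : (l'.map Prod.fst).Nodup) (hD : ∀ w, Dd μ γ Q p l w ≤ Y * Ψ w) :
    ∀ v, Dd μ γ Q p (l' ++ l) v ≤ (2 * Y + Q.real univ) * Ψ v := by
  classical
  have hΨ : ∀ v, 0 < Ψ v := fun v => hb.trans_le (hbΨ v)
  have hq0 : 0 ≤ Q.real univ := measureReal_nonneg
  have hK0 : 0 ≤ K := by linarith [H.hK4]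
  intro v₀
  haveI : Nonempty V := ⟨v₀⟩
  have hbdd : BddAbove (Set.range fun w => Dd μ γ Q p (l' ++ l) w / Ψ w) := by
    refine ⟨4 * Q.real univ / b, ?_⟩
    rintro _ ⟨w, rfl⟩
    exact div_le_div₀ (by positivity) (Dd_le H.tree H.hγ p _ w) hb (hbΨ w)
  set X := ⨆ w, Dd μ γ Q p (l' ++ l) w / Ψ w with hXdef
  have hXle : ∀ w, Dd μ γ Q p (l' ++ l) w ≤ X * Ψ w := fun w => by
    rw [← div_le_iff₀ (hΨ w)]
    exact le_ciSup hbdd w
  have hX : 0 ≤ X := le_trans (div_nonneg (Dd_nonneg p _ v₀) (hΨ v₀).le) (le_ciSup hbdd v₀)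
  have hsum : ∀ v, (l'.map fun e => r ^ (G.dist v e.1)).sum ≤ S := by
    intro v
    have : (l'.map fun e => r ^ (G.dist v e.1))
        = (l'.map Prod.fst).map fun w => r ^ (G.dist v w) := by
      rw [List.map_map]; rfl
    rw [this, ← List.sum_toFinset _ hfst]
    exact H.hS v _
  have hS0 : 0 ≤ S := le_trans (by simp) (H.hS v₀ ∅)
  have hround : ∀ v, Dd μ γ Q p (l' ++ l) v
      ≤ (Y + (X / 2 + Q.real univ / 2)) * Ψ v := by
    intro v
    have h1 := Dd_round_aux H hQ p hΨ hΨt hp hX l l' hnd hXle v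
    have hΨv := (hΨ v).le
    have h2 : γ ^ 2 * ((K * X + Q.real univ) * Ψ v) * (l'.map fun e => r ^ (G.dist v e.1)).sum
        ≤ γ ^ 2 * ((K * X + Q.real univ) * Ψ v) * S := by
      apply mul_le_mul_of_nonneg_left (hsum v); positivity
    have h3 : γ ^ 2 * ((K * X + Q.real univ) * Ψ v) * S
        = ((γ ^ 2 * (S * K)) * X + (γ ^ 2 * S) * Q.real univ) * Ψ v := by ring
    have h4 : (γ ^ 2 * (S * K)) * X + (γ ^ 2 * S) * Q.real univ
        ≤ 1 / 2 * X + 1 / 2 * Q.real univ := by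
      gcongr
      · exact H.hγK
      · exact H.hγS
    have h5 := mul_le_mul_of_nonneg_right h4 hΨv
    have h6 := hD v
    nlinarith
  have hXX : X ≤ Y + (X / 2 + Q.real univ / 2) := by
    refine ciSup_le fun w => ?_
    rw [div_le_iff₀ (hΨ w)]
    exact hround w
  have hfin : X ≤ 2 * Y + Q.real univ := by linarith
  exact (hXle v₀).trans (mul_le_mul_of_nonneg_right hfin (hΨ v₀).le)

/-- `j` rounds of updates through the list `l₀` -/
def rounds (l₀ : List V) : ℕ → List (V × ℕ)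
  | 0 => []
  | j + 1 => (l₀.map fun v => (v, j)) ++ rounds l₀ j

theorem mem_rounds {l₀ : List V} {j : ℕ} {e : V × ℕ} :
    e ∈ rounds l₀ j ↔ e.1 ∈ l₀ ∧ e.2 < j := by
  induction j with
  | zero => simp [rounds]
  | succ j ih =>
      simp only [rounds, List.mem_append, List.mem_map, ih]
      constructor
      · rintro (⟨v, hv, rfl⟩ | ⟨h1, h2⟩)
        · exact ⟨hv, Nat.lt_succ_self j⟩
        · exact ⟨h1, h2.trans (Nat.lt_succ_self j)⟩
      · rintro ⟨h1, h2⟩
        rcases Nat.lt_succ_iff_lt_or_eq.1 h2 with h | h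
        · exact Or.inr ⟨h1, h⟩
        · exact Or.inl ⟨e.1, h1, by rw [← h]⟩

theorem nodup_rounds {l₀ : List V} (h : l₀.Nodup) (j : ℕ) : (rounds l₀ j).Nodup := by
  induction j with
  | zero => simp [rounds]
  | succ j ih =>
      simp only [rounds]
      refine List.Nodup.append (h.map fun a b hab => (Prod.mk.inj hab).1) ih ?_
      intro e he1 he2
      obtain ⟨v, _, rfl⟩ := List.mem_map.1 he1
      exact lt_irrefl _ (mem_rounds.1 he2).2

theorem filter_rounds (p : V → Bool) (l₀ : List V) (j : ℕ) :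
    (rounds l₀ j).filter (fun e => p e.1) = rounds (l₀.filter p) j := by
  induction j with
  | zero => rfl
  | succ j ih =>
      simp only [rounds, List.filter_append, ih, List.filter_map]
      rfl

theorem Dd_rounds [Countable V] {t s r K S : ℝ} (H : Hyp G μ θ γ t s r K S)
    (hQ : FlipInv Q) (p : V → Bool) {Ψ : V → ℝ} {b : ℝ} (hb : 0 < b) (hbΨ : ∀ v, b ≤ Ψ v)
    (hΨt : ∀ v w, G.Adj v w → Ψ w ≤ t * Ψ v)
    (hp : ∀ v w, p w = false → (θ ^ 2) ^ (G.dist v w) ≤ r ^ (G.dist v w) * Ψ v)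
    {l₀ : List V} (hl : l₀.Nodup) (j : ℕ) :
    ∀ v, Dd μ γ Q p (rounds l₀ j) v ≤ (2 ^ j - 1) * Q.real univ * Ψ v := by
  induction j with
  | zero =>
      intro v
      simp [rounds, Dd]
  | succ j ih =>
      have hq0 : 0 ≤ Q.real univ := measureReal_nonneg
      have h2 : (1 : ℝ) ≤ 2 ^ j := one_le_pow₀ (by norm_num)
      have hY : 0 ≤ (2 ^ j - 1) * Q.real univ := mul_nonneg (by linarith) hq0
      have := Dd_round H hQ p hb hbΨ hΨt hp hY (rounds l₀ j) (l₀.map fun v => (v, j))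
        (nodup_rounds hl (j + 1)) (by rw [List.map_map]; simpa [Function.comp_def] using hl) ih
      intro v
      refine (this v).trans (le_of_eq ?_)
      rw [pow_succ]; ring

/-- Comparison of the process in a ball with the process in a larger set. -/
theorem ball_compare [Countable V] {t s r K S : ℝ} (H : Hyp G μ θ γ t s r K S)
    (hQ : FlipInv Q) (x : V) (n : ℕ) {l₀ : List V} (hl : l₀.Nodup) (j : ℕ) (v : V) :
    ∫ c, (mg μ γ (rounds (l₀.filter fun w => G.dist x w ≤ n) j) v c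
      - mg μ γ (rounds l₀ j) v c) ^ 2 ∂Q
      ≤ 2 ^ j * Q.real univ * (t ^ (G.dist x v) / t ^ n) := by
  have ht0 : 0 < t := by linarith [H.ht]
  have ht1 : 1 ≤ t := H.ht.le
  have hθr : t * θ ^ 2 ≤ r := by
    have h1 : t * θ ^ 2 ≤ t * t * θ ^ 2 := by
      have : t ≤ t * t := by nlinarith
      exact mul_le_mul_of_nonneg_right this (sq_nonneg _)
    have h2 : s * r ≤ r := by nlinarith [H.hs1, H.hr]
    linarith [H.hs]
  have main := Dd_rounds H hQ (fun w => decide (G.dist x w ≤ n))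
    (Ψ := fun w => t ^ (G.dist x w) / t ^ n) (b := 1 / t ^ n) (by positivity)
    (fun w => by gcongr; exact one_le_pow₀ ht1)
    (fun a w haw => by
      have hd : G.dist x w ≤ G.dist x a + 1 := by
        have := H.tree.connected.dist_triangle (u := x) (v := a) (w := w)
        rw [SimpleGraph.dist_eq_one_iff_adj.2 haw] at this
        exact this
      calc t ^ (G.dist x w) / t ^ n ≤ t ^ (G.dist x a + 1) / t ^ n := by
            gcongr
        _ = t * (t ^ (G.dist x a) / t ^ n) := by rw [pow_succ]; ring)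
    (fun a w hw => by
      have hw' : n < G.dist x w := by simpa using hw
      have htri := H.tree.connected.dist_triangle (u := x) (v := a) (w := w)
      have h1 : (θ ^ 2) ^ (G.dist a w) * t ^ (G.dist a w) ≤ r ^ (G.dist a w) := by
        rw [← mul_pow]
        have : θ ^ 2 * t ≤ r := by linarith
        exact pow_le_pow_left₀ (by positivity) this _
      have h2 : t ^ n ≤ t ^ (G.dist a w) * t ^ (G.dist x a) := by
        rw [← pow_add]
        exact pow_le_pow_right₀ ht1 (by omega)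
      rw [mul_div_assoc', le_div_iff₀ (by positivity)]
      calc (θ ^ 2) ^ (G.dist a w) * t ^ n
          ≤ (θ ^ 2) ^ (G.dist a w) * (t ^ (G.dist a w) * t ^ (G.dist x a)) := by gcongr
        _ = ((θ ^ 2) ^ (G.dist a w) * t ^ (G.dist a w)) * t ^ (G.dist x a) := by ring
        _ ≤ _ := by gcongr)
    hl j v
  rw [Dd, filter_rounds (fun w => decide (G.dist x w ≤ n))] at main
  refine main.trans ?_
  have hq0 : 0 ≤ Q.real univ := measureReal_nonneg
  have : (2 : ℝ) ^ j - 1 ≤ 2 ^ j := by linarith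
  gcongr

end P161
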