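import Mathlib

/-!
# Free Ising state on a tree and factors of IID: definitions
-/

open MeasureTheory Set


namespace P161

universe u

variable {V : Type u}

/-- The real value `±1` of a spin (`true` is `+1`, `false` is `-1`). -/
def spin (b : Bool) : ℝ := if b then 1 else -1

/-- The product `η_a η_b` of the two spins at the ends of an unordered pair `{a, b}`. -/
def pairSpin (η : V → Bool) : Sym2 V → ℝ :=
  Sym2.lift ⟨fun a b => spin (η a) * spin (η b), fun _ _ => mul_comm _ _⟩

open Classical in
/-- The edges of `G` with both ends in `D`. -/
noncomputable def edgesIn (G : SimpleGraph V) (D : Finset V) : Finset (Sym2 V) :=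
  D.sym2.filter (fun e => e ∈ G.edgeSet)

/-- `μ` is the free zero-field Ising measure with edge parameter `θ = tanh β` on the tree `G`:
a probability measure which gives, for every finite connected vertex set `D` (a finite subtree)
and every spin pattern `η`, the probability `1/2 * ∏_{ab edge of D} (1 + θ η_a η_b) / 2`. -/
structure IsFreeIsing (G : SimpleGraph V) (θ : ℝ) (μ : Measure (V → Bool)) : Prop where
  isProb : IsProbabilityMeasure μ
  cylinder : ∀ D : Finset V, (G.induce (D : Set V)).Connected → ∀ η : V → Bool,
    μ.real {σ | ∀ v ∈ D, σ v = η v}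
      = 1 / 2 * ∏ e ∈ edgesIn G D, (1 + θ * pairSpin η e) / 2

/-- The law of i.i.d. uniform `[0,1]` labels at the vertices. -/
noncomputable def labelLaw (V : Type u) : Measure (V → unitInterval) :=
  Measure.infinitePi fun _ : V => (volume : Measure unitInterval)

/-- `ν` is a factor of IID on the graph `G`: it is the law of `Φ U` for i.i.d. uniform labels `U`
and a measurable map `Φ` which, for each fixed automorphism `g` of `G`, almost surely commutes
with `g`; here `(g x)_v = x_{g⁻¹ v}`. -/
def IsFactorOfIID (G : SimpleGraph V) (ν : Measure (V → Bool)) : Prop :=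
  ∃ Φ : (V → unitInterval) → (V → Bool), Measurable Φ ∧
    (∀ g : G ≃g G, ∀ᵐ U ∂(labelLaw V), Φ (fun v => U (g.symm v)) = fun v => Φ U (g.symm v)) ∧
    (labelLaw V).map Φ = ν

end P161
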