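import Vale.Agent.P161.Field

/-!
# Equivariance of the magnetisation field
-/

open MeasureTheory Set Filter Topology

namespace P161

universe u

variable {V : Type u} {G : SimpleGraph V} {θ γ : ℝ} {μ : Measure (V → Bool)}

theorem dist_map_le (hG : G.Connected) (g : G ≃g G) (x y : V) :
    G.dist (g x) (g y) ≤ G.dist x y := by
  obtain ⟨p, hp⟩ := hG.exists_walk_length_eq_dist x y
  have := SimpleGraph.dist_le (p.map g.toHom)
  rw [SimpleGraph.Walk.length_map, hp] at this
  exact this

theorem dist_map_eq (hG : G.Connected) (g : G ≃g G) (x y : V) :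
    G.dist (g x) (g y) = G.dist x y := by
  refine le_antisymm (dist_map_le hG g x y) ?_
  have := dist_map_le hG g.symm (g x) (g y)
  simpa using this

theorem int_map_aut (hG : G.Connected) (hμ : IsFreeIsing G θ μ) (g : G ≃g G)
    {f : (V → Bool) → ℝ} (hf : Loc f) :
    ∫ s, f (fun v => s (g v)) ∂μ = ∫ s, f s ∂μ := by
  have h := hμ.map_aut hG g.symm
  have hm : Measurable fun (s : V → Bool) (v : V) => s (g v) := by fun_prop
  conv_rhs => rw [← h]
  rw [integral_map]
  · rfl
  · exact hm.aemeasurable
  · exact hf.measurable.aestronglyMeasurable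

/-- action of an automorphism on events -/
def evMap (g : G ≃g G) (e : V × ℕ) : V × ℕ := (g e.1, e.2)

theorem dens_map (hG : G.Connected) (hμ : IsFreeIsing G θ μ) (g : G ≃g G) (L : List (V × ℕ))
    (c : V × ℕ → Bool) (s : V → Bool) :
    dens μ γ (L.map (evMap g)) c s = dens μ γ L (fun e => c (evMap g e)) (fun v => s (g v)) := by
  induction L generalizing s with
  | nil => rfl
  | cons e L ih =>
      rw [List.map_cons]
      simp only [dens, upd]
      have hm : mean μ (dens μ γ (L.map (evMap g)) c) (evMap g e).1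
          = mean μ (dens μ γ L fun e => c (evMap g e)) e.1 := by
        unfold mean
        rw [← int_map_aut hG hμ g ((dens_loc_spin L _).mul (Loc.coord e.1))]
        simp_rw [ih]
        rfl
      rw [hm, ih]
      rfl

theorem mg_map (hG : G.Connected) (hμ : IsFreeIsing G θ μ) (g : G ≃g G) (L : List (V × ℕ))
    (v : V) (c : V × ℕ → Bool) :
    mg μ γ (L.map (evMap g)) (g v) c = mg μ γ L v (fun e => c (evMap g e)) := by
  unfold mg mean
  rw [← int_map_aut hG hμ g ((dens_loc_spin L _).mul (Loc.coord v))]
  simp_rw [dens_map hG hμ g]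

theorem rounds_map (g : G ≃g G) (l : List V) (j : ℕ) :
    rounds (l.map g) j = (rounds l j).map (evMap g) := by
  induction j with
  | zero => rfl
  | succ j ih =>
      simp only [rounds, List.map_append, ih, List.map_map]
      rfl

/-- action of an automorphism on labels -/
def shift (g : G ≃g G) {β : Type*} (ω : V → β) : V → β := fun v => ω (g.symm v)

theorem coinOf_shift (g : G ≃g G) (ω : V → Lab) :
    (fun e => coinOf (shift g ω) (evMap g e)) = coinOf ω := by
  funext e
  simp [coinOf, shift, evMap]

theorem Ord_map (g : G ≃g G) (l : List V) (ω : V → Lab) (h : ω ∈ Ord l) :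
    shift g ω ∈ Ord (l.map g) := by
  unfold Ord at *
  rw [mem_setOf_eq, List.pairwise_map]
  refine h.imp ?_
  intro a b hab
  simpa [shift] using hab

theorem Mf_map (hG : G.Connected) (hμ : IsFreeIsing G θ μ) (g : G ≃g G) {Λ Λ' : Finset V}
    (hΛ : ∀ y, g y ∈ Λ' ↔ y ∈ Λ) (j : ℕ) (v : V) {ω : V → Lab}
    (hω : Function.Injective fun v => (ω v).1) :
    Mf μ γ Λ' j (g v) (shift g ω) = Mf μ γ Λ j v ω := by
  obtain ⟨l, hl, hωl⟩ := exists_list Λ hω
  have hl' : l.map g ∈ lists Λ' := by
    rw [mem_lists] at hl ⊢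
    refine ⟨hl.1.map g.injective, fun x => ?_⟩
    rw [List.mem_map]
    constructor
    · rintro ⟨y, hy, rfl⟩
      exact (hΛ y).2 ((hl.2 y).1 hy)
    · intro hx
      refine ⟨g.symm x, (hl.2 _).2 ((hΛ _).1 (by simpa using hx)), by simp⟩
  rw [Mf_eq hl hωl, Mf_eq hl' (Ord_map g l ω hωl), rounds_map, mg_map hG hμ, coinOf_shift]

theorem PP_map_shift (g : G ≃g G) : (PP V).map (shift g) = PP V := by
  unfold PP shift
  exact Measure.map_infinitePi_infinitePi_of_inj (P := fun _ : V => labLaw) g.symm.injective

theorem measurable_shift (g : G ≃g G) : Measurable (shift g : (V → Lab) → (V → Lab)) := by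
  unfold shift
  fun_prop

end P161
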