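import Vale.Agent.P161.Defs

/-!
# Existence of the free Ising measure on a tree (module F)
-/

open MeasureTheory Set

namespace P161

universe u

variable {V : Type u} {G : SimpleGraph V}

namespace Ex

/-- the path to the root `o` -/
noncomputable def pth (hG : G.IsTree) (o v : V) : G.Walk v o := (hG.existsUnique_path v o).choose

theorem pth_isPath (hG : G.IsTree) (o v : V) : (pth hG o v).IsPath :=
  (hG.existsUnique_path v o).choose_spec.1

theorem eq_pth (hG : G.IsTree) {o v : V} (p : G.Walk v o) (hp : p.IsPath) : p = pth hG o v :=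
  (hG.existsUnique_path v o).choose_spec.2 p hp

/-- the parent -/
noncomputable def par (hG : G.IsTree) (o v : V) : V := (pth hG o v).snd

theorem pth_root (hG : G.IsTree) (o : V) : pth hG o o = SimpleGraph.Walk.nil :=
  (eq_pth hG SimpleGraph.Walk.nil SimpleGraph.Walk.IsPath.nil).symm

theorem pth_cons (hG : G.IsTree) {o v : V} (h : v ≠ o) :
    ∃ ha : G.Adj v (par hG o v), pth hG o v = SimpleGraph.Walk.cons ha (pth hG o (par hG o v)) := by
  have key : ∀ p : G.Walk v o, p.IsPath → ∃ (w : V) (ha : G.Adj v w), p.snd = w ∧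
      p = SimpleGraph.Walk.cons ha (pth hG o w) := by
    intro p hp
    cases p with
    | nil => exact absurd rfl h
    | cons ha p' =>
      rename_i w
      have hp' : p'.IsPath := hp.of_cons
      exact ⟨w, ha, SimpleGraph.Walk.snd_cons p' ha, by rw [← eq_pth hG p' hp']⟩
  obtain ⟨w, ha, hw, h1⟩ := key _ (pth_isPath hG o v)
  have h2 : par hG o v = w := hw
  rw [h2]
  exact ⟨ha, h1⟩

theorem adj_par (hG : G.IsTree) {o v : V} (h : v ≠ o) : G.Adj v (par hG o v) :=
  (pth_cons hG h).1

theorem par_of_adj (hG : G.IsTree) (o : V) {a b : V} (hab : G.Adj a b) :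
    (a ≠ o ∧ par hG o a = b) ∨ (b ≠ o ∧ par hG o b = a) := by
  by_cases ha : a ∈ (pth hG o b).support
  · right
    refine ⟨?_, ?_⟩
    · rintro rfl
      rw [pth_root] at ha
      simp only [SimpleGraph.Walk.support_nil, List.mem_singleton] at ha
      exact hab.ne ha
    · exact (hG.isAcyclic.eq_snd_of_adj_start (pth_isPath hG o b) hab.symm ha).symm
  · left
    refine ⟨?_, ?_⟩
    · rintro rfl
      exact ha (SimpleGraph.Walk.end_mem_support _)
    · have h1 : SimpleGraph.Walk.cons hab (pth hG o b) = pth hG o a :=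
        eq_pth hG _ ((pth_isPath hG o b).cons ha)
      rw [par, ← h1, SimpleGraph.Walk.snd_cons]

/-- depth -/
noncomputable def dep (hG : G.IsTree) (o v : V) : ℕ := (pth hG o v).length

theorem dep_par (hG : G.IsTree) {o v : V} (h : v ≠ o) : dep hG o v = dep hG o (par hG o v) + 1 := by
  obtain ⟨ha, h1⟩ := pth_cons hG h
  unfold dep
  conv_lhs => rw [h1]
  simp

/-- product of spins along a list -/
def sgl (ω : V → Bool) : List V → Bool
  | [] => true
  | u :: l => (ω u == sgl ω l)

/-- the spin at `v`. -/
noncomputable def sig (hG : G.IsTree) (o : V) (ω : V → Bool) (v : V) : Bool :=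
  sgl ω (pth hG o v).support

theorem sig_root (hG : G.IsTree) (o : V) (ω : V → Bool) : sig hG o ω o = ω o := by
  unfold sig
  rw [pth_root]
  simp [sgl]

theorem sig_par (hG : G.IsTree) {o v : V} (h : v ≠ o) (ω : V → Bool) :
    sig hG o ω v = (ω v == sig hG o ω (par hG o v)) := by
  obtain ⟨ha, h1⟩ := pth_cons hG h
  unfold sig
  conv_lhs => rw [h1]
  simp [sgl]

theorem measurable_sgl (l : List V) : Measurable fun ω : V → Bool => sgl ω l := by
  induction l with
  | nil => exact measurable_const
  | cons u l ih =>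
    have h1 : Measurable fun p : Bool × Bool => (p.1 == p.2) := Measurable.of_discrete
    exact h1.comp ((measurable_pi_apply u).prodMk ih)

theorem measurable_sig (hG : G.IsTree) (o : V) : Measurable (sig hG o) :=
  measurable_pi_lambda _ fun _ => measurable_sgl _

/-- the event in terms of the edge signs -/
theorem event_eq (hG : G.IsTree) (o : V) {D : Finset V} {r : V} (hr : r ∈ D)
    (hpar : ∀ v ∈ D, v ≠ r → v ≠ o ∧ par hG o v ∈ D) (η : V → Bool) (ω : V → Bool) :
    (∀ v ∈ D, sig hG o ω v = η v) ↔ sig hG o ω r = η r ∧ ∀ v ∈ D, v ≠ r →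
      ω v = (η v == η (par hG o v)) := by
  constructor
  · intro h
    refine ⟨h r hr, fun v hv hvr => ?_⟩
    obtain ⟨h1, h2⟩ := hpar v hv hvr
    have h3 := sig_par hG h1 ω
    rw [h v hv, h _ h2] at h3
    rw [h3]
    cases ω v <;> cases η (par hG o v) <;> rfl
  · rintro ⟨h1, h2⟩ v hv
    induction hn : dep hG o v using Nat.strong_induction_on generalizing v with
    | _ n ih =>
      by_cases hvr : v = r
      · rw [hvr]; exact h1
      · obtain ⟨h3, h4⟩ := hpar v hv hvr
        rw [sig_par hG h3, h2 v hv hvr, ih _ _ _ h4 rfl]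
        · cases η v <;> cases η (par hG o v) <;> rfl
        · have := dep_par hG h3
          omega

/-- flipping the root label -/
def flp [DecidableEq V] (o : V) (ω : V → Bool) : V → Bool := fun v => if v = o then !ω v else ω v

theorem sig_flp [DecidableEq V] (hG : G.IsTree) (o : V) (ω : V → Bool) (v : V) :
    sig hG o (flp o ω) v = !sig hG o ω v := by
  induction hn : dep hG o v using Nat.strong_induction_on generalizing v with
  | _ n ih =>
    by_cases hv : v = o
    · rw [hv, sig_root, sig_root]; simp [flp]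
    · rw [sig_par hG hv, sig_par hG hv, ih _ _ _ rfl]
      · simp only [flp, hv, if_false]
        cases ω v <;> cases sig hG o ω (par hG o v) <;> rfl
      · have := dep_par hG hv
        omega

theorem spin_beq (a b : Bool) : spin (a == b) = spin a * spin b := by
  cases a <;> cases b <;> simp [spin]

/-- a Bernoulli sign -/
noncomputable def bern (θ : ℝ) : Measure Bool :=
  ENNReal.ofReal ((1 + θ) / 2) • Measure.dirac true +
    ENNReal.ofReal ((1 - θ) / 2) • Measure.dirac false

theorem bern_singleton (θ : ℝ) (b : Bool) :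
    bern θ {b} = ENNReal.ofReal ((1 + θ * spin b) / 2) := by
  cases b <;> simp [bern, spin, sub_eq_add_neg]

theorem bern_prob {θ : ℝ} (h0 : 0 ≤ θ) (h1 : θ ≤ 1) : IsProbabilityMeasure (bern θ) := by
  constructor
  simp only [bern, Measure.add_apply, Measure.smul_apply, measure_univ, smul_eq_mul, mul_one]
  rw [← ENNReal.ofReal_add (by linarith) (by linarith), show (1 + θ) / 2 + (1 - θ) / 2 = 1 by ring,
    ENNReal.ofReal_one]

theorem bern_zero_map : (bern 0).map (fun b => !b) = bern 0 := by
  have h1 : Measurable fun b : Bool => !b := Measurable.of_discrete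
  unfold bern
  rw [Measure.map_add _ _ h1, Measure.map_smul, Measure.map_smul, Measure.map_dirac,
    Measure.map_dirac, add_comm]
  simp

theorem mem_support_or (hG : G.IsTree) (o : V) {v w : V} (h : v ∈ (pth hG o w).support) :
    v = w ∨ dep hG o v < dep hG o w := by
  induction hn : dep hG o w using Nat.strong_induction_on generalizing w with
  | _ n ih =>
    by_cases hw : w = o
    · subst hw
      rw [pth_root] at h
      left
      simpa using h
    · obtain ⟨ha, h1⟩ := pth_cons hG hw
      rw [h1, SimpleGraph.Walk.support_cons, List.mem_cons] at h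
      have h2 := dep_par hG hw
      rcases h with h | h
      · exact Or.inl h
      · right
        rcases ih _ (by omega) h rfl with h3 | h3
        · rw [h3]; omega
        · omega

theorem desc_step (hG : G.IsTree) (o : V) {v a b : V} (hab : G.Adj a b)
    (hv : v = o ∨ b ≠ par hG o v) (h : v ∈ (pth hG o a).support) :
    v ∈ (pth hG o b).support := by
  rcases hv with rfl | hv
  · exact SimpleGraph.Walk.end_mem_support _
  rcases par_of_adj hG o hab with ⟨h1, h2⟩ | ⟨h1, h2⟩
  · obtain ⟨ha, h3⟩ := pth_cons hG h1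
    rw [h3, SimpleGraph.Walk.support_cons, List.mem_cons] at h
    rcases h with h | h
    · exact absurd (by rw [h, h2]) hv
    · rw [h2] at h
      exact h
  · obtain ⟨ha, h3⟩ := pth_cons hG h1
    rw [h3, SimpleGraph.Walk.support_cons, List.mem_cons, h2]
    exact Or.inr h

theorem par_mem (hG : G.IsTree) (o : V) {D : Finset V} (hD : (G.induce (D : Set V)).Connected)
    {r : V} (hr : r ∈ D) (hmin : ∀ v ∈ D, dep hG o r ≤ dep hG o v) :
    ∀ v ∈ D, v ≠ r → v ≠ o ∧ par hG o v ∈ D := by
  intro v hv hvr
  by_contra hcon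
  have hv' : v = o ∨ par hG o v ∉ D := by
    by_cases h : v = o
    · exact Or.inl h
    · right
      intro h2
      exact hcon ⟨h, h2⟩
  have key : ∀ (a b : (D : Set V)) (_ : (G.induce (D : Set V)).Walk a b),
      v ∈ (pth hG o a).support → v ∈ (pth hG o b).support := by
    intro a b p
    induction p with
    | nil => exact id
    | cons hadj p ih =>
      rename_i x y z
      intro h
      apply ih
      refine desc_step hG o (a := x) (b := y) hadj ?_ h
      rcases hv' with h1 | h1
      · exact Or.inl h1
      · right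
        rintro h2
        exact h1 (h2 ▸ y.2)
  obtain ⟨p⟩ := hD.preconnected ⟨v, hv⟩ ⟨r, hr⟩
  have h1 := key _ _ p (SimpleGraph.Walk.start_mem_support _)
  rcases mem_support_or hG o h1 with h2 | h2
  · exact hvr h2
  · have := hmin v hv
    simp only at h2
    omega

theorem mem_edgesIn {D : Finset V} {a b : V} :
    s(a, b) ∈ edgesIn G D ↔ (a ∈ D ∧ b ∈ D) ∧ G.Adj a b := by
  simp [edgesIn]

theorem prod_edges (hG : G.IsTree) (o : V) [DecidableEq V] {D : Finset V} {r : V}
    (hmin : ∀ v ∈ D, dep hG o r ≤ dep hG o v)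
    (hpar : ∀ v ∈ D, v ≠ r → v ≠ o ∧ par hG o v ∈ D) (f : Sym2 V → ℝ) :
    ∏ e ∈ edgesIn G D, f e = ∏ v ∈ D.erase r, f s(v, par hG o v) := by
  symm
  apply Finset.prod_bij (fun v _ => s(v, par hG o v))
  · intro v hv
    rw [Finset.mem_erase] at hv
    obtain ⟨h1, h2⟩ := hpar v hv.2 hv.1
    rw [mem_edgesIn]
    exact ⟨⟨hv.2, h2⟩, adj_par hG h1⟩
  · intro v hv w hw h
    rw [Finset.mem_erase] at hv hw
    rw [Sym2.eq_iff] at h
    rcases h with h | h
    · exact h.1
    · have h1 := dep_par hG (hpar v hv.2 hv.1).1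
      have h2 := dep_par hG (hpar w hw.2 hw.1).1
      rw [← h.1] at h2
      rw [h.2] at h1
      omega
  · intro e he
    induction e with
    | _ a b =>
      rw [mem_edgesIn] at he
      obtain ⟨⟨ha, hb⟩, hab⟩ := he
      rcases par_of_adj hG o hab with ⟨h1, h2⟩ | ⟨h1, h2⟩
      · refine ⟨a, ?_, by rw [h2]⟩
        rw [Finset.mem_erase]
        refine ⟨?_, ha⟩
        rintro rfl
        have h3 := dep_par hG h1
        have h4 := hmin b hb
        rw [h2] at h3
        omega
      · refine ⟨b, ?_, by rw [h2, Sym2.eq_swap]⟩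
        rw [Finset.mem_erase]
        refine ⟨?_, hb⟩
        rintro rfl
        have h3 := dep_par hG h1
        have h4 := hmin a ha
        rw [h2] at h3
        omega
  · intro v hv
    rfl

end Ex

open Ex in
theorem exists_isFreeIsing (hG : G.IsTree) {θ : ℝ} (hθ0 : 0 ≤ θ) (hθ1 : θ ≤ 1) :
    ∃ μ : Measure (V → Bool), IsFreeIsing G θ μ := by
  classical
  obtain ⟨o⟩ := hG.connected.nonempty
  let κ : V → Measure Bool := fun v => bern (if v = o then 0 else θ)
  have hκ : ∀ v, IsProbabilityMeasure (κ v) := by
    intro v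
    by_cases h : v = o
    · simp only [κ, h, if_true]; exact bern_prob le_rfl zero_le_one
    · simp only [κ, h, if_false]; exact bern_prob hθ0 hθ1
  let P := Measure.infinitePi κ
  have hflp : P.map (flp o) = P := by
    have h1 := Measure.infinitePi_map_pi (μ := κ)
      (f := fun v => if v = o then (fun b => !b) else id) (fun v => Measurable.of_discrete)
    have h2 : (fun (x : V → Bool) (i : V) =>
        (if i = o then (fun b => !b) else id : Bool → Bool) (x i)) = flp o := by
      ext x i
      by_cases h : i = o <;> simp [flp, h]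
    rw [h2] at h1
    show (Measure.infinitePi κ).map (flp o) = Measure.infinitePi κ
    rw [h1]
    congr 1
    ext1 v
    by_cases h : v = o
    · simp only [κ, h, if_true]; exact bern_zero_map
    · simp only [κ, h, if_false]; simp
  refine ⟨P.map (sig hG o), ⟨Measure.isProbabilityMeasure_map (measurable_sig hG o).aemeasurable, ?_⟩⟩
  intro D hD η
  -- the top vertex of D
  have hne : D.Nonempty := by
    obtain ⟨v⟩ := hD.nonempty
    exact ⟨v.1, v.2⟩
  obtain ⟨r, hr, hmin⟩ := D.exists_min_image (dep hG o) hne
  have hpar := par_mem hG o hD hr hmin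
  let ξ : V → Bool := fun v => (η v == η (par hG o v))
  let C : Set (V → Bool) := Set.pi ((D.erase r : Finset V) : Set V) (fun v => {ξ v})
  have hCm : MeasurableSet C :=
    MeasurableSet.pi (Finset.countable_toSet _) fun _ _ => measurableSet_singleton _
  have hSm : MeasurableSet {ω : V → Bool | sig hG o ω r = η r} :=
    (measurable_pi_apply r).comp (measurable_sig hG o) (measurableSet_singleton (η r))
  have hmemC : ∀ ω : V → Bool, ω ∈ C ↔ ∀ v ∈ D, v ≠ r → ω v = ξ v := by
    intro ω
    simp only [C, Set.mem_pi, Finset.coe_erase, Set.mem_sdiff, Finset.mem_coe,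
      Set.mem_singleton_iff, and_imp]
  let A : Set (V → Bool) := C ∩ {ω | sig hG o ω r = η r}
  let B : Set (V → Bool) := C \ {ω | sig hG o ω r = η r}
  have hpre : sig hG o ⁻¹' {σ | ∀ v ∈ D, σ v = η v} = A := by
    ext ω
    rw [Set.mem_preimage, Set.mem_ofPred_eq, event_eq hG o hr hpar η ω]
    constructor
    · rintro ⟨h1, h2⟩
      exact ⟨(hmemC ω).2 h2, h1⟩
    · rintro ⟨h1, h2⟩
      exact ⟨h2, (hmemC ω).1 h1⟩
  have hflpm : Measurable (flp o : (V → Bool) → (V → Bool)) := by
    apply measurable_pi_lambda
    intro v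
    unfold flp
    by_cases h : v = o
    · simp only [h, if_true]
      exact (Measurable.of_discrete (f := fun b : Bool => !b)).comp (measurable_pi_apply o)
    · simp only [h, if_false]
      exact measurable_pi_apply v
  have hAB : P A = P B := by
    conv_lhs => rw [← hflp]
    rw [Measure.map_apply hflpm (hCm.inter hSm)]
    congr 1
    ext ω
    have h1 : flp o ω ∈ C ↔ ω ∈ C := by
      rw [hmemC, hmemC]
      refine forall₃_congr fun v hv hvr => ?_
      have h2 : v ≠ o := (hpar v hv hvr).1
      simp [flp, h2]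
    have h3 : flp o ω ∈ {ω : V → Bool | sig hG o ω r = η r} ↔
        ω ∉ {ω : V → Bool | sig hG o ω r = η r} := by
      simp only [Set.mem_ofPred_eq, sig_flp]
      cases sig hG o ω r <;> cases η r <;> simp
    constructor
    · rintro ⟨ha, hb⟩
      exact ⟨h1.1 ha, h3.1 hb⟩
    · rintro ⟨ha, hb⟩
      exact ⟨h1.2 ha, h3.2 hb⟩
  have hsum : P A + P B = P C := measure_inter_add_sdiff C hSm
  have hPC : P C = ∏ v ∈ D.erase r, κ v {ξ v} :=
    Measure.infinitePi_pi κ (fun _ _ => measurableSet_singleton _)
  have hfin : P A ≠ ⊤ := measure_ne_top _ _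
  have h2 : P.real A = 1 / 2 * P.real C := by
    have h3 : P.real C = P.real A + P.real A := by
      rw [Measure.real, Measure.real, ← hsum, ← hAB, ENNReal.toReal_add hfin hfin]
    linarith
  have hDm : MeasurableSet {σ : V → Bool | ∀ v ∈ D, σ v = η v} := by
    have : {σ : V → Bool | ∀ v ∈ D, σ v = η v} = Set.pi (D : Set V) (fun v => {η v}) := by
      ext σ; simp [Set.mem_pi]
    rw [this]
    exact MeasurableSet.pi (Finset.countable_toSet _) fun _ _ => measurableSet_singleton _
  rw [map_measureReal_apply (measurable_sig hG o) hDm, hpre, h2]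
  congr 1
  rw [Measure.real, hPC, ENNReal.toReal_prod, prod_edges hG o hmin hpar]
  apply Finset.prod_congr rfl
  intro v hv
  rw [Finset.mem_erase] at hv
  have hvo : v ≠ o := (hpar v hv.2 hv.1).1
  have h4 : κ v {ξ v} = ENNReal.ofReal ((1 + θ * spin (ξ v)) / 2) := by
    simp only [κ, hvo, if_false]
    exact bern_singleton θ _
  rw [h4, ENNReal.toReal_ofReal]
  · simp only [ξ, spin_beq]
    rfl
  · have h5 : |θ * spin (ξ v)| ≤ 1 := by
      rw [abs_mul, abs_of_nonneg hθ0]
      cases ξ v <;> simp [spin, hθ1]
    have := neg_abs_le (θ * spin (ξ v))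
    linarith

end P161
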