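import Mathlib

/-!
# Square-integrable limits
-/

open MeasureTheory Filter Topology

namespace P161

variable {Ω : Type*} {mΩ : MeasurableSpace Ω} {P : Measure Ω}

theorem norm_sq_toLp {f : Ω → ℝ} (hf : MemLp f 2 P) : ‖hf.toLp f‖ ^ 2 = ∫ x, f x ^ 2 ∂P := by
  rw [← real_inner_self_eq_norm_sq, L2.inner_def]
  refine integral_congr_ae ?_
  filter_upwards [hf.coeFn_toLp] with x hx
  rw [hx]
  simp [sq]

/-- `Y k` tends to `X` in `L²` -/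
def TendL2 (P : Measure Ω) (Y : ℕ → Ω → ℝ) (X : Ω → ℝ) : Prop :=
  Tendsto (fun k => ∫ x, (Y k x - X x) ^ 2 ∂P) atTop (𝓝 0)

theorem sq_sub_le (a b c : ℝ) : (a - c) ^ 2 ≤ 2 * (a - b) ^ 2 + 2 * (b - c) ^ 2 := by
  nlinarith [sq_nonneg ((a - b) - (b - c))]

theorem int_sq_sub_le {f g h : Ω → ℝ} (hf : MemLp f 2 P) (hg : MemLp g 2 P) (hh : MemLp h 2 P) :
    ∫ x, (f x - h x) ^ 2 ∂P ≤ 2 * ∫ x, (f x - g x) ^ 2 ∂P + 2 * ∫ x, (g x - h x) ^ 2 ∂P := by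
  have i1 : Integrable (fun x => (f x - h x) ^ 2) P := (hf.sub hh).integrable_sq
  have i2 : Integrable (fun x => (f x - g x) ^ 2) P := (hf.sub hg).integrable_sq
  have i3 : Integrable (fun x => (g x - h x) ^ 2) P := (hg.sub hh).integrable_sq
  rw [← integral_const_mul, ← integral_const_mul,
    ← integral_add (i2.const_mul 2) (i3.const_mul 2)]
  exact integral_mono i1 ((i2.const_mul 2).add (i3.const_mul 2)) fun x => sq_sub_le _ _ _

theorem exists_L2_limit {Y : ℕ → Ω → ℝ} (hY : ∀ k, MemLp (Y k) 2 P)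
    {ε : ℕ → ℝ} (hε : Tendsto ε atTop (𝓝 0)) {k₀ : ℕ}
    (h : ∀ k m, k₀ ≤ k → k ≤ m → ∫ x, (Y k x - Y m x) ^ 2 ∂P ≤ ε k) :
    ∃ X : Ω → ℝ, Measurable X ∧ MemLp X 2 P ∧ TendL2 P Y X := by
  set F : ℕ → Lp ℝ 2 P := fun k => (hY k).toLp (Y k) with hF
  have hd : ∀ k m, ‖F k - F m‖ ^ 2 = ∫ x, (Y k x - Y m x) ^ 2 ∂P := by
    intro k m
    rw [hF]
    simp only
    rw [← MemLp.toLp_sub]
    exact norm_sq_toLp ((hY k).sub (hY m))
  have hc : CauchySeq F := by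
    rw [Metric.cauchySeq_iff']
    intro e he
    have h1 : ∀ᶠ k in atTop, ε k < e ^ 2 := (tendsto_order.1 hε).2 _ (by positivity)
    obtain ⟨K, hK⟩ := (h1.and (eventually_ge_atTop k₀)).exists
    refine ⟨K, fun n hn => ?_⟩
    rw [dist_comm, dist_eq_norm]
    have h2 := h K n hK.2 hn
    rw [← hd] at h2
    exact lt_of_pow_lt_pow_left₀ 2 he.le (h2.trans_lt hK.1)
  obtain ⟨X, hX⟩ := cauchySeq_tendsto_of_complete hc
  refine ⟨X, (Lp.stronglyMeasurable X).measurable, Lp.memLp X, ?_⟩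
  have h3 : Tendsto (fun k => ‖F k - X‖ ^ 2) atTop (𝓝 0) := by
    have : Tendsto (fun k => ‖F k - X‖) atTop (𝓝 0) := tendsto_iff_norm_sub_tendsto_zero.1 hX
    simpa using this.pow 2
  refine h3.congr fun k => ?_
  have hXm : MemLp (X : Ω → ℝ) 2 P := Lp.memLp X
  have : F k - X = ((hY k).sub hXm).toLp (Y k - (X : Ω → ℝ)) := by
    rw [MemLp.toLp_sub (hY k) hXm, Lp.toLp_coeFn]
  rw [this]
  exact norm_sq_toLp ((hY k).sub hXm)

theorem TendL2.unique {Y Y' : ℕ → Ω → ℝ} {X X' : Ω → ℝ} (hY : ∀ k, MemLp (Y k) 2 P)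
    (hY' : ∀ k, MemLp (Y' k) 2 P)
    (hX : MemLp X 2 P) (hX' : MemLp X' 2 P) (h : TendL2 P Y X) (h' : TendL2 P Y' X')
    (hd : Tendsto (fun k => ∫ x, (Y k x - Y' k x) ^ 2 ∂P) atTop (𝓝 0)) :
    X =ᵐ[P] X' := by
  have h1 : ∀ k, ∫ x, (X x - X' x) ^ 2 ∂P ≤ 2 * ∫ x, (Y k x - X x) ^ 2 ∂P +
      2 * (2 * ∫ x, (Y k x - Y' k x) ^ 2 ∂P + 2 * ∫ x, (Y' k x - X' x) ^ 2 ∂P) := by
    intro k
    have a := int_sq_sub_le hX (hY k) hX'
    have b := int_sq_sub_le (hY k) (hY' k) hX'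
    have c : ∫ x, (X x - Y k x) ^ 2 ∂P = ∫ x, (Y k x - X x) ^ 2 ∂P := by
      congr 1; ext x; ring
    rw [c] at a
    linarith
  have h2 : Tendsto (fun k => 2 * ∫ x, (Y k x - X x) ^ 2 ∂P +
      2 * (2 * ∫ x, (Y k x - Y' k x) ^ 2 ∂P + 2 * ∫ x, (Y' k x - X' x) ^ 2 ∂P)) atTop (𝓝 0) := by
    have := (h.const_mul 2).add (((hd.const_mul 2).add (h'.const_mul 2)).const_mul 2)
    simpa using this
  have h3 : ∫ x, (X x - X' x) ^ 2 ∂P ≤ 0 := ge_of_tendsto' h2 h1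
  have h4 : ∫ x, (X x - X' x) ^ 2 ∂P = 0 :=
    le_antisymm h3 (integral_nonneg fun _ => sq_nonneg _)
  have h5 := (integral_eq_zero_iff_of_nonneg (fun x => sq_nonneg (X x - X' x))
    (hX.sub hX').integrable_sq).1 h4
  filter_upwards [h5] with x hx
  have : X x - X' x = 0 := by
    simpa using hx
  linarith

end P161
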