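import Vale.Agent.P161.Omega
import Vale.Agent.P161.Limit

/-!
# The magnetisation field of a finite set, as a function of the labels
-/

open MeasureTheory Set Filter Topology

namespace P161

universe u

variable {V : Type u} {G : SimpleGraph V} {θ γ : ℝ} {μ : Measure (V → Bool)}

open Classical in
/-- all enumerations of a finite set -/
noncomputable def lists (Λ : Finset V) : Finset (List V) := Λ.toList.permutations.toFinset

theorem mem_lists {Λ : Finset V} {l : List V} :
    l ∈ lists Λ ↔ l.Nodup ∧ ∀ x, x ∈ l ↔ x ∈ Λ := by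
  classical
  unfold lists
  rw [List.mem_toFinset, List.mem_permutations]
  constructor
  · intro h
    exact ⟨h.nodup_iff.2 Λ.nodup_toList, fun x => by rw [h.mem_iff, Finset.mem_toList]⟩
  · rintro ⟨h1, h2⟩
    rw [List.perm_ext_iff_of_nodup h1 Λ.nodup_toList]
    intro x
    rw [h2, Finset.mem_toList]

theorem lists_unique {Λ : Finset V} {l l' : List V} (h : l ∈ lists Λ) (h' : l' ∈ lists Λ)
    {ω : V → Lab} (hω : ω ∈ Ord l) (hω' : ω ∈ Ord l') : l = l' := by
  classical
  have hp : l.Perm l' := by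
    rw [List.perm_ext_iff_of_nodup (mem_lists.1 h).1 (mem_lists.1 h').1]
    intro x
    rw [(mem_lists.1 h).2, (mem_lists.1 h').2]
  exact List.Perm.eq_of_pairwise (le := fun a b => (ω b).1 < (ω a).1)
    (fun a b _ _ h1 h2 => absurd h1 (not_lt.2 h2.le)) hω hω' hp

theorem exists_list (Λ : Finset V) {ω : V → Lab} (hω : Function.Injective fun v => (ω v).1) :
    ∃ l ∈ lists Λ, ω ∈ Ord l := by
  classical
  let le : V → V → Bool := fun a b => decide ((ω b).1 ≤ (ω a).1)
  refine ⟨Λ.toList.mergeSort le, ?_, ?_⟩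
  · rw [mem_lists]
    have := List.mergeSort_perm Λ.toList le
    exact ⟨this.nodup_iff.2 Λ.nodup_toList, fun x => by rw [this.mem_iff, Finset.mem_toList]⟩
  · have h1 : (Λ.toList.mergeSort le).Pairwise fun a b => le a b = true := by
      refine List.pairwise_mergeSort (le := le) ?_ ?_ _
      · intro a b c hab hbc
        simp only [le, decide_eq_true_eq] at *
        exact hbc.trans hab
      · intro a b
        simp only [le, Bool.or_eq_true, decide_eq_true_eq]
        exact le_total _ _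
    have h2 : (Λ.toList.mergeSort le).Nodup :=
      (List.mergeSort_perm Λ.toList le).nodup_iff.2 Λ.nodup_toList
    refine List.Pairwise.imp₂ (R := fun a b => le a b = true) (S := fun a b => a ≠ b) ?_ h1 h2
    intro a b hab hne
    simp only [le, decide_eq_true_eq] at hab
    exact lt_of_le_of_ne hab fun h => hne (hω h.symm)

/-- the magnetisation at `v` after `j` rounds through `Λ` in the order given by the times -/
noncomputable def Mf (μ : Measure (V → Bool)) (γ : ℝ) (Λ : Finset V) (j : ℕ) (v : V)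
    (ω : V → Lab) : ℝ :=
  ∑ l ∈ lists Λ, (Ord l).indicator (fun ω => mg μ γ (rounds l j) v (coinOf ω)) ω

theorem Mf_eq {Λ : Finset V} {l : List V} (hl : l ∈ lists Λ) {ω : V → Lab} (hω : ω ∈ Ord l)
    (j : ℕ) (v : V) : Mf μ γ Λ j v ω = mg μ γ (rounds l j) v (coinOf ω) := by
  unfold Mf
  rw [Finset.sum_eq_single l]
  · rw [indicator_of_mem hω]
  · intro l' hl' hne
    rw [indicator_of_notMem]
    exact fun h => hne (lists_unique hl' hl h hω)
  · exact fun h => absurd hl h

theorem measurable_Mf (Λ : Finset V) (j : ℕ) (v : V) : Measurable (Mf μ γ Λ j v) := by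
  unfold Mf
  refine Finset.measurable_fun_sum _ fun l _ => ?_
  exact ((loc_mg (rounds l j) v).measurable.comp measurable_coinOf).indicator
    (measurableSet_Ord l)

theorem int_split [Countable V] (Λ : Finset V) (h : (V → Lab) → ℝ)
    (F : List V → (V × ℕ → Bool) → ℝ) (hF : ∀ l, Loc (F l))
    (hh : ∀ l ∈ lists Λ, ∀ ω ∈ Ord l, h ω = F l (coinOf ω)) :
    ∫ ω, h ω ∂(PP V) = ∑ l ∈ lists Λ, ∫ c, F l c ∂(QQ l) := by
  have h1 : h =ᵐ[PP V] fun ω => ∑ l ∈ lists Λ, (Ord l).indicator (fun ω => F l (coinOf ω)) ω := by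
    filter_upwards [ae_injective] with ω hω
    obtain ⟨l, hl, hωl⟩ := exists_list Λ hω
    rw [Finset.sum_eq_single l, indicator_of_mem hωl, hh l hl ω hωl]
    · intro l' hl' hne
      rw [indicator_of_notMem]
      exact fun h => hne (lists_unique hl' hl h hωl)
    · exact fun h => absurd hl h
  have hmeas : ∀ l, Measurable fun ω : V → Lab => F l (coinOf ω) := fun l =>
    (hF l).measurable.comp measurable_coinOf
  have hint : ∀ l, Integrable (fun ω : V → Lab => F l (coinOf ω)) (PP V) := by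
    intro l
    obtain ⟨C, hC⟩ := (hF l).bounded
    exact Integrable.of_bound (hmeas l).aestronglyMeasurable C
      (Filter.Eventually.of_forall fun ω => by simpa using hC _)
  rw [integral_congr_ae h1, integral_finset_sum _ fun l _ =>
    (hint l).indicator (measurableSet_Ord l)]
  refine Finset.sum_congr rfl fun l _ => ?_
  rw [integral_indicator (measurableSet_Ord l), QQ,
    integral_map measurable_coinOf.aemeasurable (hF l).measurable.aestronglyMeasurable]

theorem sum_QQ [Countable V] (Λ : Finset V) : ∑ l ∈ lists Λ, (QQ l).real univ = 1 := by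
  have := int_split Λ (fun _ => 1) (fun _ _ => 1) (fun _ => Loc.const 1) (fun _ _ _ _ => rfl)
  simp only [integral_const, smul_eq_mul, mul_one, probReal_univ] at this
  exact this.symm

theorem int_le [Countable V] (Λ : Finset V) (h : (V → Lab) → ℝ)
    (F : List V → (V × ℕ → Bool) → ℝ) (hF : ∀ l, Loc (F l))
    (hh : ∀ l ∈ lists Λ, ∀ ω ∈ Ord l, h ω = F l (coinOf ω)) {a : ℝ}
    (ha : ∀ l ∈ lists Λ, ∫ c, F l c ∂(QQ l) ≤ a * (QQ l).real univ) :
    ∫ ω, h ω ∂(PP V) ≤ a := by
  rw [int_split Λ h F hF hh]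
  calc _ ≤ ∑ l ∈ lists Λ, a * (QQ l).real univ := Finset.sum_le_sum ha
    _ = a := by rw [← Finset.mul_sum, sum_QQ, mul_one]

theorem int_eq [Countable V] (Λ : Finset V) (h : (V → Lab) → ℝ)
    (F : List V → (V × ℕ → Bool) → ℝ) (hF : ∀ l, Loc (F l))
    (hh : ∀ l ∈ lists Λ, ∀ ω ∈ Ord l, h ω = F l (coinOf ω)) {a : ℝ}
    (ha : ∀ l ∈ lists Λ, ∫ c, F l c ∂(QQ l) = (QQ l).real univ * a) :
    ∫ ω, h ω ∂(PP V) = a := by
  rw [int_split Λ h F hF hh]
  calc _ = ∑ l ∈ lists Λ, (QQ l).real univ * a := Finset.sum_congr rfl ha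
    _ = a := by rw [← Finset.sum_mul, sum_QQ, one_mul]

theorem filter_mem_lists {Λ Λ' : Finset V} {p : V → Bool} (hp : ∀ x, x ∈ Λ ↔ x ∈ Λ' ∧ p x = true)
    {l : List V} (hl : l ∈ lists Λ') : l.filter p ∈ lists Λ := by
  rw [mem_lists] at hl ⊢
  refine ⟨hl.1.filter _, fun x => ?_⟩
  rw [List.mem_filter, hl.2, hp]

theorem filter_mem_Ord {l : List V} {p : V → Bool} {ω : V → Lab} (h : ω ∈ Ord l) :
    ω ∈ Ord (l.filter p) := List.Pairwise.filter _ h

section estimates

variable [IsProbabilityMeasure μ] [Countable V]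

/-- comparison of a ball with a larger set -/
theorem Mf_compare {t s r K S : ℝ} (H : Hyp G μ θ γ t s r K S) (x : V) (n : ℕ)
    {Λ Λ' : Finset V} (hΛ : ∀ y, y ∈ Λ ↔ G.dist x y ≤ n) (hsub : Λ ⊆ Λ') (j : ℕ) (v : V) :
    ∫ ω, (Mf μ γ Λ j v ω - Mf μ γ Λ' j v ω) ^ 2 ∂(PP V)
      ≤ 2 ^ j * (t ^ (G.dist x v) / t ^ n) := by
  have hp : ∀ y, y ∈ Λ ↔ y ∈ Λ' ∧ decide (G.dist x y ≤ n) = true := by
    intro y
    rw [decide_eq_true_eq, ← hΛ]
    exact ⟨fun h => ⟨hsub h, h⟩, fun h => h.2⟩
  refine int_le Λ' _ (fun l c => (mg μ γ (rounds (l.filter fun w => decide (G.dist x w ≤ n)) j) v c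
      - mg μ γ (rounds l j) v c) ^ 2) (fun l => ((loc_mg _ v).sub (loc_mg _ v)).pow 2) ?_ ?_
  · intro l hl ω hω
    rw [Mf_eq hl hω, Mf_eq (filter_mem_lists hp hl) (filter_mem_Ord hω)]
  · intro l hl
    have := ball_compare H (flipInv_QQ l) x n (mem_lists.1 hl).1 j v
    linarith

theorem rounds_append (l₀ : List V) {k m : ℕ} (h : k ≤ m) :
    ∃ l', rounds l₀ m = l' ++ rounds l₀ k := by
  induction m, h using Nat.le_induction with
  | base => exact ⟨[], rfl⟩
  | succ m _ ih =>
      obtain ⟨l', hl'⟩ := ih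
      exact ⟨(l₀.map fun v => (v, m)) ++ l', by rw [rounds, hl', List.append_assoc]⟩

/-- rate of decay of the posterior variance -/
noncomputable def bd (γ : ℝ) (k : ℕ) : ℝ := 1 / (γ * Real.sqrt k)

theorem bd_tendsto (hγ : 0 < γ) : Tendsto (bd γ) atTop (𝓝 0) := by
  unfold bd
  have h1 : Tendsto (fun k : ℕ => γ * Real.sqrt k) atTop atTop :=
    (Real.tendsto_sqrt_atTop.comp tendsto_natCast_atTop_atTop).const_mul_atTop hγ
  simp only [one_div]
  exact h1.inv_tendsto_atTop

theorem vr_le_bd (hG : G.IsTree) (hγ0 : 0 < γ) (hγ : |γ| ≤ 1 / 4) {l₀ : List V}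
    (hl : l₀.Nodup) {v : V} (hv : v ∈ l₀) {k : ℕ} (hk : 0 < k) :
    vr μ γ (QQ l₀) (rounds l₀ k) v ≤ bd γ k * (QQ l₀).real univ := by
  have h1 := vr_rounds (μ := μ) (γ := γ) hG hγ (flipInv_QQ l₀) hl hv k
  have hq : 0 ≤ (QQ l₀).real univ := measureReal_nonneg
  have hk' : (0 : ℝ) < Real.sqrt k := Real.sqrt_pos.2 (by exact_mod_cast hk)
  have hks : Real.sqrt k ^ 2 = k := Real.sq_sqrt (by positivity)
  unfold bd
  rw [div_mul_eq_mul_div, one_mul, le_div_iff₀ (by positivity)]
  have h2 : (vr μ γ (QQ l₀) (rounds l₀ k) v * (γ * Real.sqrt k)) ^ 2 ≤ (QQ l₀).real univ ^ 2 := by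
    calc _ = γ ^ 2 * (Real.sqrt k ^ 2) * vr μ γ (QQ l₀) (rounds l₀ k) v ^ 2 := by ring
      _ ≤ _ := by rw [hks]; exact h1
  exact le_of_sq_le_sq h2 hq

theorem Mf_mart (hG : G.IsTree) (hγ0 : 0 < γ) (hγ : |γ| ≤ 1 / 4) {Λ : Finset V} {v : V}
    (hv : v ∈ Λ) {k m : ℕ} (hk : 0 < k) (hkm : k ≤ m) :
    ∫ ω, (Mf μ γ Λ k v ω - Mf μ γ Λ m v ω) ^ 2 ∂(PP V) ≤ bd γ k := by
  refine int_le Λ _ (fun l c => (mg μ γ (rounds l k) v c
      - mg μ γ (rounds l m) v c) ^ 2) (fun l => ((loc_mg _ v).sub (loc_mg _ v)).pow 2) ?_ ?_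
  · intro l hl ω hω
    rw [Mf_eq hl hω, Mf_eq hl hω]
  · intro l hl
    obtain ⟨hnd, hmem⟩ := mem_lists.1 hl
    obtain ⟨l', hl'⟩ := rounds_append l hkm
    have h1 := mg_mart (μ := μ) (γ := γ) (flipInv_QQ l) (l := rounds l k) v l'
      (by rw [← hl']; exact nodup_rounds hnd m)
    rw [← hl'] at h1
    have h2 := vr_le_bd (μ := μ) hG hγ0 hγ hnd ((hmem v).2 hv) hk
    rw [vr_eq] at h2
    have h3 : ∫ c, mg μ γ (rounds l m) v c ^ 2 ∂(QQ l) ≤ (QQ l).real univ := by
      calc _ ≤ ∫ _, (1 : ℝ) ∂(QQ l) := by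
            refine integral_mono (((loc_mg _ v).pow 2).integrable _) (integrable_const _) ?_
            intro c
            exact mg_sq_le hG hγ _ v c
        _ = _ := by rw [integral_const, smul_eq_mul, mul_one]
    have h4 : ∫ c, (mg μ γ (rounds l k) v c - mg μ γ (rounds l m) v c) ^ 2 ∂(QQ l)
        = ∫ c, (mg μ γ (rounds l m) v c - mg μ γ (rounds l k) v c) ^ 2 ∂(QQ l) := by
      congr 1; ext c; ring
    rw [h4, h1]
    linarith

theorem Mf_var (hG : G.IsTree) (hγ0 : 0 < γ) (hγ : |γ| ≤ 1 / 4) {Λ : Finset V} {v : V}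
    (hv : v ∈ Λ) {k : ℕ} (hk : 0 < k) :
    ∫ ω, (1 - Mf μ γ Λ k v ω ^ 2) ∂(PP V) ≤ bd γ k := by
  refine int_le Λ _ (fun l c => (1 - mg μ γ (rounds l k) v c ^ 2))
    (fun l => (Loc.const 1).sub ((loc_mg _ v).pow 2)) ?_ ?_
  · intro l hl ω hω
    rw [Mf_eq hl hω]
  · intro l hl
    obtain ⟨hnd, hmem⟩ := mem_lists.1 hl
    exact vr_le_bd (μ := μ) hG hγ0 hγ hnd ((hmem v).2 hv) hk

theorem abs_Mf_le (hG : G.IsTree) (hγ : |γ| ≤ 1 / 4) (Λ : Finset V) (j : ℕ) (v : V)
    (ω : V → Lab) : |Mf μ γ Λ j v ω| ≤ 1 := by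
  by_cases h : ∃ l ∈ lists Λ, ω ∈ Ord l
  · obtain ⟨l, hl, hω⟩ := h
    rw [Mf_eq hl hω]
    exact abs_mg_le hG hγ _ v _
  · have : Mf μ γ Λ j v ω = 0 := by
      unfold Mf
      refine Finset.sum_eq_zero fun l hl => ?_
      rw [indicator_of_notMem]
      exact fun h' => h ⟨l, hl, h'⟩
    rw [this]; simp

theorem memLp_Mf (hG : G.IsTree) (hγ : |γ| ≤ 1 / 4) (Λ : Finset V) (j : ℕ) (v : V) :
    MemLp (Mf μ γ Λ j v) 2 (PP V) := by
  refine MemLp.of_bound (measurable_Mf Λ j v).aestronglyMeasurable 1 ?_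
  exact Filter.Eventually.of_forall fun ω => by simpa using abs_Mf_le hG hγ Λ j v ω

/-- posterior probability of a pattern against the product of the one-point probabilities -/
theorem pattern_bound (hG : G.IsTree) (hγ : |γ| ≤ 1 / 4) (l : List (V × ℕ)) (c : V × ℕ → Bool)
    (η : V → Bool) (D : Finset V) :
    |∫ s, dens μ γ l c s * (∏ v ∈ D, (1 + spin (η v) * spin (s v)) / 2) ∂μ
        - ∏ v ∈ D, (1 + spin (η v) * mg μ γ l v c) / 2|
      ≤ ∑ v ∈ D, (1 - mg μ γ l v c ^ 2) / 2 := by
  classical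
  have hP := dens_post (μ := μ) hG hγ l c
  have hloc : ∀ D : Finset V, Loc fun s : V → Bool => ∏ v ∈ D, (1 + spin (η v) * spin (s v)) / 2 := by
    intro D
    refine ⟨D, fun x y hxy => Finset.prod_congr rfl fun v hv => ?_⟩
    rw [hxy v (by simpa using hv)]
  have h01 : ∀ (a b : Bool), 0 ≤ (1 + spin a * spin b) / 2 ∧ (1 + spin a * spin b) / 2 ≤ 1 := by
    intro a b
    cases a <;> cases b <;> norm_num [spin]
  have hp01 : ∀ v, 0 ≤ (1 + spin (η v) * mg μ γ l v c) / 2 ∧
      (1 + spin (η v) * mg μ γ l v c) / 2 ≤ 1 := by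
    intro v
    have h1 := abs_le.1 (abs_mg_le (μ := μ) (γ := γ) hG hγ l v c)
    cases η v <;> simp only [spin] <;> norm_num <;> constructor <;> linarith
  induction D using Finset.induction_on with
  | empty => simp [hP.mass]
  | insert a D ha ih =>
      rw [Finset.sum_insert ha, Finset.prod_insert ha]
      simp only [Finset.prod_insert ha]
      set pa := (1 + spin (η a) * mg μ γ l a c) / 2 with hpa
      set A : (V → Bool) → ℝ := fun s => (1 + spin (η a) * spin (s a)) / 2 with hA
      set B : (V → Bool) → ℝ := fun s => ∏ v ∈ D, (1 + spin (η v) * spin (s v)) / 2 with hB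
      set b := ∏ v ∈ D, (1 + spin (η v) * mg μ γ l v c) / 2 with hb
      have hAl : Loc A := ((Loc.const 1).add ((Loc.coord a).const_mul _)).op₁ (fun x => x / 2)
      have hB01 : ∀ s, 0 ≤ B s ∧ B s ≤ 1 := fun s =>
        ⟨Finset.prod_nonneg fun v _ => (h01 _ _).1, Finset.prod_le_one (fun v _ => (h01 _ _).1)
          fun v _ => (h01 _ _).2⟩
      have e1 : ∫ s, dens μ γ l c s * (A s * B s) ∂μ - pa * b
          = ∫ s, dens μ γ l c s * ((A s - pa) * B s) ∂μ
            + pa * (∫ s, dens μ γ l c s * B s ∂μ - b) := by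
        have i1 : Integrable (fun s => dens μ γ l c s * ((A s - pa) * B s)) μ :=
          (hP.loc.mul ((hAl.sub (Loc.const pa)).mul (hloc D))).integrable μ
        have i2 : Integrable (fun s => pa * (dens μ γ l c s * B s)) μ :=
          ((hP.loc.mul (hloc D)).const_mul pa).integrable μ
        have : ∀ s, dens μ γ l c s * (A s * B s)
            = dens μ γ l c s * ((A s - pa) * B s) + pa * (dens μ γ l c s * B s) := fun s => by
          ring
        simp_rw [this]
        rw [integral_add i1 i2, integral_const_mul]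
        ring
      have e2 : |∫ s, dens μ γ l c s * ((A s - pa) * B s) ∂μ| ≤ (1 - mg μ γ l a c ^ 2) / 2 := by
        have hbnd : ∀ s, |dens μ γ l c s * ((A s - pa) * B s)|
            ≤ dens μ γ l c s * (A s * (1 - pa) + (1 - A s) * pa) := by
          intro s
          rw [abs_mul, abs_of_pos (hP.pos s)]
          refine mul_le_mul_of_nonneg_left ?_ (hP.pos s).le
          rw [abs_mul, abs_of_nonneg (hB01 s).1]
          have hA01 : A s = 0 ∨ A s = 1 := by
            simp only [hA]
            cases η a <;> cases s a <;> norm_num [spin]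
          have hpa01 := hp01 a
          rw [← hpa] at hpa01
          calc |A s - pa| * B s ≤ |A s - pa| * 1 := by
                gcongr; exact (hB01 s).2
            _ ≤ _ := by
                rcases hA01 with h | h <;> rw [h] <;> simp only [mul_one] <;>
                  refine abs_le.2 ⟨?_, ?_⟩ <;> linarith
        calc _ ≤ ∫ s, |dens μ γ l c s * ((A s - pa) * B s)| ∂μ := abs_integral_le_integral_abs
          _ ≤ ∫ s, dens μ γ l c s * (A s * (1 - pa) + (1 - A s) * pa) ∂μ := by
              refine integral_mono ((hP.loc.mul ((hAl.sub (Loc.const pa)).mul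
                (hloc D))).abs.integrable μ) ?_ hbnd
              exact (hP.loc.mul ((hAl.mul (Loc.const _)).add
                (((Loc.const 1).sub hAl).mul (Loc.const _)))).integrable μ
          _ = (1 - mg μ γ l a c ^ 2) / 2 := by
              have : ∀ s, dens μ γ l c s * (A s * (1 - pa) + (1 - A s) * pa)
                  = ((1 - pa) / 2 + pa / 2) * dens μ γ l c s
                    + ((1 - 2 * pa) * spin (η a) / 2) * (dens μ γ l c s * spin (s a)) := by
                intro s
                simp only [hA]; ring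
              simp_rw [this]
              have i1 : Integrable (fun s => ((1 - pa) / 2 + pa / 2) * dens μ γ l c s) μ :=
                (hP.loc.const_mul _).integrable μ
              have i2 : Integrable (fun s => ((1 - 2 * pa) * spin (η a) / 2)
                  * (dens μ γ l c s * spin (s a))) μ :=
                ((hP.loc.mul (Loc.coord a)).const_mul _).integrable μ
              rw [integral_add i1 i2, integral_const_mul, integral_const_mul, hP.mass]
              have hm : ∫ s, dens μ γ l c s * spin (s a) ∂μ = mg μ γ l a c := rfl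
              rw [hm, hpa]
              have := spin_sq (η a)
              linear_combination (- mg μ γ l a c ^ 2 / 2) * this
      rw [e1]
      have hpa01 := hp01 a
      rw [← hpa] at hpa01
      calc _ ≤ |∫ s, dens μ γ l c s * ((A s - pa) * B s) ∂μ|
            + |pa * (∫ s, dens μ γ l c s * B s ∂μ - b)| := abs_add_le _ _
        _ ≤ (1 - mg μ γ l a c ^ 2) / 2 + 1 * ∑ v ∈ D, (1 - mg μ γ l v c ^ 2) / 2 := by
            rw [abs_mul, abs_of_nonneg hpa01.1]
            gcongr
            exact hpa01.2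
        _ = _ := by ring

end estimates

end P161
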