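import Vale.Agent.P161.Main

/-!
# The main theorem
-/

open MeasureTheory Set Filter Topology

namespace P161

universe u

variable {V : Type u} {G : SimpleGraph V} {θ γ : ℝ} {μ : Measure (V → Bool)}

theorem int_shift (g : G ≃g G) {f : (V → Lab) → ℝ} (hf : Measurable f) :
    ∫ ω, f (shift g ω) ∂(PP V) = ∫ ω, f ω ∂(PP V) := by
  conv_rhs => rw [← PP_map_shift g]
  rw [integral_map (measurable_shift g).aemeasurable hf.aestronglyMeasurable]

/-- The limiting field is equivariant. -/
theorem field_equiv [Countable V] [G.LocallyFinite] (hG : G.IsTree) {t s r K S : ℝ}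
    (H : Hyp G μ θ γ t s r K S) {o : V} {N : ℕ} (hN4 : 4 ≤ t ^ N)
    {X : V → (V → Lab) → ℝ}
    (hXmeas : ∀ v, Measurable (X v)) (hX : ∀ v, MemLp (X v) 2 (PP V))
    (hT : ∀ v, TendL2 (PP V) (fun k => Mf μ γ (ballF G hG.connected o (N * k)) k v) (X v))
    (g : G ≃g G) (v : V) : ∀ᵐ ω ∂(PP V), X (g v) (shift g ω) = X v ω := by
  classical
  haveI := H.ising.isProb
  have hmp : MeasurePreserving (shift g) (PP V) (PP V) := ⟨measurable_shift g, PP_map_shift g⟩
  have ht0 : 0 < t := by linarith [H.ht]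
  set o' := g.symm o with ho'
  set bal : ℕ → Finset V := fun k => ballF G hG.connected o (N * k) with hbal
  set bal' : ℕ → Finset V := fun k => ballF G hG.connected o' (N * k) with hbal'
  have hdist : ∀ y, G.dist o (g y) = G.dist o' y := by
    intro y
    have := dist_map_eq hG.connected g o' y
    rw [ho'] at this ⊢
    simpa using this
  have hmap : ∀ k, (fun ω => Mf μ γ (bal k) k (g v) (shift g ω))
      =ᵐ[PP V] Mf μ γ (bal' k) k v := by
    intro k
    filter_upwards [ae_injective] with ω hω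
    refine Mf_map hG.connected H.ising g (fun y => ?_) k v hω
    simp only [hbal, hbal', mem_ballF, hdist]
  -- convergence of the shifted field
  have hT' : TendL2 (PP V) (fun k ω => Mf μ γ (bal k) k (g v) (shift g ω))
      (fun ω => X (g v) (shift g ω)) := by
    unfold TendL2
    refine (hT (g v)).congr fun k => ?_
    exact (int_shift g (((measurable_Mf (bal k) k (g v)).sub (hXmeas (g v))).pow_const 2)).symm
  have hYm' : ∀ k, MemLp (fun ω => Mf μ γ (bal k) k (g v) (shift g ω)) 2 (PP V) := fun k =>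
    (memLp_Mf hG H.hγ (bal k) k (g v)).comp_measurePreserving hmp
  have hXm' : MemLp (fun ω => X (g v) (shift g ω)) 2 (PP V) :=
    (hX (g v)).comp_measurePreserving hmp
  refine (TendL2.unique hYm' (fun k => memLp_Mf hG H.hγ (bal k) k v) hXm' (hX v) hT' (hT v) ?_)
  -- the two approximations are close
  have hbound : ∀ k, ∫ ω, (Mf μ γ (bal k) k (g v) (shift g ω) - Mf μ γ (bal k) k v ω) ^ 2 ∂(PP V)
      ≤ (1 / 2) ^ k * (2 * (t ^ (G.dist o' v) + t ^ (G.dist o v))) := by
    intro k
    have e1 : ∫ ω, (Mf μ γ (bal k) k (g v) (shift g ω) - Mf μ γ (bal k) k v ω) ^ 2 ∂(PP V)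
        = ∫ ω, (Mf μ γ (bal' k) k v ω - Mf μ γ (bal k) k v ω) ^ 2 ∂(PP V) := by
      refine integral_congr_ae ?_
      filter_upwards [hmap k] with ω hω
      rw [hω]
    rw [e1]
    set U := bal' k ∪ bal k with hU
    have h1 := Mf_compare H o' (N * k) (Λ := bal' k) (Λ' := U) (fun y => mem_ballF _ _ _ _)
      Finset.subset_union_left k v
    have h2 := Mf_compare H o (N * k) (Λ := bal k) (Λ' := U) (fun y => mem_ballF _ _ _ _)
      Finset.subset_union_right k v
    have h3 := int_sq_sub_le (memLp_Mf (μ := μ) hG H.hγ (bal' k) k v)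
      (memLp_Mf (μ := μ) hG H.hγ U k v) (memLp_Mf (μ := μ) hG H.hγ (bal k) k v)
    have h4 : ∫ ω, (Mf μ γ U k v ω - Mf μ γ (bal k) k v ω) ^ 2 ∂(PP V)
        = ∫ ω, (Mf μ γ (bal k) k v ω - Mf μ γ U k v ω) ^ 2 ∂(PP V) := by
      congr 1; ext ω; ring
    rw [h4] at h3
    have h5 : (2 : ℝ) ^ k / t ^ (N * k) ≤ (1 / 2) ^ k := by
      rw [pow_mul, ← div_pow]
      apply pow_le_pow_left₀ (by positivity)
      rw [div_le_div_iff₀ (by positivity) (by norm_num)]
      linarith
    have h6 : ∀ m : ℕ, (2 : ℝ) ^ k * (t ^ m / t ^ (N * k)) ≤ (1 / 2) ^ k * t ^ m := by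
      intro m
      calc _ = (2 : ℝ) ^ k / t ^ (N * k) * t ^ m := by ring
        _ ≤ _ := by gcongr
    have h7 := h6 (G.dist o' v)
    have h8 := h6 (G.dist o v)
    linarith
  have hlim : Tendsto (fun k : ℕ => ((1 : ℝ) / 2) ^ k
      * (2 * (t ^ (G.dist o' v) + t ^ (G.dist o v)))) atTop (𝓝 0) := by
    have h1 : Tendsto (fun k : ℕ => ((1 : ℝ) / 2) ^ k) atTop (𝓝 0) :=
      tendsto_pow_atTop_nhds_zero_of_lt_one (by norm_num) (by norm_num)
    simpa using h1.mul_const (2 * (t ^ (G.dist o' v) + t ^ (G.dist o v)))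
  exact squeeze_zero (fun k => integral_nonneg fun _ => sq_nonneg _) hbound hlim

/-- **Main theorem.** On a `d`-regular tree, `d ≥ 3`, the free Ising measure with
`θ² (d - 1) < 1` is a factor of IID. -/
theorem isFactorOfIID [Countable V] [G.LocallyFinite] (hG : G.IsTree) {d : ℕ} (hd : 3 ≤ d)
    (hreg : G.IsRegularOfDegree d) (h0 : 0 ≤ θ) (h1 : θ ^ 2 * ((d : ℝ) - 1) < 1)
    (hμ : IsFreeIsing G θ μ) : IsFactorOfIID G μ := by
  classical
  obtain ⟨γ, t, s, r, K, S, hγ0, H⟩ := exists_hyp hG hd hreg h0 h1 hμ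
  obtain ⟨o⟩ := hG.connected.nonempty
  obtain ⟨N, X, hN, hN4, hXmeas, hX, hT⟩ := exists_field hG hγ0 H o
  have hlaw := field_law hG hγ0 H hN hXmeas hX hT
  have hΦm := measurable_fieldΦ hXmeas
  obtain ⟨f, hf, hflaw⟩ := MeasureTheory.Measure.exists_measurable_map_eq labLaw
  have hF : Measurable fun (U : V → unitInterval) (v : V) => f (U v) := by fun_prop
  have hFlaw : (labelLaw V).map (fun U v => f (U v)) = PP V := by
    unfold labelLaw PP
    rw [Measure.infinitePi_map_pi (μ := fun _ : V => (volume : Measure unitInterval))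
      (f := fun _ => f) (fun _ => hf)]
    congr 1
    funext v
    exact hflaw
  refine ⟨fun U => fieldΦ X (fun v => f (U v)), hΦm.comp hF, ?_, ?_⟩
  · intro g
    have hae : ∀ᵐ ω ∂(PP V), ∀ v, X (g v) (shift g ω) = X v ω := by
      rw [ae_all_iff]
      exact fun v => field_equiv hG H hN4 hXmeas hX hT g v
    rw [← hFlaw] at hae
    have hae' := ae_of_ae_map (f := fun (U : V → unitInterval) (v : V) => f (U v))
      (p := fun ω => ∀ v, X (g v) (shift g ω) = X v ω) hF.aemeasurable hae
    filter_upwards [hae'] with U hU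
    funext v
    have h2 := hU (g.symm v)
    rw [RelIso.apply_symm_apply] at h2
    unfold fieldΦ
    have h3 : shift g (fun v => f (U v)) = fun v => f (U (g.symm v)) := rfl
    rw [h3] at h2
    simp only [h2]
  · have : (fun U : V → unitInterval => fieldΦ X (fun v => f (U v)))
        = fieldΦ X ∘ (fun U v => f (U v)) := rfl
    rw [this, ← Measure.map_map hΦm hF, hFlaw, hlaw]

/-- a connected locally finite graph is countable -/
theorem countable_of_connected [G.LocallyFinite] (hG : G.Connected) : Countable V := by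
  obtain ⟨o⟩ := hG.nonempty
  have h : (univ : Set V) = ⋃ n : ℕ, {u | G.dist o u ≤ n} := by
    ext u
    simp only [mem_univ, mem_iUnion, mem_setOf_eq, true_iff]
    exact ⟨G.dist o u, le_rfl⟩
  have : (univ : Set V).Countable := by
    rw [h]
    exact countable_iUnion fun n => (finite_ball hG o n).countable
  exact countable_univ_iff.1 this

end P161
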