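import Vale.Agent.P161.Defs

/-!
# Tree geometry (module A)
-/

open MeasureTheory Set

namespace P161

universe u

variable {V : Type u} {G : SimpleGraph V}

theorem exists_next (hG : G.Connected) {v u : V} (h : v ≠ u) :
    ∃ w, G.Adj v w ∧ G.dist w u + 1 = G.dist v u := by
  obtain ⟨p, hp⟩ := hG.exists_walk_length_eq_dist v u
  cases p with
  | nil => exact absurd rfl h
  | cons hadj q =>
    rename_i w
    refine ⟨w, hadj, ?_⟩
    have h1 : G.dist w u ≤ q.length := SimpleGraph.dist_le q
    have h2 : G.dist v u ≤ G.dist v w + G.dist w u := hG.dist_triangle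
    have h3 : G.dist v w ≤ 1 := by
      have := SimpleGraph.dist_le (SimpleGraph.Walk.cons hadj SimpleGraph.Walk.nil)
      simpa using this
    rw [SimpleGraph.Walk.length_cons] at hp
    omega

/-- In a tree the neighbour of `a` towards `y` is unique. -/
theorem next_unique (hG : G.IsTree) {a w b y : V} (hw : G.Adj a w) (hb : G.Adj a b)
    (h1 : G.dist w y + 1 = G.dist a y) (h2 : G.dist b y + 1 = G.dist a y) : w = b := by
  obtain ⟨p, hp⟩ := hG.connected.exists_walk_length_eq_dist w y
  obtain ⟨q, hq⟩ := hG.connected.exists_walk_length_eq_dist b y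
  have hp' : (SimpleGraph.Walk.cons hw p).IsPath :=
    SimpleGraph.Walk.isPath_of_length_eq_dist _ (by rw [SimpleGraph.Walk.length_cons]; omega)
  have hq' : (SimpleGraph.Walk.cons hb q).IsPath :=
    SimpleGraph.Walk.isPath_of_length_eq_dist _ (by rw [SimpleGraph.Walk.length_cons]; omega)
  have := (hG.existsUnique_path a y).unique hp' hq'
  injection this

theorem cross_edge (hG : G.IsTree) {a b x y : V} (hab : G.Adj a b) (hxy : G.Adj x y)
    (hx : G.dist x a < G.dist x b) (hy : G.dist y b < G.dist y a) : x = a ∧ y = b := by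
  have hxb := hG.dist_eq_dist_add_one_of_adj x hab
  have hyb := hG.dist_eq_dist_add_one_of_adj y hab
  have hxya := hG.dist_eq_dist_add_one_of_adj a hxy
  have t1 : G.dist x b ≤ G.dist x y + G.dist y b := hG.connected.dist_triangle
  have t2 : G.dist x y = 1 := SimpleGraph.dist_eq_one_iff_adj.2 hxy
  have s1 : G.dist a x = G.dist x a := SimpleGraph.dist_comm
  have s2 : G.dist a y = G.dist y a := SimpleGraph.dist_comm
  have hxa : x = a := by
    by_contra hne
    obtain ⟨w, hw, hwx⟩ := exists_next hG.connected (Ne.symm hne)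
    have h3 : G.dist w y ≤ G.dist w x + G.dist x y := hG.connected.dist_triangle
    have h4 : G.dist a y ≤ G.dist a w + G.dist w y := hG.connected.dist_triangle
    have h5 : G.dist a w = 1 := SimpleGraph.dist_eq_one_iff_adj.2 hw
    have s3 : G.dist b y = G.dist y b := SimpleGraph.dist_comm
    have hwb : w = b := next_unique hG hw hab (y := y) (by omega) (by omega)
    subst hwb
    have s4 : G.dist w x = G.dist x w := SimpleGraph.dist_comm
    omega
  refine ⟨hxa, ?_⟩
  subst hxa
  have h6 : G.dist x x = 0 := SimpleGraph.dist_self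
  have h7 : G.dist y b = 0 := by omega
  exact (hG.connected.dist_eq_zero_iff).1 h7

theorem finite_ball [G.LocallyFinite] (hG : G.Connected) (x : V) (n : ℕ) :
    {u | G.dist x u ≤ n}.Finite := by
  induction n with
  | zero =>
    refine (Set.finite_singleton x).subset (fun u hu => ?_)
    have h0 : G.dist x u = 0 := Nat.le_zero.1 hu
    exact ((hG.dist_eq_zero_iff).1 h0).symm
  | succ n ih =>
    have h1 : (⋃ w ∈ {u | G.dist x u ≤ n}, G.neighborSet w).Finite :=
      ih.biUnion (fun w _ => Set.toFinite _)
    refine (ih.union h1).subset (fun u hu => ?_)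
    have hu' : G.dist x u ≤ n + 1 := hu
    by_cases hle : G.dist x u ≤ n
    · exact Or.inl hle
    · right
      have hne : u ≠ x := by
        rintro rfl
        rw [SimpleGraph.dist_self] at hle
        omega
      obtain ⟨w, hw, hwx⟩ := exists_next hG hne
      have s1 : G.dist w x = G.dist x w := SimpleGraph.dist_comm
      have s2 : G.dist u x = G.dist x u := SimpleGraph.dist_comm
      refine Set.mem_biUnion (show w ∈ {u | G.dist x u ≤ n} from ?_) ?_
      · show G.dist x w ≤ n
        omega
      · exact (G.mem_neighborSet w u).2 hw.symm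

theorem sum_pow_dist_le [G.LocallyFinite] (hG : G.Connected) {d : ℕ}
    (hreg : G.IsRegularOfDegree d) {ρ : ℝ} (h0 : 0 ≤ ρ) (h1 : ρ * ((d : ℝ) - 1) < 1) :
    ∃ S : ℝ, 0 < S ∧ ∀ (v : V) (F : Finset V), ∑ u ∈ F, ρ ^ (G.dist v u) ≤ S := by
  classical
  set r : ℝ := ρ * ((d - 1 : ℕ) : ℝ) with hr
  have hr0 : 0 ≤ r := by positivity
  have hr1 : r < 1 := by
    rcases Nat.eq_zero_or_pos d with h | h
    · rw [hr, h]; simp
    · rw [hr, Nat.cast_sub h]
      simpa using h1
  refine ⟨1 + d * ρ * (1 - r)⁻¹, ?_, fun v F => ?_⟩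
  · have : 0 ≤ (1 - r)⁻¹ := inv_nonneg.2 (by linarith)
    positivity
  -- spheres
  set s : ℕ → Finset V := fun n =>
    (finite_ball hG v n).toFinset.filter (fun u => G.dist v u = n) with hs
  have mem_s : ∀ n u, u ∈ s n ↔ G.dist v u = n := by
    intro n u
    simp only [hs, Finset.mem_filter, Set.Finite.mem_toFinset, Set.mem_ofPred_eq]
    constructor
    · exact fun h => h.2
    · exact fun h => ⟨h.le, h⟩
  have hcard1 : (s 1).card ≤ d := by
    have : s 1 ⊆ G.neighborFinset v := by
      intro u hu
      rw [mem_s, SimpleGraph.dist_eq_one_iff_adj] at hu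
      simpa using hu
    refine (Finset.card_le_card this).trans (le_of_eq ?_)
    rw [SimpleGraph.card_neighborFinset_eq_degree]
    exact hreg v
  have hstep : ∀ n, (s (n + 2)).card ≤ (d - 1) * (s (n + 1)).card := by
    intro n
    have hsub : s (n + 2) ⊆ (s (n + 1)).biUnion
        (fun w => (G.neighborFinset w).filter (fun u => G.dist v u = n + 2)) := by
      intro u hu
      have hu' := (mem_s _ _).1 hu
      have hne : u ≠ v := by
        rintro rfl
        rw [SimpleGraph.dist_self] at hu'
        omega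
      obtain ⟨w, hw, hwx⟩ := exists_next hG hne
      have s1 : G.dist w v = G.dist v w := SimpleGraph.dist_comm
      have s2 : G.dist u v = G.dist v u := SimpleGraph.dist_comm
      refine Finset.mem_biUnion.2 ⟨w, (mem_s _ _).2 (by omega), ?_⟩
      rw [Finset.mem_filter]
      exact ⟨by simpa using hw.symm, hu'⟩
    refine (Finset.card_le_card hsub).trans ?_
    rw [mul_comm]
    refine Finset.card_biUnion_le_card_mul _ _ _ (fun w hw => ?_)
    have hw' := (mem_s _ _).1 hw
    have hne : w ≠ v := by
      rintro rfl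
      rw [SimpleGraph.dist_self] at hw'
      omega
    obtain ⟨z, hz, hzv⟩ := exists_next hG hne
    have s1 : G.dist z v = G.dist v z := SimpleGraph.dist_comm
    have s2 : G.dist w v = G.dist v w := SimpleGraph.dist_comm
    have hsub2 : (G.neighborFinset w).filter (fun u => G.dist v u = n + 2)
        ⊆ (G.neighborFinset w).erase z := by
      intro u hu
      rw [Finset.mem_filter] at hu
      refine Finset.mem_erase.2 ⟨?_, hu.1⟩
      rintro rfl
      omega
    refine (Finset.card_le_card hsub2).trans ?_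
    rw [Finset.card_erase_of_mem (by simpa using hz), SimpleGraph.card_neighborFinset_eq_degree,
      hreg w]
  have hcard : ∀ n, ((s (n + 1)).card : ℝ) ≤ d * ((d - 1 : ℕ) : ℝ) ^ n := by
    intro n
    induction n with
    | zero => simpa using (by exact_mod_cast hcard1 : ((s 1).card : ℝ) ≤ d)
    | succ n ih =>
      have := hstep n
      have h2 : ((s (n + 2)).card : ℝ) ≤ ((d - 1 : ℕ) : ℝ) * ((s (n + 1)).card : ℝ) := by
        exact_mod_cast this
      refine h2.trans ?_
      calc ((d - 1 : ℕ) : ℝ) * ((s (n + 1)).card : ℝ)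
          ≤ ((d - 1 : ℕ) : ℝ) * (d * ((d - 1 : ℕ) : ℝ) ^ n) :=
            mul_le_mul_of_nonneg_left ih (by positivity)
        _ = d * ((d - 1 : ℕ) : ℝ) ^ (n + 1) := by ring
  have hcard0 : ((s 0).card : ℝ) ≤ 1 := by
    have : s 0 ⊆ {v} := by
      intro u hu
      rw [mem_s] at hu
      rw [Finset.mem_singleton]
      exact ((hG.dist_eq_zero_iff).1 hu).symm
    have := Finset.card_le_card this
    simpa using this
  -- sum by spheres
  obtain ⟨N, hN⟩ : ∃ N, ∀ u ∈ F, G.dist v u < N := by
    refine ⟨F.sup (fun u => G.dist v u) + 1, fun u hu => ?_⟩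
    exact Nat.lt_succ_of_le (Finset.le_sup (f := fun u => G.dist v u) hu)
  have hsum : ∑ u ∈ F, ρ ^ (G.dist v u) ≤ ∑ n ∈ Finset.range N, ρ ^ n * (s n).card := by
    rw [← Finset.sum_fiberwise_of_maps_to (t := Finset.range N) (g := fun u => G.dist v u)
      (fun u hu => Finset.mem_range.2 (hN u hu))]
    refine Finset.sum_le_sum (fun n _ => ?_)
    have e1 : ∑ u ∈ F.filter (fun u => G.dist v u = n), ρ ^ (G.dist v u)
        = ∑ u ∈ F.filter (fun u => G.dist v u = n), ρ ^ n :=
      Finset.sum_congr rfl (fun u hu => by rw [(Finset.mem_filter.1 hu).2])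
    rw [e1, Finset.sum_const, nsmul_eq_mul, mul_comm]
    refine mul_le_mul_of_nonneg_left ?_ (by positivity)
    have : F.filter (fun u => G.dist v u = n) ⊆ s n := fun u hu =>
      (mem_s _ _).2 (Finset.mem_filter.1 hu).2
    exact_mod_cast Finset.card_le_card this
  refine hsum.trans ?_
  have hgeo : ∀ N, ∑ n ∈ Finset.range N, r ^ n ≤ (1 - r)⁻¹ := by
    intro N
    have hsummable := summable_geometric_of_lt_one hr0 hr1
    rw [← tsum_geometric_of_lt_one hr0 hr1]
    exact hsummable.sum_le_tsum _ (fun i _ => by positivity)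
  cases N with
  | zero =>
    simp only [Finset.range_zero, Finset.sum_empty]
    have : 0 ≤ (1 - r)⁻¹ := inv_nonneg.2 (by linarith)
    positivity
  | succ N =>
    rw [Finset.sum_range_succ', pow_zero, one_mul, add_comm]
    refine add_le_add hcard0 ?_
    calc ∑ n ∈ Finset.range N, ρ ^ (n + 1) * ((s (n + 1)).card : ℝ)
        ≤ ∑ n ∈ Finset.range N, d * ρ * r ^ n := by
          refine Finset.sum_le_sum (fun n _ => ?_)
          calc ρ ^ (n + 1) * ((s (n + 1)).card : ℝ)
              ≤ ρ ^ (n + 1) * (d * ((d - 1 : ℕ) : ℝ) ^ n) :=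
                mul_le_mul_of_nonneg_left (hcard n) (by positivity)
            _ = d * ρ * r ^ n := by rw [hr, mul_pow]; ring
      _ = d * ρ * ∑ n ∈ Finset.range N, r ^ n := by rw [Finset.mul_sum]
      _ ≤ d * ρ * (1 - r)⁻¹ := mul_le_mul_of_nonneg_left (hgeo N) (by positivity)

end P161
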