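import Vale.Agent.P161.Post

/-!
# Lipschitz dependence of the covariance recursion on the magnetisations
-/

open MeasureTheory Set

namespace P161

universe u

variable {V : Type u} {G : SimpleGraph V} {θ : ℝ} {μ : Measure (V → Bool)}

theorem kappa_rhs {θ κ' x y x' y' : ℝ} (h0 : 0 ≤ θ) (hθ1 : θ ≤ 1)
    (hκ0' : 0 ≤ κ') (hκ1' : κ' ≤ θ)
    (hx : |x| ≤ 1) (hy : |y| ≤ 1) (hx' : |x'| ≤ 1) (hy' : |y'| ≤ 1) :
    |θ * κ' ^ 2 * (y' ^ 2 - y ^ 2) + 2 * θ * κ' * (x * y - x' * y')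
        + θ * (x' ^ 2 - x ^ 2)| ≤ 4 * θ * (|x - x'| + |y - y'|) := by
  have b1 : |y' ^ 2 - y ^ 2| ≤ 2 * |y - y'| := by
    have : y' ^ 2 - y ^ 2 = (y' + y) * (y' - y) := by ring
    rw [this, abs_mul, abs_sub_comm y' y]
    gcongr
    calc |y' + y| ≤ |y'| + |y| := abs_add_le _ _
      _ ≤ 2 := by linarith
  have b2 : |x' ^ 2 - x ^ 2| ≤ 2 * |x - x'| := by
    have : x' ^ 2 - x ^ 2 = (x' + x) * (x' - x) := by ring
    rw [this, abs_mul, abs_sub_comm x' x]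
    gcongr
    calc |x' + x| ≤ |x'| + |x| := abs_add_le _ _
      _ ≤ 2 := by linarith
  have b3 : |x * y - x' * y'| ≤ |x - x'| + |y - y'| := by
    have : x * y - x' * y' = (x - x') * y + x' * (y - y') := by ring
    rw [this]
    calc |(x - x') * y + x' * (y - y')| ≤ |(x - x') * y| + |x' * (y - y')| := abs_add_le _ _
      _ = |x - x'| * |y| + |x'| * |y - y'| := by rw [abs_mul, abs_mul]
      _ ≤ |x - x'| * 1 + 1 * |y - y'| := by gcongr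
      _ = _ := by ring
  have hk1 : κ' ≤ 1 := hκ1'.trans hθ1
  have hk2 : κ' ^ 2 ≤ 1 := by nlinarith
  have c1 : |θ * κ' ^ 2 * (y' ^ 2 - y ^ 2)| ≤ θ * (2 * |y - y'|) := by
    rw [abs_mul, abs_of_nonneg (by positivity : (0 : ℝ) ≤ θ * κ' ^ 2)]
    have : θ * κ' ^ 2 ≤ θ := by nlinarith
    exact mul_le_mul this b1 (abs_nonneg _) h0
  have c2 : |2 * θ * κ' * (x * y - x' * y')| ≤ 2 * θ * (|x - x'| + |y - y'|) := by
    rw [abs_mul, abs_of_nonneg (by positivity : (0 : ℝ) ≤ 2 * θ * κ')]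
    have : 2 * θ * κ' ≤ 2 * θ := by nlinarith
    exact mul_le_mul this b3 (abs_nonneg _) (by positivity)
  have c3 : |θ * (x' ^ 2 - x ^ 2)| ≤ θ * (2 * |x - x'|) := by
    rw [abs_mul, abs_of_nonneg h0]
    exact mul_le_mul_of_nonneg_left b2 h0
  calc _ ≤ |θ * κ' ^ 2 * (y' ^ 2 - y ^ 2)| + |2 * θ * κ' * (x * y - x' * y')|
        + |θ * (x' ^ 2 - x ^ 2)| := abs_add_three _ _ _
    _ ≤ _ := by nlinarith [abs_nonneg (x - x'), abs_nonneg (y - y')]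

theorem kappa_lip {θ κ κ' x y x' y' : ℝ} (h0 : 0 ≤ θ) (h1 : θ ^ 2 < 1 / 2)
    (hκ0 : 0 ≤ κ) (hκ1 : κ ≤ θ) (hκ0' : 0 ≤ κ') (hκ1' : κ' ≤ θ)
    (hx : |x| ≤ 1) (hy : |y| ≤ 1) (hx' : |x'| ≤ 1) (hy' : |y'| ≤ 1)
    (e : θ * (x - κ * y) ^ 2 = (θ - κ) * (1 - κ * θ))
    (e' : θ * (x' - κ' * y') ^ 2 = (θ - κ') * (1 - κ' * θ)) :
    |κ - κ'| * (1 / 2 - θ ^ 2) ≤ 4 * θ * (|x - x'| + |y - y'|) := by
  have hθ1 : θ ≤ 1 := by nlinarith
  have hD : (κ - κ') * (1 + θ ^ 2 - 2 * θ * (x * y) - θ * (1 - y ^ 2) * (κ + κ'))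
      = θ * κ' ^ 2 * (y' ^ 2 - y ^ 2) + 2 * θ * κ' * (x * y - x' * y')
        + θ * (x' ^ 2 - x ^ 2) := by
    linear_combination e - e'
  set Dn := 1 + θ ^ 2 - 2 * θ * (x * y) - θ * (1 - y ^ 2) * (κ + κ') with hDn
  have hy2 : y ^ 2 ≤ 1 := by
    rw [← sq_abs]; nlinarith [abs_nonneg y]
  have hDlow : 1 / 2 - θ ^ 2 ≤ Dn := by
    have a1 : x * y ≤ |y| := by
      calc x * y ≤ |x * y| := le_abs_self _
        _ = |x| * |y| := abs_mul _ _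
        _ ≤ 1 * |y| := by gcongr
        _ = |y| := one_mul _
    have a2 : θ * (1 - y ^ 2) * (κ + κ') ≤ θ * (1 - y ^ 2) * (2 * θ) := by
      apply mul_le_mul_of_nonneg_left (by linarith) (mul_nonneg h0 (by linarith))
    have a3 : 2 * θ * (x * y) ≤ 2 * θ * |y| := by gcongr
    have a4 : y ^ 2 = |y| ^ 2 := (sq_abs y).symm
    have a5 : 0 ≤ (2 * θ * |y| - 1) ^ 2 := sq_nonneg _
    rw [hDn]
    rw [a4] at a2 ⊢
    nlinarith
  have hDpos : 0 < Dn := by linarith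
  have hR := kappa_rhs h0 hθ1 hκ0' hκ1' hx hy hx' hy'
  calc |κ - κ'| * (1 / 2 - θ ^ 2) ≤ |κ - κ'| * Dn := by gcongr
    _ = |(κ - κ') * Dn| := by rw [abs_mul, abs_of_pos hDpos]
    _ ≤ _ := by rw [hD]; exact hR

/-- the constant in the one-step comparison of covariances -/
noncomputable def Cst (θ t : ℝ) : ℝ := t / (t - 1) * (32 / (1 / 2 - θ ^ 2) ^ 2)

theorem Cst_nonneg {θ t : ℝ} (ht : 1 < t) : 0 ≤ Cst θ t := by
  unfold Cst
  have : 0 < t - 1 := by linarith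
  positivity

theorem sq_add_le {t a b : ℝ} (ht : 1 < t) : (a + b) ^ 2 ≤ t * a ^ 2 + t / (t - 1) * b ^ 2 := by
  have h : 0 < t - 1 := by linarith
  have : t * a ^ 2 + t / (t - 1) * b ^ 2 - (a + b) ^ 2
      = ((t - 1) * a - b) ^ 2 / (t - 1) := by
    field_simp
    ring
  have : 0 ≤ ((t - 1) * a - b) ^ 2 / (t - 1) := by positivity
  linarith

theorem Post.cov_bounds [Countable V] (hG : G.IsTree) (hμ : IsFreeIsing G θ μ) (h0 : 0 ≤ θ)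
    (h1 : θ < 1) {ρ : (V → Bool) → ℝ} (h : Post G μ ρ) :
    ∀ (n : ℕ) (v w : V), G.dist v w = n → |cov μ ρ v w| ≤ θ ^ n := by
  haveI := hμ.isProb
  intro n
  induction n with
  | zero =>
      intro v w hvw
      have : v = w := (hG.connected v w).dist_eq_zero_iff.1 hvw
      subst this
      rw [cov_self h, pow_zero]
      have := h.abs_mean_le v
      have h2 : mean μ ρ v ^ 2 ≤ 1 := by
        rw [← sq_abs]; nlinarith [abs_nonneg (mean μ ρ v)]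
      rw [abs_of_nonneg (by linarith)]
      nlinarith [sq_nonneg (mean μ ρ v)]
  | succ n ih =>
      intro v w hvw
      have hne : v ≠ w := by
        rintro rfl
        simp at hvw
      obtain ⟨z, hz, hzd⟩ := exists_next hG.connected hne
      have hzw : G.dist z w = n := by omega
      obtain ⟨κ, hκ0, hκ1, -, hκ⟩ := h.cov_rec hG hμ h0 h1 hz
      have := hκ w (by rw [SimpleGraph.dist_comm, SimpleGraph.dist_comm (u := w)]; omega)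
      rw [this, abs_mul, abs_of_nonneg hκ0, pow_succ, mul_comm]
      exact mul_le_mul (ih z w hzw) hκ1 hκ0 (by positivity)

theorem Post.cov_diff [Countable V] (hG : G.IsTree) (hμ : IsFreeIsing G θ μ) (h0 : 0 ≤ θ)
    (h1 : θ ^ 2 < 1 / 2) {ρ ρ' : (V → Bool) → ℝ} (h : Post G μ ρ) (h' : Post G μ ρ')
    {t : ℝ} (ht : 1 < t) {v z w : V} (hvz : G.Adj v z) (hd : G.dist z w + 1 = G.dist v w) :
    (cov μ ρ v w - cov μ ρ' v w) ^ 2 ≤ t * θ ^ 2 * (cov μ ρ z w - cov μ ρ' z w) ^ 2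
      + Cst θ t * (θ ^ 2) ^ (G.dist v w) *
        ((mean μ ρ v - mean μ ρ' v) ^ 2 + (mean μ ρ z - mean μ ρ' z) ^ 2) := by
  haveI := hμ.isProb
  have hθ1 : θ < 1 := by nlinarith
  have hside : G.dist w z < G.dist w v := by
    rw [SimpleGraph.dist_comm, SimpleGraph.dist_comm (u := w)]; omega
  obtain ⟨κ, hκ0, hκ1, e, hκ⟩ := h.cov_rec hG hμ h0 hθ1 hvz
  obtain ⟨κ', hκ0', hκ1', e', hκ'⟩ := h'.cov_rec hG hμ h0 hθ1 hvz
  have hlip := kappa_lip h0 h1 hκ0 hκ1 hκ0' hκ1' (h.abs_mean_le v) (h.abs_mean_le z)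
    (h'.abs_mean_le v) (h'.abs_mean_le z) e e'
  set δ := 1 / 2 - θ ^ 2 with hδ
  have hδpos : 0 < δ := by rw [hδ]; linarith
  set x := |mean μ ρ v - mean μ ρ' v|
  set y := |mean μ ρ z - mean μ ρ' z|
  have hx0 : 0 ≤ x := abs_nonneg _
  have hy0 : 0 ≤ y := abs_nonneg _
  have hk : (κ - κ') ^ 2 ≤ 32 / δ ^ 2 * θ ^ 2 * (x ^ 2 + y ^ 2) := by
    have h2 : |κ - κ'| ≤ 4 * θ * (x + y) / δ := by rwa [le_div_iff₀ hδpos]
    calc (κ - κ') ^ 2 = |κ - κ'| ^ 2 := (sq_abs _).symm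
      _ ≤ (4 * θ * (x + y) / δ) ^ 2 := by gcongr
      _ = 16 / δ ^ 2 * θ ^ 2 * (x + y) ^ 2 := by ring
      _ ≤ 16 / δ ^ 2 * θ ^ 2 * (2 * (x ^ 2 + y ^ 2)) := by
          gcongr
          nlinarith [sq_nonneg (x - y)]
      _ = _ := by ring
  have hc' : (cov μ ρ' z w) ^ 2 ≤ (θ ^ 2) ^ (G.dist z w) := by
    have := h'.cov_bounds hG hμ h0 hθ1 _ z w rfl
    calc (cov μ ρ' z w) ^ 2 = |cov μ ρ' z w| ^ 2 := (sq_abs _).symm
      _ ≤ (θ ^ (G.dist z w)) ^ 2 := by gcongr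
      _ = _ := by rw [← pow_mul, ← pow_mul, mul_comm]
  have hdec : cov μ ρ v w - cov μ ρ' v w
      = κ * (cov μ ρ z w - cov μ ρ' z w) + (κ - κ') * cov μ ρ' z w := by
    rw [hκ w hside, hκ' w hside]; ring
  rw [hdec]
  have hsx : (mean μ ρ v - mean μ ρ' v) ^ 2 = x ^ 2 := (sq_abs _).symm
  have hsy : (mean μ ρ z - mean μ ρ' z) ^ 2 = y ^ 2 := (sq_abs _).symm
  rw [hsx, hsy]
  have ht1 : 0 < t - 1 := by linarith
  calc _ ≤ t * (κ * (cov μ ρ z w - cov μ ρ' z w)) ^ 2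
        + t / (t - 1) * ((κ - κ') * cov μ ρ' z w) ^ 2 := sq_add_le ht
    _ = t * κ ^ 2 * (cov μ ρ z w - cov μ ρ' z w) ^ 2
        + t / (t - 1) * ((κ - κ') ^ 2 * (cov μ ρ' z w) ^ 2) := by ring
    _ ≤ t * θ ^ 2 * (cov μ ρ z w - cov μ ρ' z w) ^ 2
        + t / (t - 1) * ((32 / δ ^ 2 * θ ^ 2 * (x ^ 2 + y ^ 2)) * (θ ^ 2) ^ (G.dist z w)) := by
        gcongr
    _ = _ := by
        rw [← hd, pow_succ]
        unfold Cst
        ring

end P161
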