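import Vale.Agent.P161.Defs

/-!
# Local functions of Boolean configurations
-/

open MeasureTheory Set

namespace P161

variable {ι : Type*}

theorem spin_mul_self (b : Bool) : spin b * spin b = 1 := by
  cases b <;> simp [spin]

theorem spin_sq (b : Bool) : spin b ^ 2 = 1 := by
  cases b <;> simp [spin]

theorem abs_spin (b : Bool) : |spin b| = 1 := by
  cases b <;> simp [spin]

theorem spin_le_one (b : Bool) : spin b ≤ 1 := by
  cases b <;> simp [spin]

theorem neg_one_le_spin (b : Bool) : -1 ≤ spin b := by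
  cases b <;> simp [spin]

theorem spin_not (b : Bool) : spin (!b) = - spin b := by
  cases b <;> simp [spin]

/-- A real function of Boolean configurations depending on finitely many coordinates. -/
def Loc (f : (ι → Bool) → ℝ) : Prop := ∃ S : Finset ι, DependsOn f (S : Set ι)

namespace Loc

variable {f g : (ι → Bool) → ℝ}

theorem const (a : ℝ) : Loc (fun _ : ι → Bool => a) := ⟨∅, by
  intro x y _; rfl⟩

theorem op₂ (F : ℝ → ℝ → ℝ) (hf : Loc f) (hg : Loc g) : Loc (fun s => F (f s) (g s)) := by
  classical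
  obtain ⟨S, hS⟩ := hf
  obtain ⟨T, hT⟩ := hg
  refine ⟨S ∪ T, ?_⟩
  intro x y h
  have h1 : f x = f y := hS fun i hi => h i (by simp at hi ⊢; exact Or.inl hi)
  have h2 : g x = g y := hT fun i hi => h i (by simp at hi ⊢; exact Or.inr hi)
  simp only [h1, h2]

theorem op₁ (F : ℝ → ℝ) (hf : Loc f) : Loc (fun s => F (f s)) := by
  obtain ⟨S, hS⟩ := hf
  exact ⟨S, fun x y h => by simp only [hS h]⟩

theorem add (hf : Loc f) (hg : Loc g) : Loc (fun s => f s + g s) := op₂ (· + ·) hf hg
theorem sub (hf : Loc f) (hg : Loc g) : Loc (fun s => f s - g s) := op₂ (· - ·) hf hg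
theorem mul (hf : Loc f) (hg : Loc g) : Loc (fun s => f s * g s) := op₂ (· * ·) hf hg
theorem neg (hf : Loc f) : Loc (fun s => - f s) := op₁ (fun x => - x) hf
theorem pow (hf : Loc f) (n : ℕ) : Loc (fun s => f s ^ n) := op₁ (fun x => x ^ n) hf
theorem abs (hf : Loc f) : Loc (fun s => |f s|) := op₁ (fun x => |x|) hf
theorem const_mul (a : ℝ) (hf : Loc f) : Loc (fun s => a * f s) := op₁ (fun x => a * x) hf

theorem coord (i : ι) : Loc (fun s : ι → Bool => spin (s i)) := ⟨{i}, by
  intro x y h
  have := h i (by simp)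
  simp only [this]⟩

theorem of_dependsOn {S : Finset ι} (h : DependsOn f (S : Set ι)) : Loc f := ⟨S, h⟩

/-- factorisation through finitely many coordinates -/
theorem exists_factor (hf : Loc f) :
    ∃ (S : Finset ι) (F : (S → Bool) → ℝ), f = F ∘ (fun s (i : S) => s i) := by
  obtain ⟨S, hS⟩ := hf
  obtain ⟨g, hg⟩ := dependsOn_iff_exists_comp.1 hS
  exact ⟨S, g, hg⟩

theorem measurable (hf : Loc f) : Measurable f := by
  obtain ⟨S, F, rfl⟩ := hf.exists_factor
  refine (measurable_of_finite F).comp ?_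
  exact measurable_pi_lambda _ fun i => measurable_pi_apply _

theorem bounded (hf : Loc f) : ∃ C : ℝ, ∀ s, |f s| ≤ C := by
  obtain ⟨S, F, rfl⟩ := hf.exists_factor
  obtain ⟨C, hC⟩ := Finite.bddAbove_range (fun x => |F x|)
  refine ⟨C, fun s => hC ⟨_, rfl⟩⟩

theorem integrable (hf : Loc f) (μ : Measure (ι → Bool)) [IsFiniteMeasure μ] :
    Integrable f μ := by
  obtain ⟨C, hC⟩ := hf.bounded
  refine Integrable.of_bound hf.measurable.aestronglyMeasurable C ?_
  exact Filter.Eventually.of_forall fun s => by simpa using hC s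

end Loc

end P161
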