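import Vale.Agent.P161.Params
import Vale.Agent.P161.Exist

/-!
# The free Ising measure is a factor of IID below the reconstruction threshold
-/

open MeasureTheory Set Filter Topology

namespace P161

universe u

variable {V : Type u} {G : SimpleGraph V} {θ γ : ℝ} {μ : Measure (V → Bool)}

/-- the ball as a finset -/
noncomputable def ballF (G : SimpleGraph V) [G.LocallyFinite] (hG : G.Connected) (x : V) (n : ℕ) :
    Finset V := (finite_ball hG x n).toFinset

theorem mem_ballF [G.LocallyFinite] (hG : G.Connected) (x : V) (n : ℕ) (y : V) :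
    y ∈ ballF G hG x n ↔ G.dist x y ≤ n := by
  simp [ballF]

/-- everything we need about the limiting field -/
theorem exists_field [Countable V] [G.LocallyFinite] (hG : G.IsTree) {γ t s r K S : ℝ}
    (hγ0 : 0 < γ) (H : Hyp G μ θ γ t s r K S) (o : V) :
    ∃ (N : ℕ) (X : V → (V → Lab) → ℝ), 0 < N ∧ 4 ≤ t ^ N ∧
      (∀ v, Measurable (X v)) ∧ (∀ v, MemLp (X v) 2 (PP V)) ∧
      ∀ v, TendL2 (PP V) (fun k => Mf μ γ (ballF G hG.connected o (N * k)) k v) (X v) := by
  haveI := H.ising.isProb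
  have ht0 : 0 < t := by linarith [H.ht]
  obtain ⟨N, hN⟩ := pow_unbounded_of_one_lt 4 H.ht
  have hNpos : 0 < N := by
    rcases Nat.eq_zero_or_pos N with h | h
    · subst h; norm_num at hN
    · exact h
  have hlim : ∀ v, ∃ X : (V → Lab) → ℝ, Measurable X ∧ MemLp X 2 (PP V) ∧
      TendL2 (PP V) (fun k => Mf μ γ (ballF G hG.connected o (N * k)) k v) X := by
    intro v
    set ε : ℕ → ℝ := fun k => 2 * ((1 / 2) ^ k * t ^ (G.dist o v)) + 2 * bd γ k with hε
    have hε0 : Tendsto ε atTop (𝓝 0) := by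
      have h1 : Tendsto (fun k : ℕ => ((1 : ℝ) / 2) ^ k) atTop (𝓝 0) :=
        tendsto_pow_atTop_nhds_zero_of_lt_one (by norm_num) (by norm_num)
      have := ((h1.mul_const (t ^ (G.dist o v))).const_mul 2).add ((bd_tendsto hγ0).const_mul 2)
      simpa [hε] using this
    refine exists_L2_limit (fun k => memLp_Mf hG H.hγ _ k v) hε0 (k₀ := G.dist o v + 1) ?_
    intro k m hk hkm
    have hv : v ∈ ballF G hG.connected o (N * m) := by
      rw [mem_ballF]
      calc G.dist o v ≤ m := by omega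
        _ ≤ N * m := Nat.le_mul_of_pos_left m hNpos
    have h1 := Mf_compare H o (N * k) (Λ := ballF G hG.connected o (N * k))
      (Λ' := ballF G hG.connected o (N * m)) (fun y => mem_ballF _ _ _ _)
      (fun y hy => by
        rw [mem_ballF] at hy ⊢
        exact hy.trans (Nat.mul_le_mul_left N hkm)) k v
    have h2 := Mf_mart (μ := μ) hG hγ0 H.hγ hv (by omega : 0 < k) hkm
    have h3 := int_sq_sub_le (memLp_Mf (μ := μ) hG H.hγ (ballF G hG.connected o (N * k)) k v)
      (memLp_Mf (μ := μ) hG H.hγ (ballF G hG.connected o (N * m)) k v)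
      (memLp_Mf (μ := μ) hG H.hγ (ballF G hG.connected o (N * m)) m v)
    have h4 : (2 : ℝ) ^ k * (t ^ (G.dist o v) / t ^ (N * k)) ≤ (1 / 2) ^ k * t ^ (G.dist o v) := by
      have h5 : (2 : ℝ) ^ k / t ^ (N * k) ≤ (1 / 2) ^ k := by
        rw [pow_mul, ← div_pow]
        apply pow_le_pow_left₀ (by positivity)
        rw [div_le_div_iff₀ (by positivity) (by norm_num)]
        linarith
      calc _ = (2 : ℝ) ^ k / t ^ (N * k) * t ^ (G.dist o v) := by ring
        _ ≤ _ := by gcongr
    simp only [hε]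
    linarith
  choose X hX using hlim
  exact ⟨N, X, hNpos, hN.le, fun v => (hX v).1, fun v => (hX v).2.1, fun v => (hX v).2.2⟩

section field

variable [Countable V] [G.LocallyFinite] {t s r K S : ℝ} {o : V} {N : ℕ}
  {X : V → (V → Lab) → ℝ}

/-- the limiting field has values `±1` -/
theorem field_abs (hG : G.IsTree) (hγ0 : 0 < γ) (H : Hyp G μ θ γ t s r K S) (hN : 0 < N)
    (v : V) (hX : MemLp (X v) 2 (PP V))
    (hT : TendL2 (PP V) (fun k => Mf μ γ (ballF G hG.connected o (N * k)) k v) (X v)) :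
    ∀ᵐ ω ∂(PP V), |X v ω| = 1 := by
  haveI := H.ising.isProb
  set Y : ℕ → (V → Lab) → ℝ := fun k => Mf μ γ (ballF G hG.connected o (N * k)) k v with hY
  have hYm : ∀ k, MemLp (Y k) 2 (PP V) := fun k => memLp_Mf hG H.hγ _ k v
  have i1 : ∀ k, Integrable (fun ω => (Y k ω - X v ω) ^ 2) (PP V) := fun k =>
    ((hYm k).sub hX).integrable_sq
  have i2 : ∀ k, Integrable (fun ω => 1 - Y k ω ^ 2) (PP V) := fun k =>
    (integrable_const _).sub (hYm k).integrable_sq
  have i3 : Integrable (fun ω => (|X v ω| - 1) ^ 2) (PP V) :=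
    (hX.abs.sub (memLp_const 1)).integrable_sq
  have hpt : ∀ k ω, (|X v ω| - 1) ^ 2 ≤ 2 * (Y k ω - X v ω) ^ 2 + 2 * (1 - Y k ω ^ 2) := by
    intro k ω
    have hy : |Y k ω| ≤ 1 := abs_Mf_le hG H.hγ _ k v ω
    have hy0 := abs_nonneg (Y k ω)
    have h1 : (|X v ω| - |Y k ω|) ^ 2 ≤ (Y k ω - X v ω) ^ 2 := by
      have := abs_abs_sub_abs_le (X v ω) (Y k ω)
      rw [← sq_abs (|X v ω| - |Y k ω|), ← sq_abs (Y k ω - X v ω), abs_sub_comm (Y k ω)]
      gcongr
    have h2 : (|Y k ω| - 1) ^ 2 ≤ 1 - Y k ω ^ 2 := by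
      rw [← sq_abs (Y k ω)]; nlinarith
    nlinarith [sq_nonneg ((|X v ω| - |Y k ω|) - (|Y k ω| - 1))]
  have hle : ∀ᶠ k in atTop, ∫ ω, (|X v ω| - 1) ^ 2 ∂(PP V)
      ≤ 2 * ∫ ω, (Y k ω - X v ω) ^ 2 ∂(PP V) + 2 * bd γ k := by
    filter_upwards [eventually_ge_atTop (G.dist o v + 1)] with k hk
    have hv : v ∈ ballF G hG.connected o (N * k) := by
      rw [mem_ballF]
      calc G.dist o v ≤ k := by omega
        _ ≤ N * k := Nat.le_mul_of_pos_left k hN
    have h1 := Mf_var (μ := μ) hG hγ0 H.hγ hv (by omega : 0 < k)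
    calc _ ≤ ∫ ω, (2 * (Y k ω - X v ω) ^ 2 + 2 * (1 - Y k ω ^ 2)) ∂(PP V) :=
          integral_mono i3 (((i1 k).const_mul 2).add ((i2 k).const_mul 2)) (hpt k)
      _ = 2 * ∫ ω, (Y k ω - X v ω) ^ 2 ∂(PP V) + 2 * ∫ ω, (1 - Y k ω ^ 2) ∂(PP V) := by
          rw [integral_add ((i1 k).const_mul 2) ((i2 k).const_mul 2), integral_const_mul,
            integral_const_mul]
      _ ≤ _ := by gcongr
  have hlim : Tendsto (fun k => 2 * ∫ ω, (Y k ω - X v ω) ^ 2 ∂(PP V) + 2 * bd γ k) atTop
      (𝓝 0) := by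
    have := (hT.const_mul 2).add ((bd_tendsto hγ0).const_mul 2)
    simpa using this
  have h0 : ∫ ω, (|X v ω| - 1) ^ 2 ∂(PP V) = 0 :=
    le_antisymm (ge_of_tendsto hlim hle) (integral_nonneg fun _ => sq_nonneg _)
  have := (integral_eq_zero_iff_of_nonneg (fun ω => sq_nonneg (|X v ω| - 1)) i3).1 h0
  filter_upwards [this] with ω hω
  have : |X v ω| - 1 = 0 := by simpa using hω
  linarith

open Classical in
/-- the spin field -/
noncomputable def fieldΦ (X : V → (V → Lab) → ℝ) (ω : V → Lab) : V → Bool :=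
  fun v => decide (0 < X v ω)

omit [Countable V] [G.LocallyFinite] in
theorem measurable_fieldΦ (hX : ∀ v, Measurable (X v)) : Measurable (fieldΦ X) := by
  classical
  refine measurable_pi_lambda _ fun v => ?_
  have : MeasurableSet {ω | 0 < X v ω} := measurableSet_lt measurable_const (hX v)
  unfold fieldΦ
  exact measurable_to_bool (by
    convert this using 1
    ext ω; simp)

omit [Countable V] [G.LocallyFinite] in
theorem spin_fieldΦ {v : V} {ω : V → Lab} (h : |X v ω| = 1) : spin (fieldΦ X ω v) = X v ω := by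
  classical
  unfold fieldΦ spin
  rcases eq_or_eq_neg_of_abs_eq h with h | h <;> rw [h] <;> norm_num

/-- posterior average of a local function, as a function of the labels -/
noncomputable def Ff (μ : Measure (V → Bool)) (γ : ℝ) (Λ : Finset V) (j : ℕ)
    (f : (V → Bool) → ℝ) (ω : V → Lab) : ℝ :=
  ∑ l ∈ lists Λ, (Ord l).indicator
    (fun ω => ∫ s, dens μ γ (rounds l j) (coinOf ω) s * f s ∂μ) ω

omit [Countable V] [G.LocallyFinite] in
theorem Ff_eq {Λ : Finset V} {l : List V} (hl : l ∈ lists Λ) {ω : V → Lab} (hω : ω ∈ Ord l)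
    (j : ℕ) (f : (V → Bool) → ℝ) :
    Ff μ γ Λ j f ω = ∫ s, dens μ γ (rounds l j) (coinOf ω) s * f s ∂μ := by
  unfold Ff
  rw [Finset.sum_eq_single l]
  · rw [indicator_of_mem hω]
  · intro l' hl' hne
    rw [indicator_of_notMem]
    exact fun h => hne (lists_unique hl' hl h hω)
  · exact fun h => absurd hl h

omit [G.LocallyFinite] in
theorem Ff_int [IsProbabilityMeasure μ] (Λ : Finset V) (j : ℕ) {f : (V → Bool) → ℝ}
    (hf : Loc f) : ∫ ω, Ff μ γ Λ j f ω ∂(PP V) = ∫ s, f s ∂μ := by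
  refine int_eq Λ _ (fun l c => ∫ s, dens μ γ (rounds l j) c s * f s ∂μ)
    (fun l => loc_dens (fun ρ => ∫ s, ρ s * f s ∂μ) _) ?_ ?_
  · intro l hl ω hω
    exact Ff_eq hl hω j f
  · intro l hl
    exact law_preserved (flipInv_QQ l) hf _ (nodup_rounds (mem_lists.1 hl).1 j)

omit [Countable V] [G.LocallyFinite] in
theorem measurable_Ff [IsProbabilityMeasure μ] (Λ : Finset V) (j : ℕ) (f : (V → Bool) → ℝ) :
    Measurable (Ff μ γ Λ j f) := by
  unfold Ff
  refine Finset.measurable_fun_sum _ fun l _ => ?_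
  exact ((loc_dens (fun ρ => ∫ s, ρ s * f s ∂μ) (rounds l j)).measurable.comp
    measurable_coinOf).indicator (measurableSet_Ord l)

omit [Countable V] [G.LocallyFinite] in
theorem real_pattern {Ω : Type*} {mΩ : MeasurableSpace Ω} (P : Measure Ω)
    [IsProbabilityMeasure P] (Φ : Ω → V → Bool) (hΦ : Measurable Φ) (D : Finset V)
    (η : V → Bool) :
    P.real {ω | ∀ v ∈ D, Φ ω v = η v} = ∫ ω, ∏ v ∈ D, (1 + spin (η v) * spin (Φ ω v)) / 2 ∂P := by
  classical
  have hms : MeasurableSet {ω | ∀ v ∈ D, Φ ω v = η v} := by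
    have : {ω | ∀ v ∈ D, Φ ω v = η v} = ⋂ v ∈ D, {ω | Φ ω v = η v} := by
      ext ω; simp
    rw [this]
    refine Finset.measurableSet_biInter _ fun v _ => ?_
    exact measurableSet_eq_fun ((measurable_pi_apply v).comp hΦ) measurable_const
  have h1 : ∀ ω, ∏ v ∈ D, (1 + spin (η v) * spin (Φ ω v)) / 2
      = {ω | ∀ v ∈ D, Φ ω v = η v}.indicator (fun _ => (1 : ℝ)) ω := by
    intro ω
    by_cases h : ∀ v ∈ D, Φ ω v = η v
    · rw [indicator_of_mem (by exact h)]
      refine Finset.prod_eq_one fun v hv => ?_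
      rw [h v hv, spin_mul_self]; norm_num
    · rw [indicator_of_notMem (by exact h)]
      push Not at h
      obtain ⟨v, hv, hne⟩ := h
      refine Finset.prod_eq_zero hv ?_
      revert hne
      cases Φ ω v <;> cases η v <;> simp [spin]
  simp_rw [h1]
  rw [integral_indicator hms]
  simp [Measure.real]

/-- The limiting spin field has the law `μ`. -/
theorem field_law (hG : G.IsTree) (hγ0 : 0 < γ) (H : Hyp G μ θ γ t s r K S) (hN : 0 < N)
    (hXmeas : ∀ v, Measurable (X v)) (hX : ∀ v, MemLp (X v) 2 (PP V))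
    (hT : ∀ v, TendL2 (PP V) (fun k => Mf μ γ (ballF G hG.connected o (N * k)) k v) (X v)) :
    (PP V).map (fieldΦ X) = μ := by
  classical
  haveI := H.ising.isProb
  have hΦm := measurable_fieldΦ hXmeas
  haveI : IsProbabilityMeasure ((PP V).map (fieldΦ X)) :=
    Measure.isProbabilityMeasure_map hΦm.aemeasurable
  have habs : ∀ᵐ ω ∂(PP V), ∀ v, |X v ω| = 1 := by
    rw [ae_all_iff]
    exact fun v => field_abs hG hγ0 H hN v (hX v) (hT v)
  have key : ∀ (D : Finset V) (η : V → Bool),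
      ((PP V).map (fieldΦ X)).real {s | ∀ v ∈ D, s v = η v}
        = μ.real {s | ∀ v ∈ D, s v = η v} := by
    intro D η
    set f : (V → Bool) → ℝ := fun s => ∏ v ∈ D, (1 + spin (η v) * spin (s v)) / 2 with hf
    have hfloc : Loc f := by
      refine ⟨D, fun x y hxy => Finset.prod_congr rfl fun v hv => ?_⟩
      rw [hxy v (by simpa using hv)]
    have e1 : ((PP V).map (fieldΦ X)).real {s | ∀ v ∈ D, s v = η v}
        = ∫ ω, ∏ v ∈ D, (1 + spin (η v) * spin (fieldΦ X ω v)) / 2 ∂(PP V) := by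
      have e0 := real_pattern ((PP V).map (fieldΦ X)) id measurable_id D η
      simp only [id] at e0
      rw [e0, integral_map hΦm.aemeasurable hfloc.measurable.aestronglyMeasurable]
    have e2 : μ.real {s | ∀ v ∈ D, s v = η v} = ∫ s, f s ∂μ :=
      real_pattern μ id measurable_id D η
    set Y : ℕ → V → (V → Lab) → ℝ := fun k v => Mf μ γ (ballF G hG.connected o (N * k)) k v
      with hY
    set bal : ℕ → Finset V := fun k => ballF G hG.connected o (N * k) with hbal
    have hYm : ∀ k v, MemLp (Y k v) 2 (PP V) := fun k v => memLp_Mf hG H.hγ _ k v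
    have hYb : ∀ k v ω, |Y k v ω| ≤ 1 := fun k v ω => abs_Mf_le hG H.hγ _ k v ω
    -- the three functions
    set g0 : (V → Lab) → ℝ := fun ω => ∏ v ∈ D, (1 + spin (η v) * spin (fieldΦ X ω v)) / 2
      with hg0
    have hg0m : Measurable g0 := hfloc.measurable.comp hΦm
    have h01 : ∀ (a : Bool) (x : ℝ), |x| ≤ 1 → 0 ≤ (1 + spin a * x) / 2 ∧
        (1 + spin a * x) / 2 ≤ 1 := by
      intro a x hx
      have h1 := abs_le.1 hx
      cases a <;> simp only [spin] <;> norm_num <;> constructor <;> linarith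
    have hprod : ∀ (D' : Finset V) (a b : V → ℝ), (∀ v, 0 ≤ a v ∧ a v ≤ 1) →
        (∀ v, 0 ≤ b v ∧ b v ≤ 1) →
        |∏ v ∈ D', a v - ∏ v ∈ D', b v| ≤ ∑ v ∈ D', |a v - b v| := by
      intro D' a b ha hb
      induction D' using Finset.induction_on with
      | empty => simp
      | insert w D' hw ih =>
          rw [Finset.prod_insert hw, Finset.prod_insert hw, Finset.sum_insert hw]
          have hp0 : 0 ≤ ∏ v ∈ D', a v := Finset.prod_nonneg fun v _ => (ha v).1
          have hp1 : ∏ v ∈ D', a v ≤ 1 := Finset.prod_le_one (fun v _ => (ha v).1)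
            fun v _ => (ha v).2
          have e : a w * ∏ v ∈ D', a v - b w * ∏ v ∈ D', b v
              = (a w - b w) * ∏ v ∈ D', a v + b w * (∏ v ∈ D', a v - ∏ v ∈ D', b v) := by ring
          rw [e]
          calc _ ≤ |(a w - b w) * ∏ v ∈ D', a v|
                + |b w * (∏ v ∈ D', a v - ∏ v ∈ D', b v)| := abs_add_le _ _
            _ = |a w - b w| * ∏ v ∈ D', a v + b w * |∏ v ∈ D', a v - ∏ v ∈ D', b v| := by
                rw [abs_mul, abs_mul, abs_of_nonneg hp0, abs_of_nonneg (hb w).1]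
            _ ≤ |a w - b w| * 1 + 1 * ∑ v ∈ D', |a v - b v| := by
                gcongr
                exact (hb w).2
            _ = _ := by ring
    -- pointwise estimate
    have hpt : ∀ k, ∀ᵐ ω ∂(PP V), |g0 ω - Ff μ γ (bal k) k f ω|
        ≤ ∑ v ∈ D, (((Y k v ω - X v ω) ^ 2 + (1 - Y k v ω ^ 2)) / 4 + (1 - Y k v ω ^ 2) / 2) := by
      intro k
      filter_upwards [habs, ae_injective] with ω hω hinj
      obtain ⟨l, hl, hωl⟩ := exists_list (bal k) hinj
      have b1 : |g0 ω - ∏ v ∈ D, (1 + spin (η v) * Y k v ω) / 2|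
          ≤ ∑ v ∈ D, ((Y k v ω - X v ω) ^ 2 + (1 - Y k v ω ^ 2)) / 4 := by
        refine (hprod D (fun v => (1 + spin (η v) * spin (fieldΦ X ω v)) / 2)
          (fun v => (1 + spin (η v) * Y k v ω) / 2) (fun v => h01 _ _ (abs_spin _).le)
          (fun v => h01 _ _ (hYb k v ω))).trans ?_
        refine Finset.sum_le_sum fun v _ => ?_
        rw [spin_fieldΦ (hω v)]
        have : (1 + spin (η v) * X v ω) / 2 - (1 + spin (η v) * Y k v ω) / 2
            = spin (η v) * (X v ω - Y k v ω) / 2 := by ring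
        rw [this, abs_div, abs_mul, abs_spin, one_mul, abs_two]
        have hyb := abs_le.1 (hYb k v ω)
        rcases eq_or_eq_neg_of_abs_eq (hω v) with h | h
        · rw [h, abs_of_nonneg (by linarith)]
          nlinarith
        · rw [h, abs_of_nonpos (by linarith)]
          nlinarith
      have b2 : |Ff μ γ (bal k) k f ω - ∏ v ∈ D, (1 + spin (η v) * Y k v ω) / 2|
          ≤ ∑ v ∈ D, (1 - Y k v ω ^ 2) / 2 := by
        have hp := pattern_bound (μ := μ) hG H.hγ (rounds l k) (coinOf ω) η D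
        have hYe : ∀ v, Y k v ω = mg μ γ (rounds l k) v (coinOf ω) := fun v =>
          Mf_eq hl hωl k v
        rw [Ff_eq hl hωl]
        simp only [hYe]
        exact hp
      rw [Finset.sum_add_distrib]
      calc |g0 ω - Ff μ γ (bal k) k f ω|
          = |(g0 ω - ∏ v ∈ D, (1 + spin (η v) * Y k v ω) / 2)
            - (Ff μ γ (bal k) k f ω - ∏ v ∈ D, (1 + spin (η v) * Y k v ω) / 2)| := by
              congr 1; ring
        _ ≤ _ := (abs_sub _ _).trans (add_le_add b1 b2)
    have hFfi : ∀ k, Integrable (Ff μ γ (bal k) k f) (PP V) := by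
      intro k
      -- bounded by the pointwise estimate; direct bound
      have hb : ∀ ω, |Ff μ γ (bal k) k f ω| ≤ 1 := by
        intro ω
        by_cases h : ∃ l ∈ lists (bal k), ω ∈ Ord l
        · obtain ⟨l, hl, hω⟩ := h
          rw [Ff_eq hl hω]
          refine (dens_post (μ := μ) hG H.hγ (rounds l k) (coinOf ω)).abs_int_le hfloc ?_
          intro s
          have h0 : 0 ≤ f s := Finset.prod_nonneg fun v _ => (h01 _ _ (abs_spin _).le).1
          have h1 : f s ≤ 1 := Finset.prod_le_one (fun v _ => (h01 _ _ (abs_spin _).le).1)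
            fun v _ => (h01 _ _ (abs_spin _).le).2
          rw [abs_of_nonneg h0]; exact h1
        · have : Ff μ γ (bal k) k f ω = 0 := by
            unfold Ff
            refine Finset.sum_eq_zero fun l hl => ?_
            rw [indicator_of_notMem]
            exact fun h' => h ⟨l, hl, h'⟩
          rw [this]; simp
      exact Integrable.of_bound (measurable_Ff _ _ _).aestronglyMeasurable 1
        (Filter.Eventually.of_forall fun ω => by simpa using hb ω)
    have hg0i : Integrable g0 (PP V) := by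
      refine Integrable.of_bound hg0m.aestronglyMeasurable 1
        (Filter.Eventually.of_forall fun ω => ?_)
      have h0 : 0 ≤ g0 ω := Finset.prod_nonneg fun v _ => (h01 _ _ (abs_spin _).le).1
      have h1 : g0 ω ≤ 1 := Finset.prod_le_one (fun v _ => (h01 _ _ (abs_spin _).le).1)
        fun v _ => (h01 _ _ (abs_spin _).le).2
      rw [Real.norm_eq_abs, abs_of_nonneg h0]; exact h1
    have i1 : ∀ k v, Integrable (fun ω => (Y k v ω - X v ω) ^ 2) (PP V) := fun k v =>
      ((hYm k v).sub (hX v)).integrable_sq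
    have i2 : ∀ k v, Integrable (fun ω => 1 - Y k v ω ^ 2) (PP V) := fun k v =>
      (integrable_const _).sub (hYm k v).integrable_sq
    have hmain : ∀ k, |∫ ω, g0 ω ∂(PP V) - ∫ s, f s ∂μ|
        ≤ ∑ v ∈ D, ((∫ ω, (Y k v ω - X v ω) ^ 2 ∂(PP V)) / 4
          + 3 / 4 * ∫ ω, (1 - Y k v ω ^ 2) ∂(PP V)) := by
      intro k
      rw [← Ff_int (γ := γ) (bal k) k hfloc, ← integral_sub hg0i (hFfi k)]
      refine abs_integral_le_integral_abs.trans ?_
      have i3 : ∀ v, Integrable (fun ω => ((Y k v ω - X v ω) ^ 2 + (1 - Y k v ω ^ 2)) / 4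
          + (1 - Y k v ω ^ 2) / 2) (PP V) := fun v =>
        (((i1 k v).add (i2 k v)).div_const 4).add ((i2 k v).div_const 2)
      refine (integral_mono_ae (hg0i.sub (hFfi k)).abs
        (integrable_finset_sum D fun v _ => i3 v) (hpt k)).trans ?_
      rw [integral_finset_sum _ fun v _ => i3 v]
      refine Finset.sum_le_sum fun v _ => le_of_eq ?_
      have i4 : Integrable (fun ω => (1 / 4) * (Y k v ω - X v ω) ^ 2) (PP V) :=
        (i1 k v).const_mul _
      have i5 : Integrable (fun ω => (3 / 4) * (1 - Y k v ω ^ 2)) (PP V) :=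
        (i2 k v).const_mul _
      have : ∀ ω, ((Y k v ω - X v ω) ^ 2 + (1 - Y k v ω ^ 2)) / 4 + (1 - Y k v ω ^ 2) / 2
          = (1 / 4) * (Y k v ω - X v ω) ^ 2 + (3 / 4) * (1 - Y k v ω ^ 2) := fun ω => by ring
      simp_rw [this]
      rw [integral_add i4 i5, integral_const_mul, integral_const_mul]
      ring
    have hev : ∀ᶠ k in atTop, |∫ ω, g0 ω ∂(PP V) - ∫ s, f s ∂μ|
        ≤ ∑ v ∈ D, ((∫ ω, (Y k v ω - X v ω) ^ 2 ∂(PP V)) / 4 + 3 / 4 * bd γ k) := by
      have hv : ∀ᶠ k in atTop, ∀ v ∈ D, v ∈ ballF G hG.connected o (N * k) ∧ 0 < k := by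
        rw [Finset.eventually_all]
        intro v _
        filter_upwards [eventually_ge_atTop (G.dist o v + 1)] with k hk
        refine ⟨?_, by omega⟩
        rw [mem_ballF]
        calc G.dist o v ≤ k := by omega
          _ ≤ N * k := Nat.le_mul_of_pos_left k hN
      filter_upwards [hv] with k hk
      refine (hmain k).trans (Finset.sum_le_sum fun v hvD => ?_)
      have := Mf_var (μ := μ) hG hγ0 H.hγ (hk v hvD).1 (hk v hvD).2
      gcongr
    have hlim : Tendsto (fun k => ∑ v ∈ D, ((∫ ω, (Y k v ω - X v ω) ^ 2 ∂(PP V)) / 4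
        + 3 / 4 * bd γ k)) atTop (𝓝 0) := by
      have : Tendsto (fun k => ∑ v ∈ D, ((∫ ω, (Y k v ω - X v ω) ^ 2 ∂(PP V)) / 4
          + 3 / 4 * bd γ k)) atTop (𝓝 (∑ v ∈ D, (0 / 4 + 3 / 4 * 0 : ℝ))) :=
        tendsto_finset_sum _ fun v _ =>
          ((hT v).div_const 4).add ((bd_tendsto hγ0).const_mul (3 / 4))
      simpa using this
    have h0 := ge_of_tendsto hlim hev
    have h0' : ∫ ω, g0 ω ∂(PP V) - ∫ s, f s ∂μ = 0 := abs_eq_zero.1 (le_antisymm h0 (abs_nonneg _))
    rw [e1, e2]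
    linarith
  refine IsFreeIsing.unique hG.connected (θ := θ) ⟨inferInstance, fun D hD η => ?_⟩ H.ising
  rw [key D η]
  exact H.ising.cylinder D hD η

end field

end P161
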