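import Vale.Agent.P161.Compare

/-!
# Martingale identities, decay of the variance, preservation of the law
-/

open MeasureTheory Set

namespace P161

universe u

variable {V : Type u} {G : SimpleGraph V} {θ γ : ℝ} {μ : Measure (V → Bool)}
variable [IsProbabilityMeasure μ] {Q : Measure (V × ℕ → Bool)} [IsFiniteMeasure Q]

theorem mg_sq_cons (hQ : FlipInv Q) {e : V × ℕ} {l : List (V × ℕ)} (he : e ∉ l) (v : V) :
    ∫ c, mg μ γ (e :: l) v c ^ 2 ∂Q
      = ∫ c, mg μ γ l v c ^ 2 ∂Q + γ ^ 2 * ∫ c, cv μ γ l v e.1 c ^ 2 ∂Q := by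
  simp only [mg_cons]
  exact hQ.sq_add (loc_mg _ v) (loc_cv _ v e.1) (ind_mg he v) (ind_cv he v e.1) γ

theorem mg_mart (hQ : FlipInv Q) {l : List (V × ℕ)} (v : V) :
    ∀ l' : List (V × ℕ), (l' ++ l).Nodup →
      ∫ c, (mg μ γ (l' ++ l) v c - mg μ γ l v c) ^ 2 ∂Q
        = ∫ c, mg μ γ (l' ++ l) v c ^ 2 ∂Q - ∫ c, mg μ γ l v c ^ 2 ∂Q := by
  intro l'
  induction l' with
  | nil => intro _; simp
  | cons e l' ih =>
      intro h
      rw [List.cons_append] at h ⊢
      have h' := List.nodup_cons.1 h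
      have hel : e ∉ l := fun hm => h'.1 (List.mem_append_right _ hm)
      rw [mg_sq_cons hQ h'.1]
      have : ∀ c, mg μ γ (e :: (l' ++ l)) v c - mg μ γ l v c
          = (mg μ γ (l' ++ l) v c - mg μ γ l v c)
            + γ * spin (c e) * cv μ γ (l' ++ l) v e.1 c := fun c => by
        rw [mg_cons]; ring
      simp_rw [this]
      rw [hQ.sq_add ((loc_mg _ v).sub (loc_mg _ v)) (loc_cv _ v e.1)
        (fun c => by rw [ind_mg h'.1 v c, ind_mg hel v c]) (ind_cv h'.1 v e.1), ih h'.2]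
      ring

/-- integrated posterior variance of the spin at `v` -/
noncomputable def vr (μ : Measure (V → Bool)) (γ : ℝ) (Q : Measure (V × ℕ → Bool))
    (l : List (V × ℕ)) (v : V) : ℝ := ∫ c, (1 - mg μ γ l v c ^ 2) ∂Q

theorem vr_eq (l : List (V × ℕ)) (v : V) :
    vr μ γ Q l v = Q.real univ - ∫ c, mg μ γ l v c ^ 2 ∂Q := by
  unfold vr
  rw [integral_sub (integrable_const _) (((loc_mg l v).pow 2).integrable Q), integral_const,
    smul_eq_mul, mul_one]

theorem vr_cons (hQ : FlipInv Q) {e : V × ℕ} {l : List (V × ℕ)} (he : e ∉ l) (v : V) :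
    vr μ γ Q (e :: l) v = vr μ γ Q l v - γ ^ 2 * ∫ c, cv μ γ l v e.1 c ^ 2 ∂Q := by
  rw [vr_eq, vr_eq, mg_sq_cons hQ he]; ring

theorem vr_nonneg (hG : G.IsTree) (hγ : |γ| ≤ 1 / 4) (l : List (V × ℕ)) (v : V) :
    0 ≤ vr μ γ Q l v :=
  integral_nonneg fun c => by
    have := mg_sq_le (μ := μ) hG hγ l v c
    simp only [Pi.zero_apply]
    linarith

theorem vr_anti (hQ : FlipInv Q) {l : List (V × ℕ)} (v : V) :
    ∀ l' : List (V × ℕ), (l' ++ l).Nodup → vr μ γ Q (l' ++ l) v ≤ vr μ γ Q l v := by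
  intro l'
  induction l' with
  | nil => intro _; exact le_rfl
  | cons e l' ih =>
      intro h
      rw [List.cons_append] at h ⊢
      have h' := List.nodup_cons.1 h
      rw [vr_cons hQ h'.1]
      have h2 : 0 ≤ γ ^ 2 * ∫ c, cv μ γ (l' ++ l) v e.1 c ^ 2 ∂Q :=
        mul_nonneg (sq_nonneg _) (integral_nonneg fun _ => sq_nonneg _)
      linarith [ih h'.2]

theorem sq_integral_le {f : (V × ℕ → Bool) → ℝ} (hf : Loc f) :
    (∫ c, f c ∂Q) ^ 2 ≤ Q.real univ * ∫ c, f c ^ 2 ∂Q := by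
  set q := Q.real univ with hq
  set a := ∫ c, f c ∂Q with ha
  have hq0 : 0 ≤ q := measureReal_nonneg
  have h0 : 0 ≤ ∫ c, (q * f c - a) ^ 2 ∂Q := integral_nonneg fun _ => sq_nonneg _
  have h1 : ∫ c, (q * f c - a) ^ 2 ∂Q = q ^ 2 * ∫ c, f c ^ 2 ∂Q - 2 * q * a * a + a ^ 2 * q := by
    have : ∀ c, (q * f c - a) ^ 2 = q ^ 2 * f c ^ 2 - 2 * q * a * f c + a ^ 2 := fun c => by ring
    simp_rw [this]
    have i1 := ((hf.pow 2).const_mul (q ^ 2)).integrable Q
    have i2 := (hf.const_mul (2 * q * a)).integrable Q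
    have i12 : Integrable (fun c => q ^ 2 * f c ^ 2 - 2 * q * a * f c) Q := i1.sub i2
    rw [integral_add i12 (integrable_const _), integral_sub i1 i2, integral_const_mul,
      integral_const_mul, integral_const, smul_eq_mul, ← ha, ← hq]
    ring
  rw [h1] at h0
  rcases hq0.eq_or_lt with h | h
  · have hQ0 : Q = 0 := by
      rw [← Measure.measure_univ_eq_zero]
      have : (Q univ).toReal = 0 := h.symm
      rcases (ENNReal.toReal_eq_zero_iff _).1 this with h' | h'
      · exact h'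
      · exact absurd h' (measure_ne_top _ _)
    have : a = 0 := by rw [ha, hQ0, integral_zero_measure]
    rw [this, ← h]; simp
  · have : 0 ≤ q * (q * ∫ c, f c ^ 2 ∂Q - a ^ 2) := by nlinarith
    have := nonneg_of_mul_nonneg_right this h
    linarith

theorem vr_round (hG : G.IsTree) (hγ : |γ| ≤ 1 / 4) (hQ : FlipInv Q) {l : List (V × ℕ)}
    (v : V) (i : ℕ) :
    ∀ l' : List (V × ℕ), (l' ++ l).Nodup → (v, i) ∈ l' →
      γ ^ 2 * vr μ γ Q (l' ++ l) v ^ 2
        ≤ Q.real univ * (vr μ γ Q l v - vr μ γ Q (l' ++ l) v) := by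
  intro l'
  induction l' with
  | nil => intro _ h; simp at h
  | cons e l' ih =>
      intro h hmem
      rw [List.cons_append] at h ⊢
      have h' := List.nodup_cons.1 h
      have hq0 : 0 ≤ Q.real univ := measureReal_nonneg
      have hdec : vr μ γ Q (e :: (l' ++ l)) v ≤ vr μ γ Q (l' ++ l) v := by
        simpa using vr_anti (μ := μ) (γ := γ) hQ v [e] (by simpa using h)
      have hnn := vr_nonneg (μ := μ) (Q := Q) hG hγ (e :: (l' ++ l)) v
      have hnn' := vr_nonneg (μ := μ) (Q := Q) hG hγ (l' ++ l) v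
      have hsq : vr μ γ Q (e :: (l' ++ l)) v ^ 2 ≤ vr μ γ Q (l' ++ l) v ^ 2 := by gcongr
      have hsq' := mul_le_mul_of_nonneg_left hsq (sq_nonneg γ)
      rcases List.mem_cons.1 hmem with hmem | hmem
      · have hanti := vr_anti (μ := μ) (γ := γ) hQ v l' h'.2
        have he1 : e.1 = v := by rw [← hmem]
        have hvc := vr_cons (μ := μ) (γ := γ) hQ h'.1 v
        rw [he1] at hvc
        have hcs := sq_integral_le (Q := Q)
          (Loc.sub (Loc.const 1) ((loc_mg (μ := μ) (γ := γ) (l' ++ l) v).pow 2))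
        have hcv : ∀ c, cv μ γ (l' ++ l) v v c = 1 - mg μ γ (l' ++ l) v c ^ 2 := fun c =>
          cov_self (dens_post hG hγ (l' ++ l) c) v
        simp_rw [hcv] at hvc
        have hvr : vr μ γ Q (l' ++ l) v ^ 2
            ≤ Q.real univ * ∫ c, (1 - mg μ γ (l' ++ l) v c ^ 2) ^ 2 ∂Q := hcs
        have h3 := mul_le_mul_of_nonneg_left hvr (sq_nonneg γ)
        have h4 : γ ^ 2 * ∫ c, (1 - mg μ γ (l' ++ l) v c ^ 2) ^ 2 ∂Q
            ≤ vr μ γ Q l v - vr μ γ Q (e :: (l' ++ l)) v := by linarith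
        have h5 := mul_le_mul_of_nonneg_left h4 hq0
        nlinarith
      · have := ih h'.2 hmem
        have h6 : Q.real univ * vr μ γ Q (e :: (l' ++ l)) v
            ≤ Q.real univ * vr μ γ Q (l' ++ l) v := mul_le_mul_of_nonneg_left hdec hq0
        nlinarith

theorem vr_rounds (hG : G.IsTree) (hγ : |γ| ≤ 1 / 4) (hQ : FlipInv Q) {l₀ : List V}
    (hl : l₀.Nodup) {v : V} (hv : v ∈ l₀) (j : ℕ) :
    γ ^ 2 * j * vr μ γ Q (rounds l₀ j) v ^ 2 ≤ Q.real univ ^ 2 := by
  have hq0 : 0 ≤ Q.real univ := measureReal_nonneg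
  have key : ∀ j : ℕ, γ ^ 2 * j * vr μ γ Q (rounds l₀ j) v ^ 2
      ≤ Q.real univ * (Q.real univ - vr μ γ Q (rounds l₀ j) v) := by
    intro j
    induction j with
    | zero =>
        have h1 : vr μ γ Q (rounds l₀ 0) v ≤ Q.real univ := by
          rw [vr_eq]
          have : 0 ≤ ∫ c, mg μ γ (rounds l₀ 0) v c ^ 2 ∂Q := integral_nonneg fun _ => sq_nonneg _
          linarith
        have : 0 ≤ Q.real univ * (Q.real univ - vr μ γ Q (rounds l₀ 0) v) :=
          mul_nonneg hq0 (by linarith)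
        simpa using this
    | succ j ih =>
        have hnd := nodup_rounds hl (j + 1)
        have h1 := vr_round (μ := μ) (γ := γ) hG hγ hQ (l := rounds l₀ j) v j
          (l₀.map fun v => (v, j)) hnd (List.mem_map.2 ⟨v, hv, rfl⟩)
        have h2 := vr_anti (μ := μ) (γ := γ) hQ (l := rounds l₀ j) v
          (l₀.map fun v => (v, j)) hnd
        have hnn := vr_nonneg (μ := μ) (Q := Q) hG hγ (rounds l₀ (j + 1)) v
        change γ ^ 2 * vr μ γ Q (rounds l₀ (j + 1)) v ^ 2 ≤ _ at h1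
        change vr μ γ Q (rounds l₀ (j + 1)) v ≤ _ at h2
        change _ ≤ Q.real univ * (vr μ γ Q (rounds l₀ j) v - vr μ γ Q (rounds l₀ (j + 1)) v) at h1
        have hsq : vr μ γ Q (rounds l₀ (j + 1)) v ^ 2 ≤ vr μ γ Q (rounds l₀ j) v ^ 2 := by gcongr
        have hsq' : γ ^ 2 * j * vr μ γ Q (rounds l₀ (j + 1)) v ^ 2
            ≤ γ ^ 2 * j * vr μ γ Q (rounds l₀ j) v ^ 2 := by gcongr
        push_cast
        nlinarith
  have hnn := vr_nonneg (μ := μ) (Q := Q) hG hγ (rounds l₀ j) v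
  have := key j
  nlinarith [mul_nonneg hq0 hnn]

/-- the averaged posterior is the prior -/
theorem law_preserved (hQ : FlipInv Q) {f : (V → Bool) → ℝ} (hf : Loc f) :
    ∀ l : List (V × ℕ), l.Nodup →
      ∫ c, (∫ s, dens μ γ l c s * f s ∂μ) ∂Q = Q.real univ * ∫ s, f s ∂μ := by
  intro l
  induction l with
  | nil =>
      intro _
      simp only [dens, one_mul]
      rw [integral_const, smul_eq_mul]
  | cons e l ih =>
      intro h
      have h' := List.nodup_cons.1 h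
      have : ∀ c, ∫ s, dens μ γ (e :: l) c s * f s ∂μ
          = (∫ s, dens μ γ l c s * f s ∂μ) + γ * spin (c e) *
            (∫ s, dens μ γ l c s * (f s * spin (s e.1)) ∂μ
              - (∫ s, dens μ γ l c s * f s ∂μ) * mean μ (dens μ γ l c) e.1) := fun c => by
        rw [dens, int_upd (dens_loc_spin l c) e.1 _ hf]
      simp_rw [this]
      rw [hQ.lin_add (loc_dens (fun ρ => ∫ s, ρ s * f s ∂μ) l)
        (loc_dens (fun ρ => ∫ s, ρ s * (f s * spin (s e.1)) ∂μ
              - (∫ s, ρ s * f s ∂μ) * mean μ ρ e.1) l)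
        (ind_dens (fun ρ => ∫ s, ρ s * (f s * spin (s e.1)) ∂μ
              - (∫ s, ρ s * f s ∂μ) * mean μ ρ e.1) h'.1) γ]
      exact ih h'.2

end P161
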