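import Vale.Agent.P161.Mart

/-!
# The label space, coin flips and random orders
-/

open MeasureTheory Set

namespace P161

universe u

/-- a fair coin -/
noncomputable def coin : Measure Bool :=
  (2⁻¹ : ENNReal) • Measure.dirac true + (2⁻¹ : ENNReal) • Measure.dirac false

instance : IsProbabilityMeasure coin where
  measure_univ := by
    simp [coin, ENNReal.inv_two_add_inv_two]

theorem coin_map_not : coin.map (fun b => !b) = coin := by
  have hm : Measurable (fun b : Bool => !b) := measurable_of_finite _
  unfold coin
  rw [Measure.map_add _ _ hm, Measure.map_smul, Measure.map_smul, Measure.map_dirac' hm,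
    Measure.map_dirac' hm, add_comm]
  rfl

/-- label at one vertex: a uniform time and a sequence of fair coins -/
abbrev Lab : Type := unitInterval × (ℕ → Bool)

/-- law of the label at one vertex -/
noncomputable def labLaw : Measure Lab :=
  (volume : Measure unitInterval).prod (Measure.infinitePi fun _ : ℕ => coin)

instance : IsProbabilityMeasure labLaw := by unfold labLaw; infer_instance

theorem coins_map_flip (i : ℕ) :
    (Measure.infinitePi fun _ : ℕ => coin).map (flipAt i) = Measure.infinitePi fun _ : ℕ => coin := by
  classical
  have h : (flipAt i : (ℕ → Bool) → (ℕ → Bool))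
      = fun x j => (if j = i then (fun b : Bool => !b) else id) (x j) := by
    funext x j
    by_cases hj : j = i
    · subst hj; simp [flipAt_self]
    · simp [flipAt_ne hj, hj]
  rw [h, Measure.infinitePi_map_pi]
  · congr 1
    funext j
    by_cases hj : j = i
    · simp [hj, coin_map_not]
    · simp [hj]
  · intro j
    exact measurable_of_finite _

theorem labLaw_map_flip (i : ℕ) : labLaw.map (Prod.map id (flipAt i)) = labLaw := by
  unfold labLaw
  rw [← Measure.map_prod_map _ _ measurable_id (measurable_flipAt i), Measure.map_id,
    coins_map_flip]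

variable {V : Type u}

/-- law of the labels -/
noncomputable def PP (V : Type u) : Measure (V → Lab) := Measure.infinitePi fun _ : V => labLaw

instance : IsProbabilityMeasure (PP V) := by unfold PP; infer_instance

/-- the coins -/
def coinOf (ω : V → Lab) : V × ℕ → Bool := fun e => (ω e.1).2 e.2

theorem measurable_coinOf : Measurable (coinOf : (V → Lab) → (V × ℕ → Bool)) := by
  unfold coinOf
  fun_prop

open Classical in
/-- flip one coin in the label space -/
noncomputable def flipΩ (e : V × ℕ) (ω : V → Lab) : V → Lab :=
  fun v => (if v = e.1 then Prod.map id (flipAt e.2) else id) (ω v)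

theorem measurable_flipΩ (e : V × ℕ) : Measurable (flipΩ e : (V → Lab) → (V → Lab)) := by
  classical
  refine measurable_pi_lambda _ fun v => ?_
  unfold flipΩ
  by_cases h : v = e.1
  · simp only [h, if_true]
    exact (measurable_id.prodMap (measurable_flipAt e.2)).comp (measurable_pi_apply _)
  · simp only [h, if_false]
    exact measurable_pi_apply _

theorem PP_map_flip (e : V × ℕ) : (PP V).map (flipΩ e) = PP V := by
  classical
  unfold PP flipΩ
  rw [Measure.infinitePi_map_pi (μ := fun _ : V => labLaw)
    (f := fun v => if v = e.1 then Prod.map id (flipAt e.2) else id)]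
  · congr 1
    funext v
    by_cases h : v = e.1
    · simp [h, labLaw_map_flip]
    · simp [h]
  · intro v
    by_cases h : v = e.1
    · simp only [h, if_true]
      exact measurable_id.prodMap (measurable_flipAt e.2)
    · simp only [h, if_false]
      exact measurable_id

theorem coinOf_flip (e : V × ℕ) (ω : V → Lab) : coinOf (flipΩ e ω) = flipAt e (coinOf ω) := by
  classical
  funext e'
  obtain ⟨v, i⟩ := e
  obtain ⟨w, j⟩ := e'
  by_cases h : w = v
  · subst h
    by_cases hij : j = i
    · subst hij
      rw [flipAt_self]
      simp [coinOf, flipΩ, flipAt_self]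
    · rw [flipAt_ne (by simpa using hij)]
      simp [coinOf, flipΩ, flipAt_ne hij]
  · rw [flipAt_ne (by simp [h])]
    simp [coinOf, flipΩ, h]

theorem time_flip (e : V × ℕ) (ω : V → Lab) (v : V) : (flipΩ e ω v).1 = (ω v).1 := by
  classical
  unfold flipΩ
  by_cases h : v = e.1 <;> simp [h]

/-- the event that the times decrease along the list `l` -/
def Ord (l : List V) : Set (V → Lab) := {ω | l.Pairwise fun a b => (ω b).1 < (ω a).1}

theorem measurableSet_Ord (l : List V) : MeasurableSet (Ord l) := by
  induction l with
  | nil => simp [Ord]
  | cons a l ih =>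
      have : Ord (a :: l) = (⋂ b ∈ {b | b ∈ l}, {ω : V → Lab | (ω b).1 < (ω a).1}) ∩ Ord l := by
        ext ω
        simp [Ord, List.pairwise_cons]
      rw [this]
      refine MeasurableSet.inter ?_ ih
      refine MeasurableSet.biInter (List.finite_toSet l).countable fun b _ => ?_
      exact measurableSet_lt (by fun_prop) (by fun_prop)

theorem Ord_flip (l : List V) (e : V × ℕ) : flipΩ e ⁻¹' Ord l = Ord l := by
  ext ω
  simp only [Ord, mem_preimage, mem_setOf_eq, time_flip]

/-- coin law restricted to an order event -/
noncomputable def QQ (l : List V) : Measure (V × ℕ → Bool) := ((PP V).restrict (Ord l)).map coinOf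

instance (l : List V) : IsFiniteMeasure (QQ l) := by unfold QQ; infer_instance

theorem QQ_real_univ (l : List V) : (QQ l).real univ = (PP V).real (Ord l) := by
  unfold QQ
  rw [Measure.real, Measure.map_apply measurable_coinOf MeasurableSet.univ, preimage_univ,
    Measure.restrict_apply_univ, Measure.real]

theorem flipInv_QQ (l : List V) : FlipInv (QQ l) := by
  intro e
  unfold QQ
  rw [Measure.map_map (measurable_flipAt e) measurable_coinOf]
  have h1 : (flipAt e ∘ coinOf : (V → Lab) → _) = coinOf ∘ flipΩ e := by
    funext ω; exact (coinOf_flip e ω).symm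
  rw [h1, ← Measure.map_map measurable_coinOf (measurable_flipΩ e)]
  congr 1
  have hmp : MeasurePreserving (flipΩ e) (PP V) (PP V) := ⟨measurable_flipΩ e, PP_map_flip e⟩
  have := hmp.restrict_preimage (measurableSet_Ord l)
  rw [Ord_flip] at this
  exact this.map_eq

/-- almost surely all times are distinct -/
theorem ae_injective [Countable V] :
    ∀ᵐ ω ∂(PP V), Function.Injective fun v => (ω v).1 := by
  have h : ∀ a b : V, a ≠ b → ∀ᵐ ω ∂(PP V), (ω a).1 ≠ (ω b).1 := by
    intro a b hab
    have h1 : (PP V).map (fun ω => (ω a, ω b)) = labLaw.prod labLaw :=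
      Measure.infinitePi_map_eval_prod hab
    have h2 : ∀ᵐ x ∂(labLaw.prod labLaw), x.1.1 ≠ x.2.1 := by
      have h3 : (labLaw.prod labLaw).map (Prod.map Prod.fst Prod.fst)
          = (volume : Measure unitInterval).prod (volume : Measure unitInterval) := by
        rw [← Measure.map_prod_map _ _ measurable_fst measurable_fst]
        unfold labLaw
        rw [Measure.map_fst_prod]
        simp
      have h4 : ∀ᵐ y ∂((volume : Measure unitInterval).prod (volume : Measure unitInterval)),
          y.1 ≠ y.2 := by
        rw [Measure.ae_prod_iff_ae_ae]
        · refine Filter.Eventually.of_forall fun x => ?_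
          rw [ae_iff]
          simp only [ne_eq, not_not]
          have : {a : unitInterval | x = a} = {x} := by ext y; simp [eq_comm]
          rw [this]
          exact measure_singleton x
        · exact (measurableSet_eq_fun measurable_fst measurable_snd).compl
      rw [← h3] at h4
      exact ae_of_ae_map (f := Prod.map Prod.fst Prod.fst)
        (p := fun y : unitInterval × unitInterval => y.1 ≠ y.2) (by fun_prop) h4
    rw [← h1] at h2
    exact ae_of_ae_map (f := fun ω : V → Lab => (ω a, ω b))
      (p := fun x : Lab × Lab => x.1.1 ≠ x.2.1) (by fun_prop) h2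
  have h' : ∀ᵐ ω ∂(PP V), ∀ a b : V, a ≠ b → (ω a).1 ≠ (ω b).1 := by
    rw [ae_all_iff]; intro a
    rw [ae_all_iff]; intro b
    by_cases hab : a = b
    · simp [hab]
    · filter_upwards [h a b hab] with ω hω _ using hω
  filter_upwards [h'] with ω hω a b hab
  by_contra hne
  exact hω a b hne hab

end P161
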