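import Vale.Agent.P161.Equiv

/-!
# Choice of the parameters
-/

open MeasureTheory Set Filter Topology

namespace P161

universe u

variable {V : Type u} {G : SimpleGraph V} {θ : ℝ} {μ : Measure (V → Bool)}

theorem exists_hyp [G.LocallyFinite] (hG : G.IsTree) {d : ℕ} (hd : 3 ≤ d)
    (hreg : G.IsRegularOfDegree d) (h0 : 0 ≤ θ) (h1 : θ ^ 2 * ((d : ℝ) - 1) < 1)
    (hμ : IsFreeIsing G θ μ) :
    ∃ γ t s r K S : ℝ, 0 < γ ∧ Hyp G μ θ γ t s r K S := by
  have hd3 : (3 : ℝ) ≤ d := by exact_mod_cast hd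
  have hD : (0 : ℝ) < (d : ℝ) - 1 := by linarith
  have hθ2 : θ ^ 2 < 1 / ((d : ℝ) - 1) := by rw [lt_div_iff₀ hD]; exact h1
  set r := (θ ^ 2 + 1 / ((d : ℝ) - 1)) / 2 with hr
  have hr1 : θ ^ 2 < r := by rw [hr]; linarith
  have hr2 : r < 1 / ((d : ℝ) - 1) := by rw [hr]; linarith
  have hr0 : 0 < r := lt_of_le_of_lt (sq_nonneg θ) hr1
  have hrD : r * ((d : ℝ) - 1) < 1 := by rwa [lt_div_iff₀ hD] at hr2
  set q := θ ^ 2 / r with hq
  have hq0 : 0 ≤ q := by positivity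
  have hq1 : q < 1 := by rw [hq, div_lt_one hr0]; exact hr1
  set t := 1 + (1 - q) / 4 with ht
  have ht1 : 1 < t := by rw [ht]; linarith
  set s := t * t * q with hs
  have hs1 : s < 1 := by
    rw [hs, ht]
    nlinarith [mul_nonneg hq0 (sq_nonneg (1 - q)), mul_pos (sub_pos.2 hq1) (sub_pos.2 hq1)]
  obtain ⟨S, hS0, hS⟩ := sum_pow_dist_le (G := G) hG.connected hreg hr0.le hrD
  set K := max 4 (Cst θ t * (1 + t) / (1 - s)) with hK
  have hK4 : 4 ≤ K := le_max_left _ _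
  have hK0 : 0 < K := by linarith
  have hKC : Cst θ t * (1 + t) ≤ (1 - s) * K := by
    have h2 : Cst θ t * (1 + t) / (1 - s) ≤ K := le_max_right _ _
    rw [div_le_iff₀ (by linarith)] at h2
    linarith
  set γ := 1 / (4 * (1 + S * K + S)) with hγ
  have hSK : 0 < S * K := by positivity
  have hden : 1 ≤ 1 + S * K + S := by linarith
  have hγ0 : 0 < γ := by rw [hγ]; positivity
  have hγ4 : γ ≤ 1 / 4 := by
    rw [hγ]
    apply one_div_le_one_div_of_le (by norm_num)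
    linarith
  have hγprod : γ * (1 + S * K + S) = 1 / 4 := by
    rw [hγ]; field_simp
  refine ⟨γ, t, s, r, K, S, hγ0, ⟨hG, hμ, h0, ?_, by rwa [abs_of_pos hγ0], ht1, hr0, ?_, hs1, hK4,
    hKC, hS, ?_, ?_⟩⟩
  · nlinarith [sq_nonneg θ]
  · rw [hs, hq]
    rw [mul_assoc (t * t), div_mul_cancel₀ _ hr0.ne']
  · have h3 : γ * (S * K) ≤ 1 / 4 := by nlinarith
    calc γ ^ 2 * (S * K) = γ * (γ * (S * K)) := by ring
      _ ≤ 1 / 4 * (1 / 4) := by
          apply mul_le_mul hγ4 h3 (by positivity) (by norm_num)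
      _ ≤ 1 / 2 := by norm_num
  · have h3 : γ * S ≤ 1 / 4 := by nlinarith
    calc γ ^ 2 * S = γ * (γ * S) := by ring
      _ ≤ 1 / 4 * (1 / 4) := by
          apply mul_le_mul hγ4 h3 (by positivity) (by norm_num)
      _ ≤ 1 / 2 := by norm_num

end P161
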