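import Vale.Agent.P161.Geom

/-!
# Splitting of the free Ising measure at an edge, uniqueness, invariance (module B)
-/

open MeasureTheory Set

namespace P161

universe u

variable {V : Type u} {G : SimpleGraph V} {θ : ℝ} {μ μ' : Measure (V → Bool)}

/-! ### Cylinders -/

/-- The cylinder over the finite set `D` given by the pattern `η`. -/
def cyl (D : Finset V) (η : V → Bool) : Set (V → Bool) := {σ | ∀ v ∈ D, σ v = η v}

theorem measurableSet_cyl (D : Finset V) (η : V → Bool) : MeasurableSet (cyl D η) := by
  have : cyl D η = ⋂ v ∈ D, (fun σ : V → Bool => σ v) ⁻¹' {η v} := by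
    ext σ
    simp [cyl]
  rw [this]
  exact Finset.measurableSet_biInter D
    (fun v _ => measurable_pi_apply v (MeasurableSet.singleton (η v)))

open Classical in
/-- The pattern with plus set `A`. -/
noncomputable def pat (A : Finset V) : V → Bool := fun v => decide (v ∈ A)

open Classical in
theorem mem_cyl_pat {D A : Finset V} (hA : A ⊆ D) (σ : V → Bool) :
    σ ∈ cyl D (pat A) ↔ A = D.filter (fun v => σ v = true) := by
  constructor
  · intro h
    ext v
    rw [Finset.mem_filter]
    constructor
    · intro hv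
      refine ⟨hA hv, ?_⟩
      rw [h v (hA hv)]
      simp [pat, hv]
    · rintro ⟨hv, hs⟩
      have := h v hv
      rw [hs] at this
      simpa [pat] using this.symm
  · rintro h v hv
    cases hs : σ v with
    | true =>
      have : v ∈ A := by rw [h, Finset.mem_filter]; exact ⟨hv, hs⟩
      simp [pat, this]
    | false =>
      have : v ∉ A := by
        rw [h, Finset.mem_filter]
        rintro ⟨_, h2⟩
        rw [hs] at h2
        cases h2
      simp [pat, this]

open Classical in
theorem integral_eq_sum [IsProbabilityMeasure μ] (D : Finset V) {F : (V → Bool) → ℝ}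
    (hF : DependsOn F (D : Set V)) :
    ∫ s, F s ∂μ = ∑ A ∈ D.powerset, μ.real (cyl D (pat A)) * F (pat A) := by
  have e : ∀ s, F s = ∑ A ∈ D.powerset, (cyl D (pat A)).indicator (fun _ => F (pat A)) s := by
    intro s
    set A0 := D.filter (fun v => s v = true) with hA0
    have h0 : A0 ∈ D.powerset := Finset.mem_powerset.2 (Finset.filter_subset _ _)
    have hs : s ∈ cyl D (pat A0) := (mem_cyl_pat (Finset.filter_subset _ _) s).2 rfl
    rw [Finset.sum_eq_single_of_mem A0 h0]
    · rw [Set.indicator_of_mem hs]
      exact hF (fun v hv => hs v hv)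
    · intro A hA hne
      rw [Set.indicator_of_notMem]
      intro h
      exact hne ((mem_cyl_pat (Finset.mem_powerset.1 hA) s).1 h)
  have e2 : (fun s => F s) = fun s => ∑ A ∈ D.powerset,
      (cyl D (pat A)).indicator (fun _ => F (pat A)) s := funext e
  rw [e2, integral_finsetSum]
  · refine Finset.sum_congr rfl (fun A _ => ?_)
    rw [integral_indicator_const _ (measurableSet_cyl D (pat A)), smul_eq_mul]
  · intro A _
    exact (integrable_const _).indicator (measurableSet_cyl D (pat A))

/-! ### Connected sets on one side of an edge -/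

theorem side_support (hG : G.IsTree) {a b x u : V} (hab : G.Adj a b)
    (hx : G.dist x a < G.dist x b) {p : G.Walk a x} (hp : p.length = G.dist a x)
    (hu : u ∈ p.support) : G.dist u a < G.dist u b := by
  classical
  have h1 : G.dist a u ≤ (p.takeUntil u hu).length := SimpleGraph.dist_le _
  have h2 : G.dist u x ≤ (p.dropUntil u hu).length := SimpleGraph.dist_le _
  have h3 : (p.takeUntil u hu).length + (p.dropUntil u hu).length = p.length := by
    rw [← SimpleGraph.Walk.length_append, SimpleGraph.Walk.take_spec]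
  have h4 := hG.dist_eq_dist_add_one_of_adj u hab
  have h5 : G.dist x b ≤ G.dist x u + G.dist u b := hG.connected.dist_triangle
  have s1 : G.dist a u = G.dist u a := SimpleGraph.dist_comm
  have s2 : G.dist x u = G.dist u x := SimpleGraph.dist_comm
  have s3 : G.dist a x = G.dist x a := SimpleGraph.dist_comm
  omega

theorem exists_connected_side (hG : G.IsTree) {a b : V} (hab : G.Adj a b) (S : Finset V)
    (hS : ∀ x ∈ S, G.dist x a < G.dist x b) :
    ∃ D : Finset V, S ⊆ D ∧ a ∈ D ∧ (G.induce (D : Set V)).Connected ∧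
      ∀ x ∈ D, G.dist x a < G.dist x b := by
  classical
  induction S using Finset.induction_on with
  | empty =>
    refine ⟨{a}, by simp, by simp, ?_, ?_⟩
    · have := (SimpleGraph.Walk.nil : G.Walk a a).connected_induce_support
      have e : {v | v ∈ (SimpleGraph.Walk.nil : G.Walk a a).support} = (({a} : Finset V) : Set V) := by
        ext v; simp
      rwa [e] at this
    · intro x hx
      rw [Finset.mem_singleton] at hx
      subst hx
      rw [SimpleGraph.dist_self]
      exact hG.connected.pos_dist_of_ne hab.ne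
  | insert x S _ ih =>
    obtain ⟨D, h1, h2, h3, h4⟩ := ih (fun y hy => hS y (Finset.mem_insert_of_mem hy))
    obtain ⟨p, hp⟩ := hG.connected.exists_walk_length_eq_dist a x
    refine ⟨D ∪ p.support.toFinset, ?_, Finset.mem_union_left _ h2, ?_, ?_⟩
    · intro y hy
      rcases Finset.mem_insert.1 hy with rfl | hy
      · exact Finset.mem_union_right _ (List.mem_toFinset.2 p.end_mem_support)
      · exact Finset.mem_union_left _ (h1 hy)
    · have h5 := p.connected_induce_support
      have e : ((D ∪ p.support.toFinset : Finset V) : Set V)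
          = (D : Set V) ∪ {v | v ∈ p.support} := by
        ext v; simp
      rw [e]
      exact SimpleGraph.induce_union_connected h3.preconnected h5.preconnected
        ⟨a, Finset.mem_coe.2 h2, p.start_mem_support⟩
    · intro y hy
      rcases Finset.mem_union.1 hy with hy | hy
      · exact h4 y hy
      · exact side_support hG hab (hS x (Finset.mem_insert_self x S)) hp (List.mem_toFinset.1 hy)

/-! ### Edges -/

theorem mem_edgesIn {D : Finset V} {x y : V} :
    s(x, y) ∈ edgesIn G D ↔ x ∈ D ∧ y ∈ D ∧ G.Adj x y := by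
  classical
  unfold edgesIn
  rw [Finset.mem_filter, Finset.mk_mem_sym2_iff, SimpleGraph.mem_edgeSet, and_assoc]

theorem prod_edgesIn_union (hG : G.IsTree) {a b : V} (hab : G.Adj a b) {D E : Finset V}
    (haD : a ∈ D) (hbE : b ∈ E) (hD : ∀ x ∈ D, G.dist x a < G.dist x b)
    (hE : ∀ x ∈ E, G.dist x b < G.dist x a) (DE : Finset V)
    (hDE : ∀ x, x ∈ DE ↔ x ∈ D ∨ x ∈ E) (f : Sym2 V → ℝ) :
    ∏ e ∈ edgesIn G DE, f e
      = (∏ e ∈ edgesIn G D, f e) * (∏ e ∈ edgesIn G E, f e) * f s(a, b) := by
  classical
  have hnot : ∀ x, x ∈ D → x ∈ E → False := fun x h1 h2 => by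
    have := hD x h1
    have := hE x h2
    omega
  have e1 : edgesIn G DE = insert s(a, b) (edgesIn G D ∪ edgesIn G E) := by
    ext e
    induction e using Sym2.ind with
    | _ x y =>
      rw [mem_edgesIn, Finset.mem_insert, Finset.mem_union, mem_edgesIn, mem_edgesIn, hDE, hDE]
      constructor
      · rintro ⟨hx, hy, hxy⟩
        rcases hx with hx | hx <;> rcases hy with hy | hy
        · exact Or.inr (Or.inl ⟨hx, hy, hxy⟩)
        · obtain ⟨rfl, rfl⟩ := cross_edge hG hab hxy (hD x hx) (hE y hy)
          exact Or.inl rfl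
        · obtain ⟨rfl, rfl⟩ := cross_edge hG hab hxy.symm (hD y hy) (hE x hx)
          exact Or.inl Sym2.eq_swap
        · exact Or.inr (Or.inr ⟨hx, hy, hxy⟩)
      · rintro (h | ⟨hx, hy, hxy⟩ | ⟨hx, hy, hxy⟩)
        · rw [Sym2.eq_iff] at h
          rcases h with ⟨rfl, rfl⟩ | ⟨rfl, rfl⟩
          · exact ⟨Or.inl haD, Or.inr hbE, hab⟩
          · exact ⟨Or.inr hbE, Or.inl haD, hab.symm⟩
        · exact ⟨Or.inl hx, Or.inl hy, hxy⟩
        · exact ⟨Or.inr hx, Or.inr hy, hxy⟩
  have e2 : s(a, b) ∉ edgesIn G D ∪ edgesIn G E := by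
    rw [Finset.mem_union, mem_edgesIn, mem_edgesIn]
    rintro (⟨_, h, _⟩ | ⟨h, _, _⟩)
    · exact hnot b h hbE
    · exact hnot a haD h
  have e3 : Disjoint (edgesIn G D) (edgesIn G E) := by
    rw [Finset.disjoint_left]
    intro e
    induction e using Sym2.ind with
    | _ x y =>
      rw [mem_edgesIn, mem_edgesIn]
      rintro ⟨h1, _, _⟩ ⟨h2, _, _⟩
      exact hnot x h1 h2
  rw [e1, Finset.prod_insert e2, Finset.prod_union e3]
  ring

/-- The cylinder weight of the free Ising measure. -/
noncomputable def wt (G : SimpleGraph V) (θ : ℝ) (D : Finset V) (η : V → Bool) : ℝ :=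
  1 / 2 * ∏ e ∈ edgesIn G D, (1 + θ * pairSpin η e) / 2

theorem wt_union (hG : G.IsTree) {a b : V} (hab : G.Adj a b) {D E : Finset V}
    (haD : a ∈ D) (hbE : b ∈ E) (hD : ∀ x ∈ D, G.dist x a < G.dist x b)
    (hE : ∀ x ∈ E, G.dist x b < G.dist x a) (DE : Finset V)
    (hDE : ∀ x, x ∈ DE ↔ x ∈ D ∨ x ∈ E) (η : V → Bool) :
    wt G θ DE η = wt G θ D η * wt G θ E η * (1 + θ * (spin (η a) * spin (η b))) := by
  unfold wt
  rw [prod_edgesIn_union hG hab haD hbE hD hE DE hDE]
  have : pairSpin η s(a, b) = spin (η a) * spin (η b) := rfl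
  rw [this]
  ring

theorem pairSpin_congr {D : Finset V} {η η' : V → Bool} (h : ∀ v ∈ D, η v = η' v)
    {e : Sym2 V} (he : e ∈ edgesIn G D) : pairSpin η e = pairSpin η' e := by
  induction e using Sym2.ind with
  | _ x y =>
    rw [mem_edgesIn] at he
    show spin (η x) * spin (η y) = spin (η' x) * spin (η' y)
    rw [h x he.1, h y he.2.1]

theorem wt_congr {D : Finset V} {η η' : V → Bool} (h : ∀ v ∈ D, η v = η' v) :
    wt G θ D η = wt G θ D η' := by
  unfold wt
  congr 1
  refine Finset.prod_congr rfl (fun e he => ?_)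
  rw [pairSpin_congr h he]

theorem real_cyl (hμ : IsFreeIsing G θ μ) {D : Finset V} (hD : (G.induce (D : Set V)).Connected)
    (η : V → Bool) : μ.real (cyl D η) = wt G θ D η := hμ.cylinder D hD η

theorem integral_eq_sum_wt (hμ : IsFreeIsing G θ μ) {D : Finset V}
    (hD : (G.induce (D : Set V)).Connected) {F : (V → Bool) → ℝ} (hF : DependsOn F (D : Set V)) :
    ∫ s, F s ∂μ = ∑ A ∈ D.powerset, wt G θ D (pat A) * F (pat A) := by
  have := hμ.isProb
  rw [integral_eq_sum D hF]
  exact Finset.sum_congr rfl (fun A _ => by rw [real_cyl hμ hD])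

theorem edge_split [Countable V] (hG : G.IsTree) (hμ : IsFreeIsing G θ μ) {a b : V}
    (hab : G.Adj a b) {S T : Finset V} (hS : ∀ x ∈ S, G.dist x a < G.dist x b)
    (hT : ∀ x ∈ T, G.dist x b < G.dist x a) {F H : (V → Bool) → ℝ}
    (hF : DependsOn F (S : Set V)) (hH : DependsOn H (T : Set V)) :
    ∫ s, F s * H s ∂μ = (∫ s, F s ∂μ) * (∫ s, H s ∂μ)
      + θ * (∫ s, F s * spin (s a) ∂μ) * (∫ s, H s * spin (s b) ∂μ) := by
  classical
  obtain ⟨D, hSD, haD, hDc, hDside⟩ := exists_connected_side hG hab S hS
  obtain ⟨E, hTE, hbE, hEc, hEside⟩ := exists_connected_side hG hab.symm T hT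
  have hnot : ∀ x, x ∈ D → x ∈ E → False := fun x h1 h2 => by
    have := hDside x h1
    have := hEside x h2
    omega
  have hFD : DependsOn F (D : Set V) := fun x y h => hF (fun i hi => h i (hSD hi))
  have hHE : DependsOn H (E : Set V) := fun x y h => hH (fun i hi => h i (hTE hi))
  have hFa : DependsOn (fun s : V → Bool => F s * spin (s a)) (D : Set V) := fun x y h => by
    show F x * spin (x a) = F y * spin (y a)
    rw [hFD h, h a haD]
  have hHb : DependsOn (fun s : V → Bool => H s * spin (s b)) (E : Set V) := fun x y h => by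
    show H x * spin (x b) = H y * spin (y b)
    rw [hHE h, h b hbE]
  have hDEc : (G.induce ((D ∪ E : Finset V) : Set V)).Connected := by
    rw [Finset.coe_union]
    exact SimpleGraph.connected_induce_union hDc.preconnected hEc.preconnected
      (Finset.mem_coe.2 haD) (Finset.mem_coe.2 hbE) hab
  have hFH : DependsOn (fun s => F s * H s) ((D ∪ E : Finset V) : Set V) := fun x y h => by
    show F x * H x = F y * H y
    rw [hFD (fun i hi => h i (Finset.mem_coe.2 (Finset.mem_union_left _ hi))),
      hHE (fun i hi => h i (Finset.mem_coe.2 (Finset.mem_union_right _ hi)))]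
  rw [integral_eq_sum_wt hμ hDEc hFH, integral_eq_sum_wt hμ hDc hFD, integral_eq_sum_wt hμ hEc hHE,
    integral_eq_sum_wt hμ hDc hFa, integral_eq_sum_wt hμ hEc hHb]
  have key : ∑ A ∈ (D ∪ E).powerset, wt G θ (D ∪ E) (pat A) * (F (pat A) * H (pat A))
      = ∑ p ∈ D.powerset ×ˢ E.powerset,
        (wt G θ D (pat p.1) * F (pat p.1)) * (wt G θ E (pat p.2) * H (pat p.2))
          * (1 + θ * (spin (pat p.1 a) * spin (pat p.2 b))) := by
    refine Finset.sum_nbij' (fun A => (A ∩ D, A ∩ E)) (fun p => p.1 ∪ p.2) ?_ ?_ ?_ ?_ ?_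
    · intro A _
      simp only [Finset.mem_product, Finset.mem_powerset]
      exact ⟨Finset.inter_subset_right, Finset.inter_subset_right⟩
    · intro p hp
      simp only [Finset.mem_product, Finset.mem_powerset] at hp ⊢
      exact Finset.union_subset_union hp.1 hp.2
    · intro A hA
      rw [Finset.mem_powerset] at hA
      show A ∩ D ∪ A ∩ E = A
      rw [← Finset.inter_union_distrib_left, Finset.inter_eq_left.2 hA]
    · intro p hp
      simp only [Finset.mem_product, Finset.mem_powerset] at hp
      ext x
      · simp only [Finset.mem_inter, Finset.mem_union]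
        constructor
        · rintro ⟨h1 | h1, h2⟩
          · exact h1
          · exact (hnot x h2 (hp.2 h1)).elim
        · intro h1
          exact ⟨Or.inl h1, hp.1 h1⟩
      · simp only [Finset.mem_inter, Finset.mem_union]
        constructor
        · rintro ⟨h1 | h1, h2⟩
          · exact (hnot x (hp.1 h1) h2).elim
          · exact h1
        · intro h1
          exact ⟨Or.inr h1, hp.2 h1⟩
    · intro A hA
      have hD1 : ∀ v ∈ D, pat A v = pat (A ∩ D) v := by
        intro v hv
        simp only [pat]
        congr 1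
        simp [hv]
      have hE1 : ∀ v ∈ E, pat A v = pat (A ∩ E) v := by
        intro v hv
        simp only [pat]
        congr 1
        simp [hv]
      rw [wt_union hG hab haD hbE hDside hEside (D ∪ E) (fun x => Finset.mem_union),
        wt_congr hD1, wt_congr hE1, hFD hD1, hHE hE1, hD1 a haD, hE1 b hbE]
      ring
  rw [key, Finset.sum_product, Finset.sum_mul_sum, mul_assoc θ, Finset.sum_mul_sum,
    Finset.mul_sum, ← Finset.sum_add_distrib]
  refine Finset.sum_congr rfl (fun A _ => ?_)
  rw [Finset.mul_sum, ← Finset.sum_add_distrib]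
  refine Finset.sum_congr rfl (fun B _ => ?_)
  ring

theorem IsFreeIsing.unique (hG : G.Connected) (hμ : IsFreeIsing G θ μ)
    (hμ' : IsFreeIsing G θ μ') : μ = μ' := by
  classical
  have := hμ.isProb
  have := hμ'.isProb
  -- agreement on connected sets
  have hconn : ∀ D : Finset V, (G.induce (D : Set V)).Connected →
      μ.map D.restrict = μ'.map D.restrict := by
    intro D hD
    have hm : Measurable (D.restrict : (V → Bool) → (D → Bool)) :=
      measurable_pi_lambda _ (fun _ => measurable_pi_apply _)
    refine Measure.ext_of_singleton (fun ξ => ?_)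
    rw [Measure.map_apply hm (MeasurableSet.singleton ξ),
      Measure.map_apply hm (MeasurableSet.singleton ξ)]
    have e : (D.restrict : (V → Bool) → (D → Bool)) ⁻¹' {ξ}
        = cyl D (fun v => if h : v ∈ D then ξ ⟨v, h⟩ else false) := by
      ext σ
      simp only [Set.mem_preimage, Set.mem_singleton_iff, cyl, Set.mem_ofPred_eq]
      constructor
      · rintro rfl v hv
        simp [hv]
      · intro h
        funext v
        have := h v.1 v.2
        simpa using this
    rw [e]
    have h1 := real_cyl hμ hD (fun v => if h : v ∈ D then ξ ⟨v, h⟩ else false)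
    have h2 := real_cyl hμ' hD (fun v => if h : v ∈ D then ξ ⟨v, h⟩ else false)
    have h3 := h1.trans h2.symm
    rwa [Measure.real, Measure.real, ENNReal.toReal_eq_toReal_iff' (measure_ne_top _ _)
      (measure_ne_top _ _)] at h3
  have hall : ∀ I : Finset V, μ.map I.restrict = μ'.map I.restrict := by
    intro I
    obtain ⟨v0⟩ := hG.nonempty
    obtain ⟨D, hID, hD⟩ := G.extend_finset_to_connected hG.preconnected
      (t := insert v0 I) ⟨v0, Finset.mem_insert_self _ _⟩
    have hID' : I ⊆ D := fun x hx => hID (Finset.mem_insert_of_mem hx)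
    have hm : Measurable (D.restrict : (V → Bool) → (D → Bool)) :=
      measurable_pi_lambda _ (fun _ => measurable_pi_apply _)
    have hm2 : Measurable (fun (f : (i : D) → Bool) (i : I) => f ⟨i.1, hID' i.2⟩) :=
      measurable_pi_lambda _ (fun i => measurable_pi_apply (⟨i.1, hID' i.2⟩ : D))
    have e : (I.restrict : (V → Bool) → (I → Bool))
        = (fun (f : (i : D) → Bool) (i : I) => f ⟨i.1, hID' i.2⟩) ∘
          (D.restrict : (V → Bool) → (D → Bool)) := rfl
    rw [e, ← Measure.map_map hm2 hm, ← Measure.map_map hm2 hm, hconn D hD]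
  refine IsProjectiveLimit.unique (P := fun I => μ'.map I.restrict) hall (fun I => rfl)

theorem IsFreeIsing.map_aut (hG : G.Connected) (hμ : IsFreeIsing G θ μ) (g : G ≃g G) :
    μ.map (fun s v => s (g.symm v)) = μ := by
  classical
  have hprob := hμ.isProb
  have hm : Measurable (fun (s : V → Bool) v => s (g.symm v)) :=
    measurable_pi_lambda _ (fun v => measurable_pi_apply (g.symm v))
  refine IsFreeIsing.unique hG (θ := θ) ⟨?_, ?_⟩ hμ
  · exact Measure.isProbabilityMeasure_map hm.aemeasurable
  · intro D hD η
    have h1 : MeasurableSet {σ : V → Bool | ∀ v ∈ D, σ v = η v} := measurableSet_cyl D η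
    rw [map_measureReal_apply hm h1]
    set D' := D.image g.symm with hD'
    have e : (fun (s : V → Bool) v => s (g.symm v)) ⁻¹' {σ : V → Bool | ∀ v ∈ D, σ v = η v}
        = {σ | ∀ v ∈ D', σ v = η (g v)} := by
      ext σ
      simp only [Set.mem_preimage, Set.mem_ofPred_eq, hD', Finset.mem_image]
      constructor
      · rintro h v ⟨w, hw, rfl⟩
        rw [h w hw]
        simp
      · intro h v hv
        have := h (g.symm v) ⟨v, hv, rfl⟩
        simpa using this
    rw [e]
    have hDc : (G.induce (D' : Set V)).Connected := by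
      have e2 : (D' : Set V) = g.symm '' (D : Set V) := by
        rw [hD', Finset.coe_image]
      rw [e2]
      let f : G.induce (D : Set V) →g G.induce (g.symm '' (D : Set V)) :=
        ⟨fun x => ⟨g.symm x.1, Set.mem_image_of_mem _ x.2⟩, fun {x y} h => by
          rw [SimpleGraph.induce_adj] at h ⊢
          exact g.symm.map_adj_iff.2 h⟩
      refine hD.map f ?_
      rintro ⟨y, x, hx, rfl⟩
      exact ⟨⟨x, hx⟩, rfl⟩
    rw [hμ.cylinder D' hDc]
    congr 1
    refine Finset.prod_nbij' (fun e => Sym2.map g e) (fun e => Sym2.map g.symm e) ?_ ?_ ?_ ?_ ?_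
    · intro e
      induction e using Sym2.ind with
      | _ x y =>
        rw [Sym2.map_mk, mem_edgesIn, mem_edgesIn]
        rintro ⟨hx, hy, hxy⟩
        refine ⟨?_, ?_, g.map_adj_iff.2 hxy⟩
        · obtain ⟨w, hw, rfl⟩ := Finset.mem_image.1 hx
          simpa using hw
        · obtain ⟨w, hw, rfl⟩ := Finset.mem_image.1 hy
          simpa using hw
    · intro e
      induction e using Sym2.ind with
      | _ x y =>
        rw [Sym2.map_mk, mem_edgesIn, mem_edgesIn]
        rintro ⟨hx, hy, hxy⟩
        exact ⟨Finset.mem_image_of_mem _ hx, Finset.mem_image_of_mem _ hy,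
          g.symm.map_adj_iff.2 hxy⟩
    · intro e _
      induction e using Sym2.ind with
      | _ x y => simp
    · intro e _
      induction e using Sym2.ind with
      | _ x y => simp
    · intro e _
      induction e using Sym2.ind with
      | _ x y => rfl

end P161
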