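import Vale.Agent.P161.Local
import Vale.Agent.P161.Split

/-!
# Posterior densities and the covariance recursion on a tree
-/

open MeasureTheory Set

namespace P161

universe u

variable {V : Type u} {G : SimpleGraph V} {θ : ℝ} {μ : Measure (V → Bool)}

/-- posterior mean of the spin at `v` -/
noncomputable def mean (μ : Measure (V → Bool)) (ρ : (V → Bool) → ℝ) (v : V) : ℝ :=
  ∫ s, ρ s * spin (s v) ∂μ

/-- posterior covariance of the spins at `v` and `w` -/
noncomputable def cov (μ : Measure (V → Bool)) (ρ : (V → Bool) → ℝ) (v w : V) : ℝ :=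
  ∫ s, ρ s * (spin (s v) * spin (s w)) ∂μ - mean μ ρ v * mean μ ρ w

/-- reweighting by the factor `1 + t (σ_w - m_w)` -/
noncomputable def upd (μ : Measure (V → Bool)) (ρ : (V → Bool) → ℝ) (w : V) (t : ℝ) :
    (V → Bool) → ℝ :=
  fun s => ρ s * (1 + t * (spin (s w) - mean μ ρ w))

/-- positive local probability density which factorises across every edge -/
structure Post (G : SimpleGraph V) (μ : Measure (V → Bool)) (ρ : (V → Bool) → ℝ) : Prop where
  loc : Loc ρ
  pos : ∀ s, 0 < ρ s
  mass : ∫ s, ρ s ∂μ = 1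
  split : ∀ a b, G.Adj a b → ∃ ρA ρB : (V → Bool) → ℝ, ∃ S T : Finset V,
    (∀ x ∈ S, G.dist x a < G.dist x b) ∧ (∀ x ∈ T, G.dist x b < G.dist x a) ∧
    DependsOn ρA (S : Set V) ∧ DependsOn ρB (T : Set V) ∧ (∀ s, 0 < ρA s) ∧ (∀ s, 0 < ρB s) ∧
    ∀ s, ρ s = ρA s * ρB s

theorem Post.one [IsProbabilityMeasure μ] : Post G μ (fun _ => 1) where
  loc := Loc.const 1
  pos := fun _ => one_pos
  mass := by simp
  split := fun a b _ => ⟨fun _ => 1, fun _ => 1, ∅, ∅, by simp, by simp, fun _ _ _ => rfl,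
    fun _ _ _ => rfl, fun _ => one_pos, fun _ => one_pos, by simp⟩

section basic

variable {ρ : (V → Bool) → ℝ} [IsProbabilityMeasure μ]

theorem Post.abs_int_le (h : Post G μ ρ) {f : (V → Bool) → ℝ} (hf : Loc f)
    (hb : ∀ s, |f s| ≤ 1) : |∫ s, ρ s * f s ∂μ| ≤ 1 := by
  calc |∫ s, ρ s * f s ∂μ| ≤ ∫ s, |ρ s * f s| ∂μ := abs_integral_le_integral_abs
    _ ≤ ∫ s, ρ s ∂μ := by
        refine integral_mono ((h.loc.mul hf).abs.integrable μ) (h.loc.integrable μ) ?_
        intro s
        simp only [abs_mul, abs_of_pos (h.pos s)]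
        have := hb s
        have := (h.pos s).le
        nlinarith
    _ = 1 := h.mass

theorem Post.abs_mean_le (h : Post G μ ρ) (v : V) : |mean μ ρ v| ≤ 1 :=
  h.abs_int_le (Loc.coord v) fun s => (abs_spin _).le

theorem cov_self (h : Post G μ ρ) (v : V) : cov μ ρ v v = 1 - mean μ ρ v ^ 2 := by
  unfold cov
  have : ∀ s : V → Bool, ρ s * (spin (s v) * spin (s v)) = ρ s := fun s => by
    rw [spin_mul_self, mul_one]
  simp_rw [this, h.mass]
  ring

/-- posterior expectation of a local function after an update -/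
theorem int_upd (h : Loc ρ) (w : V) (t : ℝ) {f : (V → Bool) → ℝ} (hf : Loc f) :
    ∫ s, upd μ ρ w t s * f s ∂μ = ∫ s, ρ s * f s ∂μ +
      t * (∫ s, ρ s * (f s * spin (s w)) ∂μ - (∫ s, ρ s * f s ∂μ) * mean μ ρ w) := by
  have h1 : ∀ s, upd μ ρ w t s * f s
      = (1 - t * mean μ ρ w) * (ρ s * f s) + t * (ρ s * (f s * spin (s w))) := fun s => by
    unfold upd; ring
  simp_rw [h1]
  rw [integral_add ((h.mul hf).const_mul _ |>.integrable μ)
    ((h.mul (hf.mul (Loc.coord w))).const_mul _ |>.integrable μ), integral_const_mul,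
    integral_const_mul]
  ring

theorem mean_upd (h : Loc ρ) (w : V) (t : ℝ) (v : V) :
    mean μ (upd μ ρ w t) v = mean μ ρ v + t * cov μ ρ v w := by
  unfold mean cov
  rw [int_upd h w t (Loc.coord v)]
  rfl

theorem Post.upd (h : Post G μ ρ) (w : V) {t : ℝ} (ht : |t| ≤ 1 / 4) (hG : G.IsTree) :
    Post G μ (upd μ ρ w t) := by
  classical
  have hm := h.abs_mean_le w
  have hfac : ∀ s : V → Bool, 0 < 1 + t * (spin (s w) - mean μ ρ w) := fun s => by
    have h1 : |t * (spin (s w) - mean μ ρ w)| ≤ 1 / 4 * 2 := by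
      rw [abs_mul]
      refine mul_le_mul ht ?_ (abs_nonneg _) (by norm_num)
      calc |spin (s w) - mean μ ρ w| ≤ |spin (s w)| + |mean μ ρ w| := abs_sub _ _
        _ ≤ 2 := by rw [abs_spin]; linarith
    have := (abs_le.1 h1).1
    linarith
  have hloc : Loc (fun s : V → Bool => 1 + t * (spin (s w) - mean μ ρ w)) :=
    (Loc.const 1).add (((Loc.coord w).sub (Loc.const _)).const_mul t)
  have hdep : DependsOn (fun s : V → Bool => 1 + t * (spin (s w) - mean μ ρ w))
      (({w} : Finset V) : Set V) := by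
    intro x y hxy
    have := hxy w (by simp)
    simp only [this]
  refine ⟨h.loc.mul hloc, fun s => mul_pos (h.pos s) (hfac s), ?_, ?_⟩
  · have := int_upd (μ := μ) h.loc w t (Loc.const 1)
    simp only [mul_one, one_mul] at this
    rw [this, h.mass]
    simp [mean]
  · intro a b hab
    obtain ⟨ρA, ρB, S, T, hS, hT, hA, hB, hpA, hpB, heq⟩ := h.split a b hab
    rcases lt_or_gt_of_ne (hG.dist_ne_of_adj w hab) with hlt | hgt
    · refine ⟨fun s => ρA s * (1 + t * (spin (s w) - mean μ ρ w)), ρB, S ∪ {w}, T, ?_, hT,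
        ?_, hB, fun s => mul_pos (hpA s) (hfac s), hpB, ?_⟩
      · intro x hx
        rcases Finset.mem_union.1 hx with hx | hx
        · exact hS x hx
        · rw [Finset.mem_singleton.1 hx]; exact hlt
      · intro x y hxy
        have e1 : ρA x = ρA y := hA fun i hi => hxy i (by simp at hi ⊢; exact Or.inr hi)
        have e2 : x w = y w := hxy w (by simp)
        simp only [e1, e2]
      · intro s
        simp only [P161.upd, heq s]
        ring
    · refine ⟨ρA, fun s => ρB s * (1 + t * (spin (s w) - mean μ ρ w)), S, T ∪ {w}, hS, ?_,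
        hA, ?_, hpA, fun s => mul_pos (hpB s) (hfac s), ?_⟩
      · intro x hx
        rcases Finset.mem_union.1 hx with hx | hx
        · exact hT x hx
        · rw [Finset.mem_singleton.1 hx]; exact hgt
      · intro x y hxy
        have e1 : ρB x = ρB y := hB fun i hi => hxy i (by simp at hi ⊢; exact Or.inr hi)
        have e2 : x w = y w := hxy w (by simp)
        simp only [e1, e2]
      · intro s
        simp only [P161.upd, heq s]
        ring

end basic

/-- the algebraic heart: covariances factor through an edge -/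
theorem edge_algebra {θ A1 Aa B1 Bb : ℝ} (h0 : 0 ≤ θ) (h1 : θ < 1) (hA : 0 < A1)
    (hAa : |Aa| ≤ A1) (hZ : A1 * B1 + θ * Aa * Bb = 1) :
    ∃ κ, 0 ≤ κ ∧ κ ≤ θ ∧
      θ * ((Aa * B1 + θ * A1 * Bb) - κ * (A1 * Bb + θ * Aa * B1)) ^ 2
        = (θ - κ) * (1 - κ * θ) ∧
      ∀ h k : ℝ, (Aa * h + θ * A1 * k) - (Aa * B1 + θ * A1 * Bb) * (A1 * h + θ * Aa * k)
        = κ * ((A1 * k + θ * Aa * h) - (A1 * Bb + θ * Aa * B1) * (A1 * h + θ * Aa * k)) := by
  have hAa2 : Aa ^ 2 ≤ A1 ^ 2 := sq_le_sq' (by linarith [(abs_le.1 hAa).1]) (abs_le.1 hAa).2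
  have hth : θ ^ 2 < 1 := by nlinarith
  have hN : 0 < A1 ^ 2 - θ ^ 2 * Aa ^ 2 := by
    have : θ ^ 2 * Aa ^ 2 ≤ θ ^ 2 * A1 ^ 2 := by gcongr
    nlinarith [pow_pos hA 2]
  set N := A1 ^ 2 - θ ^ 2 * Aa ^ 2 with hNdef
  refine ⟨θ * (A1 ^ 2 - Aa ^ 2) / N, ?_, ?_, ?_, ?_⟩
  · apply div_nonneg _ hN.le
    exact mul_nonneg h0 (by linarith)
  · rw [div_le_iff₀ hN]
    have : A1 ^ 2 - Aa ^ 2 ≤ N := by
      rw [hNdef]; nlinarith [sq_nonneg Aa]
    exact mul_le_mul_of_nonneg_left this h0
  · have e1 : (Aa * B1 + θ * A1 * Bb) - θ * (A1 ^ 2 - Aa ^ 2) / N * (A1 * Bb + θ * Aa * B1)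
        = (1 - θ ^ 2) * A1 * Aa / N := by
      rw [eq_div_iff hN.ne', sub_mul]
      have : θ * (A1 ^ 2 - Aa ^ 2) / N * (A1 * Bb + θ * Aa * B1) * N
          = θ * (A1 ^ 2 - Aa ^ 2) * (A1 * Bb + θ * Aa * B1) := by
        field_simp
      rw [this, hNdef]
      linear_combination ((1 - θ ^ 2) * A1 * Aa) * hZ
    have e2 : θ - θ * (A1 ^ 2 - Aa ^ 2) / N = θ * (1 - θ ^ 2) * Aa ^ 2 / N := by
      rw [eq_div_iff hN.ne', sub_mul, div_mul_cancel₀ _ hN.ne', hNdef]
      ring
    have e3 : 1 - θ * (A1 ^ 2 - Aa ^ 2) / N * θ = (1 - θ ^ 2) * A1 ^ 2 / N := by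
      rw [eq_div_iff hN.ne']
      have : (1 - θ * (A1 ^ 2 - Aa ^ 2) / N * θ) * N = N - θ * (A1 ^ 2 - Aa ^ 2) * θ := by
        field_simp
      rw [this, hNdef]
      ring
    rw [e1, e2, e3]
    ring
  · intro h k
    rw [div_mul_eq_mul_div, eq_div_iff hN.ne', hNdef]
    linear_combination (-(1 - θ ^ 2) * A1 * Aa * (A1 * h + θ * Aa * k)) * hZ

theorem Post.cov_rec [Countable V] (hG : G.IsTree) (hμ : IsFreeIsing G θ μ) (h0 : 0 ≤ θ)
    (h1 : θ < 1) {ρ : (V → Bool) → ℝ} (h : Post G μ ρ) {a b : V} (hab : G.Adj a b) :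
    ∃ κ, 0 ≤ κ ∧ κ ≤ θ ∧
      θ * (mean μ ρ a - κ * mean μ ρ b) ^ 2 = (θ - κ) * (1 - κ * θ) ∧
      ∀ w, G.dist w b < G.dist w a → cov μ ρ a w = κ * cov μ ρ b w := by
  classical
  haveI := hμ.isProb
  obtain ⟨ρA, ρB, S, T, hS, hT, hA, hB, hpA, hpB, heq⟩ := h.split a b hab
  have haa : G.dist a a < G.dist a b := by
    rw [SimpleGraph.dist_self]; exact (hG.connected.pos_dist_of_ne hab.ne)
  have hbb : G.dist b b < G.dist b a := by
    rw [SimpleGraph.dist_self]; exact (hG.connected.pos_dist_of_ne hab.ne.symm)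
  have hS' : ∀ x ∈ S ∪ {a}, G.dist x a < G.dist x b := by
    intro x hx
    rcases Finset.mem_union.1 hx with hx | hx
    · exact hS x hx
    · rw [Finset.mem_singleton.1 hx]; exact haa
  have key : ∀ (T' : Finset V), (∀ x ∈ T', G.dist x b < G.dist x a) → T ⊆ T' →
      ∀ fa fb : (V → Bool) → ℝ, DependsOn fa ((S ∪ {a} : Finset V) : Set V) →
      DependsOn fb (T' : Set V) →
      ∫ s, ρ s * (fa s * fb s) ∂μ = (∫ s, ρA s * fa s ∂μ) * (∫ s, ρB s * fb s ∂μ)
        + θ * (∫ s, ρA s * fa s * spin (s a) ∂μ) * (∫ s, ρB s * fb s * spin (s b) ∂μ) := by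
    intro T' hT' hTT' fa fb hfa hfb
    have e := edge_split (F := fun s => ρA s * fa s) (H := fun s => ρB s * fb s) hG hμ hab hS'
      hT' ?_ ?_
    · rw [← e]
      congr 1
      ext s
      rw [heq s]; ring
    · intro x y hxy
      have e1 : ρA x = ρA y := hA fun i hi => hxy i (by simp at hi ⊢; exact Or.inr hi)
      simp only [e1, hfa hxy]
    · intro x y hxy
      have e1 : ρB x = ρB y := hB fun i hi => hxy i (hTT' hi)
      simp only [e1, hfb hxy]
  have done : ∀ x : ℝ, x * 1 = x := mul_one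
  have dep1 : ∀ X : Finset V, DependsOn (fun _ : V → Bool => (1 : ℝ)) (X : Set V) :=
    fun X x y _ => rfl
  have depc : ∀ (X : Finset V) (v : V), v ∈ X →
      DependsOn (fun s : V → Bool => spin (s v)) (X : Set V) := by
    intro X v hv x y hxy
    have := hxy v (by simpa using hv)
    simp only [this]
  set A1 := ∫ s, ρA s ∂μ with hA1
  set Aa := ∫ s, ρA s * spin (s a) ∂μ with hAa
  set B1 := ∫ s, ρB s ∂μ with hB1
  set Bb := ∫ s, ρB s * spin (s b) ∂μ with hBb
  have sq : ∀ (f : (V → Bool) → ℝ) (v : V),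
      (fun s : V → Bool => f s * spin (s v) * spin (s v)) = f := by
    intro f v
    ext s
    rw [mul_assoc, spin_mul_self, mul_one]
  have hTb : ∀ x ∈ T ∪ {b}, G.dist x b < G.dist x a := by
    intro x hx
    rcases Finset.mem_union.1 hx with hx | hx
    · exact hT x hx
    · rw [Finset.mem_singleton.1 hx]; exact hbb
  -- mass
  have hZ : A1 * B1 + θ * Aa * Bb = 1 := by
    have := key (T ∪ {b}) hTb Finset.subset_union_left (fun _ => 1) (fun _ => 1) (dep1 _) (dep1 _)
    simp only [mul_one] at this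
    rw [h.mass] at this
    exact this.symm
  have hma : mean μ ρ a = Aa * B1 + θ * A1 * Bb := by
    have := key (T ∪ {b}) hTb Finset.subset_union_left (fun s => spin (s a)) (fun _ => 1)
      (depc _ _ (by simp)) (dep1 _)
    simp only [mul_one, sq ρA a] at this
    exact this
  have hmb : mean μ ρ b = A1 * Bb + θ * Aa * B1 := by
    have := key (T ∪ {b}) hTb Finset.subset_union_left (fun _ => 1) (fun s => spin (s b))
      (dep1 _) (depc _ _ (by simp))
    simp only [mul_one, one_mul, sq ρB b] at this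
    exact this
  have hApos : 0 < A1 := by
    have hAint : Integrable ρA μ := (Loc.of_dependsOn hA).integrable μ
    refine (integral_pos_iff_support_of_nonneg (fun s => (hpA s).le) hAint).2 ?_
    have : Function.support ρA = univ := by
      ext s; simp [(hpA s).ne']
    rw [this]; simp
  have hAabs : |Aa| ≤ A1 := by
    have hAint : Loc ρA := Loc.of_dependsOn hA
    calc |Aa| ≤ ∫ s, |ρA s * spin (s a)| ∂μ := abs_integral_le_integral_abs
      _ = A1 := by
          rw [hA1]; congr 1; ext s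
          rw [abs_mul, abs_spin, mul_one, abs_of_pos (hpA s)]
  obtain ⟨κ, hκ0, hκ1, hκ2, hκ3⟩ := edge_algebra h0 h1 hApos hAabs hZ
  refine ⟨κ, hκ0, hκ1, ?_, ?_⟩
  · rw [hma, hmb]; exact hκ2
  · intro w hw
    set h' := ∫ s, ρB s * spin (s w) ∂μ with hh'
    set k' := ∫ s, ρB s * spin (s w) * spin (s b) ∂μ with hk'
    have hTw : ∀ x ∈ T ∪ {b, w}, G.dist x b < G.dist x a := by
      intro x hx
      rcases Finset.mem_union.1 hx with hx | hx
      · exact hT x hx
      · rcases Finset.mem_insert.1 hx with hx | hx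
        · rw [hx]; exact hbb
        · rw [Finset.mem_singleton.1 hx]; exact hw
    have hmw : mean μ ρ w = A1 * h' + θ * Aa * k' := by
      have := key (T ∪ {b, w}) hTw Finset.subset_union_left (fun _ => 1) (fun s => spin (s w))
        (dep1 _) (depc _ _ (by simp))
      simp only [mul_one, one_mul] at this
      exact this
    have hmaw : ∫ s, ρ s * (spin (s a) * spin (s w)) ∂μ = Aa * h' + θ * A1 * k' := by
      have := key (T ∪ {b, w}) hTw Finset.subset_union_left (fun s => spin (s a))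
        (fun s => spin (s w)) (depc _ _ (by simp)) (depc _ _ (by simp))
      simp only [sq ρA a] at this
      exact this
    have hmbw : ∫ s, ρ s * (spin (s b) * spin (s w)) ∂μ = A1 * k' + θ * Aa * h' := by
      have := key (T ∪ {b, w}) hTw Finset.subset_union_left (fun _ => 1)
        (fun s => spin (s b) * spin (s w)) (dep1 _) (by
          intro x y hxy
          have e1 := depc (T ∪ {b, w}) b (by simp) hxy
          have e2 := depc (T ∪ {b, w}) w (by simp) hxy
          simp only at e1 e2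
          simp only [e1, e2])
      simp only [mul_one, one_mul] at this
      rw [this]
      have e1 : (fun s : V → Bool => ρB s * (spin (s b) * spin (s w)))
          = fun s => ρB s * spin (s w) * spin (s b) := by ext s; ring
      have e2 : (fun s : V → Bool => ρB s * (spin (s b) * spin (s w)) * spin (s b))
          = fun s => ρB s * spin (s w) := by
        ext s
        have := spin_mul_self (s b)
        linear_combination (ρB s * spin (s w)) * this
      rw [e1, e2]
    unfold cov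
    rw [hmaw, hmbw, hma, hmb, hmw]
    exact hκ3 h' k'

end P161
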