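import Vale.Agent.P161.Coins

/-!
# The localisation process and the comparison estimate
-/

open MeasureTheory Set

namespace P161

universe u

variable {V : Type u} {G : SimpleGraph V} {θ γ : ℝ} {μ : Measure (V → Bool)}

/-- density after processing the events of a list (the head is processed last) -/
noncomputable def dens (μ : Measure (V → Bool)) (γ : ℝ) :
    List (V × ℕ) → (V × ℕ → Bool) → (V → Bool) → ℝ
  | [], _ => fun _ => 1
  | e :: l, c => upd μ (dens μ γ l c) e.1 (γ * spin (c e))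

theorem dens_congr (l : List (V × ℕ)) {c c' : V × ℕ → Bool} (h : ∀ e ∈ l, c e = c' e) :
    dens μ γ l c = dens μ γ l c' := by
  induction l with
  | nil => rfl
  | cons e l ih =>
      simp only [dens]
      rw [ih fun e' he' => h e' (List.mem_cons_of_mem _ he'), h e List.mem_cons_self]

theorem loc_dens (F : ((V → Bool) → ℝ) → ℝ) (l : List (V × ℕ)) :
    Loc (fun c => F (dens μ γ l c)) := by
  classical
  refine ⟨l.toFinset, fun x y h => ?_⟩
  simp only
  rw [dens_congr l fun e he => h e (by simpa using he)]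

theorem ind_dens (F : ((V → Bool) → ℝ) → ℝ) {l : List (V × ℕ)} {e : V × ℕ} (he : e ∉ l) :
    Ind e (fun c => F (dens μ γ l c)) := by
  intro c
  simp only
  rw [dens_congr l fun e' he' => flipAt_ne (by rintro rfl; exact he he') c]

theorem dens_post [IsProbabilityMeasure μ] (hG : G.IsTree) (hγ : |γ| ≤ 1 / 4)
    (l : List (V × ℕ)) (c : V × ℕ → Bool) : Post G μ (dens μ γ l c) := by
  induction l with
  | nil => exact Post.one
  | cons e l ih =>
      refine ih.upd e.1 ?_ hG
      rw [abs_mul, abs_spin, mul_one]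
      exact hγ

/-- magnetisation at `v` after the events of `l` -/
noncomputable def mg (μ : Measure (V → Bool)) (γ : ℝ) (l : List (V × ℕ)) (v : V)
    (c : V × ℕ → Bool) : ℝ := mean μ (dens μ γ l c) v

/-- covariance of the spins at `v`, `w` after the events of `l` -/
noncomputable def cv (μ : Measure (V → Bool)) (γ : ℝ) (l : List (V × ℕ)) (v w : V)
    (c : V × ℕ → Bool) : ℝ := cov μ (dens μ γ l c) v w

theorem loc_mg (l : List (V × ℕ)) (v : V) : Loc (mg μ γ l v) :=
  loc_dens (fun ρ => mean μ ρ v) l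

theorem loc_cv (l : List (V × ℕ)) (v w : V) : Loc (cv μ γ l v w) :=
  loc_dens (fun ρ => cov μ ρ v w) l

theorem ind_mg {l : List (V × ℕ)} {e : V × ℕ} (he : e ∉ l) (v : V) : Ind e (mg μ γ l v) :=
  ind_dens (fun ρ => mean μ ρ v) he

theorem ind_cv {l : List (V × ℕ)} {e : V × ℕ} (he : e ∉ l) (v w : V) : Ind e (cv μ γ l v w) :=
  ind_dens (fun ρ => cov μ ρ v w) he

theorem dens_loc_spin (l : List (V × ℕ)) (c : V × ℕ → Bool) : Loc (dens μ γ l c) := by
  induction l with
  | nil => exact Loc.const 1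
  | cons e l ih =>
      exact ih.mul ((Loc.const 1).add (((Loc.coord e.1).sub (Loc.const _)).const_mul _))

theorem mg_cons [IsProbabilityMeasure μ] (e : V × ℕ) (l : List (V × ℕ)) (v : V)
    (c : V × ℕ → Bool) :
    mg μ γ (e :: l) v c = mg μ γ l v c + γ * spin (c e) * cv μ γ l v e.1 c := by
  unfold mg cv
  rw [dens, mean_upd (dens_loc_spin l c)]

section estimates

variable [IsProbabilityMeasure μ] {Q : Measure (V × ℕ → Bool)} [IsFiniteMeasure Q]

theorem abs_mg_le (hG : G.IsTree) (hγ : |γ| ≤ 1 / 4) (l : List (V × ℕ)) (v : V)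
    (c : V × ℕ → Bool) : |mg μ γ l v c| ≤ 1 :=
  (dens_post hG hγ l c).abs_mean_le v

theorem mg_sq_le (hG : G.IsTree) (hγ : |γ| ≤ 1 / 4) (l : List (V × ℕ)) (v : V)
    (c : V × ℕ → Bool) : mg μ γ l v c ^ 2 ≤ 1 := by
  have := abs_mg_le (μ := μ) hG hγ l v c
  rw [← sq_abs]
  nlinarith [abs_nonneg (mg μ γ l v c)]

/-- the `L²` difference of the magnetisations after `l` and after the sublist of events in `p` -/
noncomputable def Dd (μ : Measure (V → Bool)) (γ : ℝ) (Q : Measure (V × ℕ → Bool))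
    (p : V → Bool) (l : List (V × ℕ)) (v : V) : ℝ :=
  ∫ c, (mg μ γ (l.filter fun e => p e.1) v c - mg μ γ l v c) ^ 2 ∂Q

theorem Dd_cons (hQ : FlipInv Q) (p : V → Bool) {e : V × ℕ} {l : List (V × ℕ)} (he : e ∉ l)
    (v : V) :
    Dd μ γ Q p (e :: l) v = Dd μ γ Q p l v + γ ^ 2 * ∫ c,
      ((if p e.1 then cv μ γ (l.filter fun e => p e.1) v e.1 c else 0)
        - cv μ γ l v e.1 c) ^ 2 ∂Q := by
  have hef : e ∉ l.filter fun e => p e.1 := fun h => he (List.mem_filter.1 h).1
  unfold Dd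
  by_cases hp : p e.1
  · rw [List.filter_cons_of_pos (by simpa using hp)]
    simp only [hp, if_true, mg_cons]
    rw [← hQ.sq_add (e := e) ((loc_mg _ v).sub (loc_mg _ v)) ((loc_cv _ v e.1).sub (loc_cv _ v e.1))
      (fun c => by rw [ind_mg hef v c, ind_mg he v c])
      (fun c => by rw [ind_cv hef v e.1 c, ind_cv he v e.1 c])]
    congr 1
    ext c
    ring
  · have hp' : p e.1 = false := by simpa using hp
    rw [List.filter_cons_of_neg (by simpa using hp')]
    simp only [hp', mg_cons]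
    simp only [Bool.false_eq_true, if_false]
    rw [← hQ.sq_add (e := e) ((loc_mg _ v).sub (loc_mg _ v)) ((Loc.const 0).sub (loc_cv _ v e.1))
      (fun c => by rw [ind_mg hef v c, ind_mg he v c])
      (fun c => by rw [ind_cv he v e.1 c])]
    congr 1
    ext c
    ring

theorem Dd_nonneg (p : V → Bool) (l : List (V × ℕ)) (v : V) : 0 ≤ Dd μ γ Q p l v :=
  integral_nonneg fun _ => sq_nonneg _

theorem Dd_mono (hQ : FlipInv Q) (p : V → Bool) {l : List (V × ℕ)} (v : V) :
    ∀ l' : List (V × ℕ), (l' ++ l).Nodup → Dd μ γ Q p l v ≤ Dd μ γ Q p (l' ++ l) v := by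
  intro l'
  induction l' with
  | nil => intro _; exact le_rfl
  | cons e l' ih =>
      intro h
      rw [List.cons_append, List.nodup_cons] at h
      rw [List.cons_append, Dd_cons hQ p h.1]
      have := ih h.2
      have h2 : 0 ≤ γ ^ 2 * ∫ c, ((if p e.1 then cv μ γ ((l' ++ l).filter fun e => p e.1) v e.1 c
          else 0) - cv μ γ (l' ++ l) v e.1 c) ^ 2 ∂Q :=
        mul_nonneg (sq_nonneg _) (integral_nonneg fun _ => sq_nonneg _)
      linarith

theorem Dd_le (hG : G.IsTree) (hγ : |γ| ≤ 1 / 4) (p : V → Bool) (l : List (V × ℕ)) (v : V) :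
    Dd μ γ Q p l v ≤ 4 * Q.real univ := by
  have : Dd μ γ Q p l v ≤ ∫ _, (4 : ℝ) ∂Q := by
    refine integral_mono ((((loc_mg _ v).sub (loc_mg _ v)).pow 2).integrable Q)
      (integrable_const _) fun c => ?_
    have h1 := abs_le.1 (abs_mg_le (μ := μ) (γ := γ) hG hγ (l.filter fun e => p e.1) v c)
    have h2 := abs_le.1 (abs_mg_le (μ := μ) (γ := γ) hG hγ l v c)
    simp only
    nlinarith
  rwa [integral_const, smul_eq_mul, mul_comm] at this

/-- integrated comparison of covariances -/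
theorem cv_diff_int [Countable V] (hG : G.IsTree) (hμ : IsFreeIsing G θ μ) (h0 : 0 ≤ θ)
    (h1 : θ ^ 2 < 1 / 2) (hγ : |γ| ≤ 1 / 4) {t s r K : ℝ} (ht : 1 < t) (hr : 0 < r)
    (hs : t * t * θ ^ 2 ≤ s * r) (hs1 : s < 1) (hK4 : 4 ≤ K)
    (hK : Cst θ t * (1 + t) ≤ (1 - s) * K)
    {Ψ : V → ℝ} (hΨ : ∀ v, 0 < Ψ v) (hΨt : ∀ v w, G.Adj v w → Ψ w ≤ t * Ψ v)
    (l₁ l₂ : List (V × ℕ)) {X : ℝ} (hX : 0 ≤ X)
    (hD : ∀ w, ∫ c, (mg μ γ l₁ w c - mg μ γ l₂ w c) ^ 2 ∂Q ≤ X * Ψ w) :
    ∀ (n : ℕ) (v w : V), G.dist v w = n →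
      ∫ c, (cv μ γ l₁ v w c - cv μ γ l₂ v w c) ^ 2 ∂Q ≤ K * r ^ n * (X * Ψ v) := by
  have hθr : θ ^ 2 ≤ r := by
    have htt : 1 ≤ t * t := by nlinarith
    have : θ ^ 2 ≤ t * t * θ ^ 2 := le_mul_of_one_le_left (sq_nonneg θ) htt
    nlinarith
  intro n
  induction n with
  | zero =>
      intro v w hvw
      have : v = w := (hG.connected v w).dist_eq_zero_iff.1 hvw
      subst this
      rw [pow_zero, mul_one]
      calc ∫ c, (cv μ γ l₁ v v c - cv μ γ l₂ v v c) ^ 2 ∂Q
          ≤ ∫ c, 4 * (mg μ γ l₁ v c - mg μ γ l₂ v c) ^ 2 ∂Q := by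
            refine integral_mono ((((loc_cv _ v v).sub (loc_cv _ v v)).pow 2).integrable Q)
              (((((loc_mg _ v).sub (loc_mg _ v)).pow 2).const_mul 4).integrable Q) fun c => ?_
            simp only
            have e1 : cv μ γ l₁ v v c = 1 - mg μ γ l₁ v c ^ 2 :=
              cov_self (dens_post hG hγ l₁ c) v
            have e2 : cv μ γ l₂ v v c = 1 - mg μ γ l₂ v c ^ 2 :=
              cov_self (dens_post hG hγ l₂ c) v
            rw [e1, e2]
            have b1 := abs_le.1 (abs_mg_le (μ := μ) (γ := γ) hG hγ l₁ v c)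
            have b2 := abs_le.1 (abs_mg_le (μ := μ) (γ := γ) hG hγ l₂ v c)
            have : (1 - mg μ γ l₁ v c ^ 2 - (1 - mg μ γ l₂ v c ^ 2)) ^ 2
                = (mg μ γ l₁ v c + mg μ γ l₂ v c) ^ 2 * (mg μ γ l₁ v c - mg μ γ l₂ v c) ^ 2 := by
              ring
            rw [this]
            apply mul_le_mul_of_nonneg_right _ (sq_nonneg _)
            nlinarith
        _ = 4 * ∫ c, (mg μ γ l₁ v c - mg μ γ l₂ v c) ^ 2 ∂Q := integral_const_mul _ _
        _ ≤ 4 * (X * Ψ v) := by gcongr; exact hD v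
        _ ≤ K * (X * Ψ v) := by
            apply mul_le_mul_of_nonneg_right hK4 (mul_nonneg hX (hΨ v).le)
  | succ n ih =>
      intro v w hvw
      have hne : v ≠ w := by
        rintro rfl
        simp at hvw
      obtain ⟨z, hz, hzd⟩ := exists_next hG.connected hne
      have hzw : G.dist z w = n := by omega
      have ht0 : 0 < t := by linarith
      have hC := Cst_nonneg (θ := θ) ht
      calc ∫ c, (cv μ γ l₁ v w c - cv μ γ l₂ v w c) ^ 2 ∂Q
          ≤ ∫ c, (t * θ ^ 2 * (cv μ γ l₁ z w c - cv μ γ l₂ z w c) ^ 2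
              + Cst θ t * (θ ^ 2) ^ (G.dist v w) *
              ((mg μ γ l₁ v c - mg μ γ l₂ v c) ^ 2
                + (mg μ γ l₁ z c - mg μ γ l₂ z c) ^ 2)) ∂Q := by
            refine integral_mono ((((loc_cv _ v w).sub (loc_cv _ v w)).pow 2).integrable Q)
              (Loc.integrable (Loc.add ((((loc_cv _ z w).sub (loc_cv _ z w)).pow 2).const_mul _)
                (Loc.const_mul _ ((((loc_mg _ v).sub (loc_mg _ v)).pow 2).add
                  (((loc_mg _ z).sub (loc_mg _ z)).pow 2)))) Q) fun c => ?_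
            exact (dens_post hG hγ l₁ c).cov_diff hG hμ h0 h1 (dens_post hG hγ l₂ c) ht hz hzd
        _ = t * θ ^ 2 * ∫ c, (cv μ γ l₁ z w c - cv μ γ l₂ z w c) ^ 2 ∂Q
              + Cst θ t * (θ ^ 2) ^ (G.dist v w) *
              (∫ c, (mg μ γ l₁ v c - mg μ γ l₂ v c) ^ 2 ∂Q
                + ∫ c, (mg μ γ l₁ z c - mg μ γ l₂ z c) ^ 2 ∂Q) := by
            have a1 : Loc (fun c => t * θ ^ 2 * (cv μ γ l₁ z w c - cv μ γ l₂ z w c) ^ 2) :=
              (((loc_cv _ z w).sub (loc_cv _ z w)).pow 2).const_mul _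
            have a2 : Loc (fun c => (mg μ γ l₁ v c - mg μ γ l₂ v c) ^ 2) :=
              ((loc_mg l₁ v).sub (loc_mg l₂ v)).pow 2
            have a3 : Loc (fun c => (mg μ γ l₁ z c - mg μ γ l₂ z c) ^ 2) :=
              ((loc_mg l₁ z).sub (loc_mg l₂ z)).pow 2
            rw [integral_add (a1.integrable Q)
              (((a2.add a3).const_mul (Cst θ t * (θ ^ 2) ^ (G.dist v w))).integrable Q),
              integral_const_mul, integral_const_mul,
              integral_add (a2.integrable Q) (a3.integrable Q)]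
        _ ≤ t * θ ^ 2 * (K * r ^ n * (X * Ψ z))
              + Cst θ t * (θ ^ 2) ^ (n + 1) * (X * Ψ v + X * Ψ z) := by
            rw [hvw]
            gcongr
            · exact ih z w hzw
            · exact hD v
            · exact hD z
        _ ≤ t * θ ^ 2 * (K * r ^ n * (X * (t * Ψ v)))
              + Cst θ t * r ^ (n + 1) * (X * Ψ v + X * (t * Ψ v)) := by
            have := hΨt v z hz
            have hK0 : 0 ≤ K := by linarith
            have hΨv := (hΨ v).le
            have hΨz := (hΨ z).le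
            gcongr
        _ = (t * t * θ ^ 2 * K + Cst θ t * (1 + t) * r) * r ^ n * (X * Ψ v) := by ring
        _ ≤ (s * r * K + (1 - s) * K * r) * r ^ n * (X * Ψ v) := by
            have hK0 : 0 ≤ K := by linarith
            have hΨv := (hΨ v).le
            gcongr
        _ = K * r ^ (n + 1) * (X * Ψ v) := by ring

end estimates

end P161
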